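import Vale.Agent.P240.R2.H938.W5

/-!
Package II: the group generated by `L` and an element that acts as a diagonal matrix with one entry
`ζ` of order `p`.
-/

set_option autoImplicit false
set_option linter.all false

namespace Vale.Agent.P240.R2.H938

open Matrix Vale.Agent.P240.R2.H38 Vale.Agent.P240.K
open Vale.Agent.P240.R2.AS hiding SU
open scoped Classical

universe u v w

noncomputable section

section
variable {K : Type u} [Field K] [Fintype K] [StarRing K] {n : ℕ}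
variable {p : ℕ} {ζ : K} {G : Type v} [Group G]

variable (K n) in
/-- the matrices with determinant of order `p` -/
def SZ (p : ℕ) : Subgroup (GU K n) where
  carrier := {g | g.1.det ^ p = 1}
  mul_mem' := by
    intro a b ha hb
    show (a.1 * b.1).det ^ p = 1
    rw [det_mul, mul_pow]
    exact (congrArg₂ (· * ·) ha hb).trans (one_mul 1)
  one_mem' := by
    show (1 : Matrix (Fin n) (Fin n) K).det ^ p = 1
    rw [det_one, one_pow]
  inv_mem' := by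
    intro a ha
    show (star a.1).det ^ p = 1
    have h : a.1.det ^ p = 1 := ha
    rw [star_eq_conjTranspose, det_conjTranspose, ← star_pow, h, star_one]

lemma SZ_conj : ∀ u : GU K n, ∀ g ∈ SZ K n p, u * g * u⁻¹ ∈ SZ K n p := by
  intro u g hg
  show (u.1 * g.1 * star u.1).det ^ p = 1
  rw [det_conj]
  exact hg

lemma SZ_gmap (σ : K ≃+* K) (hσ : ∀ a, σ (star a) = star (σ a)) :
    ∀ g ∈ SZ K n p, gmap σ hσ g ∈ SZ K n p := by
  intro g hg
  show (g.1.map σ).det ^ p = 1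
  have h1 : (g.1.map σ).det = σ g.1.det := (RingEquiv.map_det σ g.1).symm
  have h2 : g.1.det ^ p = 1 := hg
  rw [h1, ← map_pow, h2, map_one]

omit [Fintype K] [StarRing K] in
lemma pow_mod_eq_of {M : Type*} [Monoid M] (x : M) (hx : x ^ p = 1) (k : ℕ) : x ^ (k % p) = x ^ k := by
  conv_rhs => rw [← Nat.mod_add_div k p]
  rw [pow_add, pow_mul, hx, one_pow, mul_one]

lemma SU_le_SZ : SU K n ≤ SZ K n p := by
  intro g hg
  have h : g.1.det = 1 := hg
  show g.1.det ^ p = 1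
  rw [h, one_pow]

/-- the data of package II -/
structure P2 (p : ℕ) (ζ : K) (L : Subgroup G) (ε : SU K n →* G) (s : GU K n) (e₁ : G) : Prop where
  hn : 2 ≤ n
  pow : ζ ^ p = 1
  ne : ζ ≠ 1
  st : ζ * star ζ = 1
  no : ∀ b : K, b * star b = 1 → ∀ k : ℕ, b ^ n * ζ ^ k = 1 → ζ ^ k = 1
  range : ε.range = L
  ker : ∀ g : SU K n, ε g = 1 ↔ ∃ a : K, mx g = a • (1 : Matrix (Fin n) (Fin n) K)
  det : s.1.det = ζ
  sp : s ^ p = 1
  ep : e₁ ^ p = 1
  act : ∀ x : SU K n, e₁ * ε x * e₁⁻¹ = ε (cjU s x)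
  not : e₁ ∉ L ⊔ Subgroup.centralizer (L : Set G)

variable {L : Subgroup G} {ε : SU K n →* G} {s : GU K n} {e₁ : G}

lemma gu_pow_coe (s : GU K n) (k : ℕ) : (s ^ k).1 = s.1 ^ k := rfl

/-- the homomorphism, extended by `1` -/
def eT (ε : SU K n →* G) (g : GU K n) : G := if h : g ∈ SU K n then ε ⟨g, h⟩ else 1

lemma eT_of (ε : SU K n →* G) {g : GU K n} (h : g ∈ SU K n) : eT ε g = ε ⟨g, h⟩ := dif_pos h

lemma eT_coe (ε : SU K n →* G) (x : SU K n) : eT ε x.1 = ε x := dif_pos x.2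

lemma eT_one (ε : SU K n →* G) : eT ε 1 = 1 := by
  rw [eT_of ε (SU K n).one_mem]
  exact map_one ε

lemma eT_mul (ε : SU K n →* G) {g g' : GU K n} (h : g ∈ SU K n) (h' : g' ∈ SU K n) :
    eT ε (g * g') = eT ε g * eT ε g' := by
  rw [eT_of ε h, eT_of ε h', eT_of ε ((SU K n).mul_mem h h'), ← map_mul]
  rfl

lemma eT_range (ε : SU K n →* G) (g : GU K n) : eT ε g ∈ ε.range := by
  rw [eT]
  split_ifs
  · exact ⟨_, rfl⟩
  · exact ε.range.one_mem

lemma SU_conj (u : GU K n) {g : GU K n} (h : g ∈ SU K n) : u * g * u⁻¹ ∈ SU K n := by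
  show (u.1 * g.1 * star u.1).det = 1
  rw [det_conj]
  exact h

lemma P2.act_pow (h : P2 p ζ L ε s e₁) (k : ℕ) {g : GU K n} (hg : g ∈ SU K n) :
    e₁ ^ k * eT ε g * (e₁ ^ k)⁻¹ = eT ε (s ^ k * g * (s ^ k)⁻¹) := by
  induction k generalizing g with
  | zero =>
    rw [pow_zero, pow_zero, inv_one, inv_one, one_mul, mul_one, one_mul, mul_one]
  | succ k ih =>
    have h1 : e₁ ^ (k + 1) * eT ε g * (e₁ ^ (k + 1))⁻¹ =
        e₁ ^ k * (e₁ * eT ε g * e₁⁻¹) * (e₁ ^ k)⁻¹ := by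
      rw [pow_succ]; group
    have h2 : e₁ * eT ε g * e₁⁻¹ = eT ε (s * g * s⁻¹) := by
      rw [eT_of ε hg, h.act, eT_of ε (SU_conj s hg)]
      rfl
    rw [h1, h2, ih (SU_conj s hg)]
    congr 1
    rw [pow_succ]
    group

lemma P2.order [hp : Fact p.Prime] (h : P2 p ζ L ε s e₁) : orderOf e₁ = p :=
  orderOf_eq_prime h.ep fun h0 => h.not (h0 ▸ Subgroup.one_mem _)

lemma P2.zorder [hp : Fact p.Prime] (h : P2 p ζ L ε s e₁) : orderOf ζ = p :=
  orderOf_eq_prime h.pow h.ne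

lemma P2.prim [hp : Fact p.Prime] (h : P2 p ζ L ε s e₁) : IsPrimitiveRoot ζ p := by
  rw [← h.zorder]
  exact IsPrimitiveRoot.orderOf ζ

lemma P2.sk [hp : Fact p.Prime] (h : P2 p ζ L ε s e₁) {k l : ℕ} (hkl : ζ ^ k = ζ ^ l) :
    s ^ k = s ^ l ∧ e₁ ^ k = e₁ ^ l := by
  have h1 : k % p = l % p := by
    refine h.prim.pow_inj (Nat.mod_lt _ hp.out.pos) (Nat.mod_lt _ hp.out.pos) ?_
    have h2 := pow_mod_orderOf ζ k
    have h3 := pow_mod_orderOf ζ l
    rw [h.zorder] at h2 h3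
    rw [h2, h3, hkl]
  constructor
  · rw [← pow_mod_eq_of s h.sp k, ← pow_mod_eq_of s h.sp l, h1]
  · rw [← pow_mod_eq_of e₁ h.ep k, ← pow_mod_eq_of e₁ h.ep l, h1]

lemma P2.exists_k [hp : Fact p.Prime] (h : P2 p ζ L ε s e₁) (g : SZ K n p) :
    ∃ k : ℕ, g.1.1.det = ζ ^ k := by
  haveI : NeZero p := ⟨hp.out.ne_zero⟩
  obtain ⟨k, -, hk⟩ := h.prim.eq_pow_of_pow_eq_one (ξ := g.1.1.det) g.2
  exact ⟨k, hk.symm⟩

/-- the value of the homomorphism, for an exponent `k` -/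
def fv (ε : SU K n →* G) (s : GU K n) (e₁ : G) (g : GU K n) (k : ℕ) : G :=
  eT ε (g * (s ^ k)⁻¹) * e₁ ^ k

lemma P2.memSU (h : P2 p ζ L ε s e₁) {g : GU K n} {k : ℕ} (hk : g.1.det = ζ ^ k) :
    g * (s ^ k)⁻¹ ∈ SU K n := by
  show (g.1 * star (s ^ k).1).det = 1
  have h1 : (s ^ k).1 = s.1 ^ k := rfl
  rw [det_mul, hk, h1, star_pow, det_pow, star_eq_conjTranspose, det_conjTranspose, h.det,
    ← mul_pow, h.st, one_pow]

lemma P2.fv_congr [hp : Fact p.Prime] (h : P2 p ζ L ε s e₁) {g : GU K n} {k l : ℕ}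
    (hk : g.1.det = ζ ^ k) (hl : g.1.det = ζ ^ l) : fv ε s e₁ g k = fv ε s e₁ g l := by
  obtain ⟨h1, h2⟩ := h.sk (hk.symm.trans hl)
  rw [fv, fv, h2, h1]

lemma P2.fv_mul (h : P2 p ζ L ε s e₁) {g g' : GU K n} {k l : ℕ}
    (hk : g.1.det = ζ ^ k) (hl : g'.1.det = ζ ^ l) :
    fv ε s e₁ g k * fv ε s e₁ g' l = fv ε s e₁ (g * g') (k + l) := by
  rw [fv, fv, fv]
  have h1 : eT ε (g * (s ^ k)⁻¹) * e₁ ^ k * (eT ε (g' * (s ^ l)⁻¹) * e₁ ^ l) =
      eT ε (g * (s ^ k)⁻¹) * (e₁ ^ k * eT ε (g' * (s ^ l)⁻¹) * (e₁ ^ k)⁻¹) * e₁ ^ (k + l) := by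
    rw [pow_add]; group
  rw [h1, h.act_pow k (h.memSU hl), ← eT_mul ε (h.memSU hk) (SU_conj _ (h.memSU hl))]
  congr 2
  rw [pow_add, _root_.mul_inv_rev]
  have h2 : (s ^ l)⁻¹ * (s ^ k)⁻¹ = (s ^ l)⁻¹ * (s ^ k)⁻¹ := rfl
  simp only [mul_assoc, inv_mul_cancel_left]

/-- the homomorphism of package II -/
def P2.hom [hp : Fact p.Prime] (h : P2 p ζ L ε s e₁) : SZ K n p →* G where
  toFun g := fv ε s e₁ g.1 (h.exists_k g).choose
  map_one' := by
    have h0 : (1 : GU K n).1.det = ζ ^ 0 := by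
      show (1 : Matrix (Fin n) (Fin n) K).det = ζ ^ 0
      rw [det_one, pow_zero]
    have h1 : fv ε s e₁ (1 : GU K n) 0 = 1 := by
      rw [fv, pow_zero, pow_zero, mul_one, inv_one, mul_one, eT_one]
    exact (h.fv_congr (h.exists_k 1).choose_spec h0).trans h1
  map_mul' a b := by
    have h0 : (a.1 * b.1).1.det = ζ ^ ((h.exists_k a).choose + (h.exists_k b).choose) := by
      show (a.1.1 * b.1.1).det = _
      rw [det_mul, pow_add, ← (h.exists_k a).choose_spec, ← (h.exists_k b).choose_spec]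
    rw [h.fv_mul (h.exists_k a).choose_spec (h.exists_k b).choose_spec]
    exact h.fv_congr (h.exists_k (a * b)).choose_spec h0

lemma P2.hom_eq [hp : Fact p.Prime] (h : P2 p ζ L ε s e₁) (g : SZ K n p) {k : ℕ}
    (hk : g.1.1.det = ζ ^ k) : h.hom g = fv ε s e₁ g.1 k :=
  h.fv_congr (h.exists_k g).choose_spec hk

lemma P2.hom_SU [hp : Fact p.Prime] (h : P2 p ζ L ε s e₁) (x : SU K n) :
    h.hom ⟨x.1, SU_le_SZ x.2⟩ = ε x := by
  have h0 : x.1.1.det = ζ ^ 0 := by rw [pow_zero]; exact x.2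
  rw [h.hom_eq ⟨x.1, SU_le_SZ x.2⟩ h0, fv, pow_zero, pow_zero, mul_one, inv_one, mul_one, eT_coe]

lemma P2.s_mem (h : P2 p ζ L ε s e₁) : s ∈ SZ K n p := by
  show s.1.det ^ p = 1
  rw [h.det, h.pow]

lemma P2.hom_s [hp : Fact p.Prime] (h : P2 p ζ L ε s e₁) : h.hom ⟨s, h.s_mem⟩ = e₁ := by
  have h0 : s.1.det = ζ ^ 1 := by rw [pow_one, h.det]
  rw [h.hom_eq ⟨s, h.s_mem⟩ h0, fv, pow_one, pow_one, mul_inv_cancel, eT_one, one_mul]

lemma P2.range_hom [hp : Fact p.Prime] (h : P2 p ζ L ε s e₁) :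
    h.hom.range = L ⊔ Subgroup.zpowers e₁ := by
  apply le_antisymm
  · rintro _ ⟨g, rfl⟩
    obtain ⟨k, hk⟩ := h.exists_k g
    rw [h.hom_eq g hk, fv, ← h.range]
    exact Subgroup.mul_mem _ (Subgroup.mem_sup_left (eT_range ε _)) (Subgroup.mem_sup_right
      (Subgroup.pow_mem _ (Subgroup.mem_zpowers e₁) k))
  · refine sup_le (fun y hy => ?_) ?_
    · rw [← h.range] at hy
      obtain ⟨x, rfl⟩ := hy
      exact ⟨_, h.hom_SU x⟩
    · rw [Subgroup.zpowers_le]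
      exact ⟨_, h.hom_s⟩

lemma P2.ker_hom [hp : Fact p.Prime] (h : P2 p ζ L ε s e₁) [Finite G] (g : SZ K n p) :
    h.hom g = 1 ↔ ∃ a : K, mx g = a • (1 : Matrix (Fin n) (Fin n) K) := by
  obtain ⟨k, hk⟩ := h.exists_k g
  have key : ∀ hu : g.1 ∈ SU K n, h.hom g = ε ⟨g.1, hu⟩ := fun hu => h.hom_SU ⟨g.1, hu⟩
  constructor
  · intro h1
    have h2 := h1
    rw [h.hom_eq g hk, fv] at h2
    have h3 : e₁ ^ k = 1 := by
      refine pow_mem_iff h.ep h.not (Subgroup.pow_mem _ (Subgroup.mem_zpowers e₁) k) ?_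
      rw [eq_inv_of_mul_eq_one_right h2]
      have h4 := eT_range ε (g.1 * (s ^ k)⁻¹)
      rw [h.range] at h4
      exact Subgroup.inv_mem _ (Subgroup.mem_sup_left h4)
    have h4 : ζ ^ k = 1 := by
      rw [← orderOf_dvd_iff_pow_eq_one] at h3 ⊢
      rwa [h.zorder, ← h.order]
    have hu : g.1 ∈ SU K n := by
      show g.1.1.det = 1
      rw [hk, h4]
    rw [key hu, h.ker] at h1
    exact h1
  · rintro ⟨a, ha⟩
    have hn0 : 0 < n := by have := h.hn; omega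
    have ha1 : a * star a = 1 := by
      have h1 := mx_star g
      rw [ha, star_smul, star_one, smul_mul_smul_comm, one_mul] at h1
      have h2 := congrFun (congrFun h1 ⟨0, hn0⟩) ⟨0, hn0⟩
      rwa [Matrix.smul_apply, one_apply_eq, smul_eq_mul, mul_one] at h2
    have hdet : a ^ n = ζ ^ k := by
      have h1 : (mx g).det = a ^ n := by
        rw [ha, det_smul, det_one, Fintype.card_fin, mul_one]
      rw [← h1]
      exact hk
    have hpk : k + (p - 1) * k = p * k := by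
      obtain ⟨r, hr⟩ : ∃ r, p = r + 1 := ⟨p - 1, by have := hp.out.pos; omega⟩
      rw [hr, Nat.add_sub_cancel]
      ring
    have h3 : ζ ^ ((p - 1) * k) = 1 := by
      refine h.no a ha1 _ ?_
      rw [hdet, ← pow_add, hpk, pow_mul, h.pow, one_pow]
    have h4 : ζ ^ k = 1 := by
      have h5 : ζ ^ (k + (p - 1) * k) = 1 := by
        rw [hpk, pow_mul, h.pow, one_pow]
      rwa [pow_add, h3, mul_one] at h5
    have hu : g.1 ∈ SU K n := by
      show g.1.1.det = 1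
      rw [hk, h4]
    rw [key hu, h.ker]
    exact ⟨a, ha⟩

lemma P2.mem [hp : Fact p.Prime] (h : P2 p ζ L ε s e₁) {w : List (Ln K n)} (hw : Orth w) :
    ∃ g : SZ K n p, mx g = sM ζ 1 w := by
  obtain ⟨g, hg⟩ := top_mem (K := K) h.st hw
  refine ⟨⟨g.1, ?_⟩, hg⟩
  show (mx g).det ^ p = 1
  rw [hg, det_sM hw, ← pow_mul, mul_comm, pow_mul, h.pow, one_pow]

/-- **Package II.** -/
theorem P2.pack [hp : Fact p.Prime] [Finite G] (h : P2 p ζ L ε s e₁) :
    Pack p ζ (SZ K n p) h.hom := by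
  have hsS : ∀ {w : List (Ln K n)}, Orth w → mx (sS (SZ K n p) ζ 1 w) = sM ζ 1 w := by
    intro w hw
    rw [sS, dif_pos (h.mem hw)]
    exact (h.mem hw).choose_spec
  refine ⟨h.hn, fun w hw => h.mem hw, ?_, fun g hg => (h.ker_hom g).1 hg⟩
  refine comb_lift h.ne h.st h.ker_hom (fun w => sS (SZ K n p) ζ 1 w) ?_
  have hc := H938.comb_eW (n := n) h.pow h.ne h.st
  refine comb_of (MonoidHom.id (PGU K n)) Function.injective_id (fun w hw => ?_) hc
  refine congrArg QuotientGroup.mk (Subtype.ext ?_)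
  show mx (sS (SZ K n p) ζ 1 w) = _
  rw [hsS hw, sM_one, H687.eU_val (H687.isPr_sm hw) h.st]

/-- semilinear elements that commute with `e₁` -/
lemma P2.acts [hp : Fact p.Prime] (h : P2 p ζ L ε s e₁) {t : G} {g₀ : GU K n} {σ : K ≃+* K}
    (ht : ActsS ε t g₀ σ) (hσ : σ ζ = ζ) (hte : t * e₁ = e₁ * t)
    (hs : g₀ * gmap σ ht.1 s = s * g₀) : ActsS h.hom t g₀ σ := by
  refine ⟨ht.1, fun x x' hx => ?_⟩
  obtain ⟨k, hk⟩ := h.exists_k x
  have hk' : x'.1.1.det = ζ ^ k := by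
    have h1 : (mx x').det = σ (mx x).det := by
      rw [hx, det_conj]
      exact (RingEquiv.map_det σ (mx x)).symm
    have h2 : (mx x).det = ζ ^ k := hk
    show (mx x').det = ζ ^ k
    rw [h1, h2, map_pow, hσ]
  rw [h.hom_eq x hk, h.hom_eq x' hk', fv, fv]
  have h1 : ∀ y : G, t * (y * e₁ ^ k) * t⁻¹ = (t * y * t⁻¹) * e₁ ^ k := by
    intro y
    have h2 : Commute t (e₁ ^ k) := Commute.pow_right hte k
    calc t * (y * e₁ ^ k) * t⁻¹ = t * y * (e₁ ^ k * t⁻¹) := by simp only [mul_assoc]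
      _ = t * y * (t⁻¹ * e₁ ^ k) := by rw [h2.inv_left.eq]
      _ = _ := by simp only [mul_assoc]
  rw [h1]
  congr 1
  have h3 : ∀ j : ℕ, g₀ * gmap σ ht.1 (s ^ j) = s ^ j * g₀ := by
    intro j
    induction j with
    | zero =>
      apply Subtype.ext
      show g₀.1 * ((s ^ 0).1).map σ = (s ^ 0).1 * g₀.1
      rw [pow_zero]
      show g₀.1 * (1 : Matrix (Fin n) (Fin n) K).map σ = 1 * g₀.1
      rw [map_one_mat, mul_one, one_mul]
    | succ j ih =>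
      have h4 : gmap σ ht.1 (s ^ (j + 1)) = gmap σ ht.1 (s ^ j) * gmap σ ht.1 s := by
        apply Subtype.ext
        show (s.1 ^ (j + 1)).map σ = (s.1 ^ j).map σ * s.1.map σ
        rw [pow_succ, map_mul_mat]
      rw [h4, ← mul_assoc, ih, mul_assoc, hs, ← mul_assoc, pow_succ]
  rw [eT_of ε (h.memSU hk), eT_of ε (h.memSU hk')]
  refine ht.2 _ _ ?_
  have h4 : (x'.1 : GU K n) = g₀ * gmap σ ht.1 x.1 * g₀⁻¹ := Subtype.ext hx
  have h5 : gmap σ ht.1 (x.1 * (s ^ k)⁻¹) = gmap σ ht.1 x.1 * (gmap σ ht.1 (s ^ k))⁻¹ := by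
    apply Subtype.ext
    show (x.1.1 * star (s ^ k).1).map σ = x.1.1.map σ * star ((s ^ k).1.map σ)
    rw [map_mul_mat, map_star_mat ht.1]
  have h6 : x'.1 * (s ^ k)⁻¹ = g₀ * gmap σ ht.1 (x.1 * (s ^ k)⁻¹) * g₀⁻¹ := by
    have h7 : (gmap σ ht.1 (s ^ k))⁻¹ = g₀⁻¹ * (s ^ k)⁻¹ * g₀ := by
      rw [inv_eq_iff_eq_inv, _root_.mul_inv_rev, _root_.mul_inv_rev, inv_inv, inv_inv, ← mul_assoc,
        mul_assoc, ← h3 k, inv_mul_cancel_left]
    rw [h5, h4, h7]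
    group
  exact congrArg Subtype.val h6

lemma mem_SZ {s₀ : GU K n} (h1 : s₀.1.det = ζ) (h2 : ζ ^ p = 1) : s₀ ∈ SZ K n p := by
  show s₀.1.det ^ p = 1
  rw [h1, h2]

/-- the group of a frame; `s₀` is a diagonal matrix with the determinant of `s` -/
lemma P2.au [hp : Fact p.Prime] [Finite G] (h : P2 p ζ L ε s e₁) {s₀ : GU K n} {d : Fin n → K}
    (hs : s₀.1 = diagonal d) (hdet : s₀.1.det = ζ) (hsp : s₀ ^ p = 1) (v : GU K n) :
    (TD K p (SZ K n p)).map (h.hom.comp (cjH SZ_conj v)) =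
      Au p ε v ⊔ Subgroup.zpowers (h.hom (cjH SZ_conj v ⟨s₀, mem_SZ hdet h.pow⟩)) := by
  have hcj : ∀ x : SU K n, h.hom (cjH SZ_conj v ⟨x.1, SU_le_SZ x.2⟩) = ε (cjU v x) := by
    intro x
    exact h.hom_SU (cjU v x)
  have hdp : ∀ i, d i ^ p = 1 := by
    intro i
    have h1 : (s₀ ^ p).1 = 1 := by rw [hsp]; rfl
    have h2 : (s₀ ^ p).1 = s₀.1 ^ p := rfl
    rw [h2, hs, diagonal_pow, ← diagonal_one] at h1
    exact congrFun (diagonal_injective h1) i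
  have hmem : ∀ {g : GU K n} {k : ℕ}, g.1.det = ζ ^ k → g * (s₀ ^ k)⁻¹ ∈ SU K n := by
    intro g k hk
    show (g.1 * star (s₀ ^ k).1).det = 1
    have h1 : (s₀ ^ k).1 = s₀.1 ^ k := rfl
    rw [det_mul, hk, h1, star_pow, det_pow, star_eq_conjTranspose, det_conjTranspose, hdet,
      ← mul_pow, h.st, one_pow]
  apply le_antisymm
  · rintro _ ⟨g, ⟨d', h1, h2⟩, rfl⟩
    obtain ⟨k, hk⟩ := h.exists_k g
    set x : SU K n := ⟨g.1 * (s₀ ^ k)⁻¹, hmem hk⟩ with hx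
    have hxT : x ∈ TD K p (SU K n) := by
      refine ⟨fun i => d' i * star (d i) ^ k, fun i => ?_, ?_⟩
      · rw [mul_pow, h1, one_mul, ← pow_mul, mul_comm, pow_mul, ← star_pow, hdp, star_one, one_pow]
      · have h3 : mx x = mx g * star (s₀.1 ^ k) := rfl
        rw [h3, h2, hs, diagonal_pow, star_eq_conjTranspose, diagonal_conjTranspose,
          diagonal_mul_diagonal]
        congr 1
        funext i
        rw [Pi.star_apply, Pi.pow_apply, star_pow]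
    have hgx : g = ⟨x.1, SU_le_SZ x.2⟩ * ⟨s₀, mem_SZ hdet h.pow⟩ ^ k := by
      apply Subtype.ext
      show g.1 = g.1 * (s₀ ^ k)⁻¹ * s₀ ^ k
      rw [inv_mul_cancel_right]
    rw [hgx, map_mul, map_pow]
    refine Subgroup.mul_mem _ (Subgroup.mem_sup_left ?_) (Subgroup.mem_sup_right
      (Subgroup.pow_mem _ (Subgroup.mem_zpowers _) k))
    exact ⟨x, hxT, (hcj x).symm⟩
  · refine sup_le ?_ ?_
    · rintro _ ⟨x, ⟨d', h1, h2⟩, rfl⟩
      exact ⟨⟨x.1, SU_le_SZ x.2⟩, ⟨d', h1, h2⟩, hcj x⟩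
    · rw [Subgroup.zpowers_le]
      exact ⟨⟨s₀, mem_SZ hdet h.pow⟩, ⟨d, hdp, hs⟩, rfl⟩

end

end

end Vale.Agent.P240.R2.H938
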