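import Vale.Agent.P240.R2.H472.FewU
import Vale.Agent.P240.R2.H63.Inj
import Vale.Agent.P240.R2.H923.TR5
import Vale.Agent.P240.R2.H687.NL6

/-!
`FewAut p (PSU_n(q))` when `gcd (n, q + 1) = p` and no field automorphism has order `p`; the case
`n = p = 3`, `9 ∤ q + 1`.
-/

set_option autoImplicit false
set_option linter.all false

namespace Vale.Agent.P240.R2.H938

open Subgroup Vale.Agent.P240.R2.H472
open Vale.Agent.P240.R2.AS
open Vale.Agent.P240.H195 (FewAut OutAut)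
open Vale.Agent.P240.R2.H63.As (il th_inj th_surj th_psu)

universe u

noncomputable section

variable {K : Type} [Field K] [Fintype K] [StarRing K] {n q p : ℕ}

/-- the norm one elements modulo `n`-th powers form a group of order `p` -/
lemma Rn_cyc (hp : p.Prime) (hq : 2 ≤ q) (hK : Nat.card K = q ^ 2) (hs : ∀ x : K, star x = x ^ q)
    (hg : n.gcd (q + 1) = p) {x y : K} (hx : x * star x = 1) (hy : y * star y = 1)
    (hxn : ¬ Rn n x) : ∃ k : ℕ, Rn n (y * (x ^ k)⁻¹) := by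
  haveI : Fact p.Prime := ⟨hp⟩
  obtain ⟨g, hgen⟩ := IsCyclic.exists_generator (α := Kˣ)
  have hord : orderOf g = (q - 1) * (q + 1) := by
    rw [orderOf_eq_card_of_forall_mem_zpowers hgen, Nat.card_units, hK]
    obtain ⟨m, rfl⟩ : ∃ m, q = m + 2 := ⟨q - 2, by omega⟩
    have e1 : m + 2 - 1 = m + 1 := by omega
    rw [e1]
    have e2 : (m + 2) ^ 2 = (m + 1) * (m + 2 + 1) + 1 := by ring
    omega
  have key : ∀ z : K, z * star z = 1 → ∃ a : ℤ, z = ((g ^ (q - 1) : Kˣ) : K) ^ a := by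
    intro z hz
    have hz0 := norm_ne hz
    obtain ⟨a, ha⟩ := Subgroup.mem_zpowers_iff.1 (hgen (Units.mk0 z hz0))
    have h1 : z ^ (q + 1) = 1 := by rw [pow_succ', ← hs, hz]
    have h2 : g ^ (a * (q + 1 : ℕ)) = 1 := by
      rw [zpow_mul, ha, zpow_natCast]
      apply Units.ext
      rw [Units.val_pow_eq_pow_val, Units.val_mk0, h1, Units.val_one]
    have h3 := orderOf_dvd_iff_zpow_eq_one.2 h2
    rw [hord, Nat.cast_mul] at h3
    have h4 : ((q - 1 : ℕ) : ℤ) ∣ a :=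
      Int.dvd_of_mul_dvd_mul_right (by
        have : 0 < q + 1 := by omega
        exact_mod_cast this.ne') h3
    obtain ⟨b, hb⟩ := h4
    refine ⟨b, ?_⟩
    have h5 : ((g ^ (q - 1) : Kˣ) : K) ^ b = ((g ^ a : Kˣ) : K) := by
      rw [hb, zpow_mul, zpow_natCast, ← Units.val_zpow_eq_zpow_val]
    rw [h5, ha, Units.val_mk0]
  set η : K := ((g ^ (q - 1) : Kˣ) : K) with hη
  have hηN : η * star η = 1 := by
    have h1 : (g ^ (q - 1)) ^ (q + 1) = 1 := by
      rw [← pow_mul, ← hord, pow_orderOf_eq_one]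
    have h2 := congrArg Units.val h1
    rw [Units.val_pow_eq_pow_val, Units.val_one] at h2
    rw [hs, ← pow_succ']
    exact h2
  have hη0 : η ≠ 0 := norm_ne hηN
  have hpow : ∀ c : ℤ, Rn n (η ^ ((p : ℤ) * c)) := by
    intro c
    have h1 : (η ^ c) * star (η ^ c) = 1 := by
      rw [star_zpow₀, ← mul_zpow, hηN, one_zpow]
    have h2 := Rn_gcd hs n h1
    rw [hg] at h2
    rw [mul_comm, zpow_mul, zpow_natCast]
    exact h2
  obtain ⟨a, ha⟩ := key x hx
  obtain ⟨b, hb⟩ := key y hy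
  have hpa : ¬ (p : ℤ) ∣ a := by
    rintro ⟨c, hc⟩
    apply hxn
    rw [ha, hc]
    exact hpow c
  have ha0 : (a : ZMod p) ≠ 0 := by
    intro h
    exact hpa ((ZMod.intCast_zmod_eq_zero_iff_dvd a p).1 h)
  set k : ℕ := ((b : ZMod p) * (a : ZMod p)⁻¹).val with hk
  have hk1 : (k : ZMod p) = (b : ZMod p) * (a : ZMod p)⁻¹ := by
    rw [hk, ZMod.natCast_zmod_val]
  have h3 : (p : ℤ) ∣ b - k * a := by
    rw [← ZMod.intCast_zmod_eq_zero_iff_dvd]
    push_cast
    rw [hk1, mul_assoc, inv_mul_cancel₀ ha0, mul_one, sub_self]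
  obtain ⟨c, hc⟩ := h3
  refine ⟨k, ?_⟩
  have h4 : y * (x ^ k)⁻¹ = η ^ ((p : ℤ) * c) := by
    rw [← hc, hb, ha, zpow_sub₀ hη0, div_eq_mul_inv, mul_comm (k : ℤ) a, zpow_mul, zpow_natCast]
  rw [h4]
  exact hpow c

/-- **few outer automorphisms of order `p`** -/
theorem fewAut_gcd (hp : p.Prime) (hq : 4 ≤ q) (hq8 : q ≠ 8) (hK : Nat.card K = q ^ 2)
    (hs : ∀ x : K, star x = x ^ q) (hn : 3 ≤ n) (hg : n.gcd (q + 1) = p)
    (hf : ∀ s : SA K, s ^ p = 1 → s = 1) : FewAut p (PSU K n) := by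
  have hinj : Function.Injective (H63.As.th K n) :=
    th_inj (h := H63.Inj.inj (by omega) hK hs hn)
  have hsurj : Function.Surjective (H63.As.th K n) := by
    refine th_surj (h := fun α => ?_)
    rcases Nat.even_or_odd q with he | ho
    · exact H923.TR.stmtTReven K q hq hq8 he ⟨hK, hs⟩ n hn α
    · refine tr_PSU (by omega) hK hs (H221.two_ne ?_) hn α
      rw [hK]
      exact ho.pow
  have key : ∀ f g : MulAut (PSU K n), OutAut p f → OutAut p g →
      g ∈ zpowers f ⊔ (MulAut.conj (G := PSU K n)).range := by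
    intro f g hf1 hg1
    obtain ⟨y1, rfl⟩ := hsurj f
    obtain ⟨y2, rfl⟩ := hsurj g
    have e1 : y1 ^ p = 1 := hinj (by rw [map_pow, hf1.1, map_one])
    have e2 : y2 ^ p = 1 := hinj (by rw [map_pow, hg1.1, map_one])
    have r1 : y1.right = 1 := by
      apply hf
      have := congrArg (SemidirectProduct.rightHom : PGamU K n →* SA K) e1
      rw [map_pow, map_one] at this
      exact this
    have r2 : y2.right = 1 := by
      apply hf
      have := congrArg (SemidirectProduct.rightHom : PGamU K n →* SA K) e2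
      rw [map_pow, map_one] at this
      exact this
    have l1 := H63.As.mem_range_il r1
    have l2 := H63.As.mem_range_il r2
    obtain ⟨g1, hg1'⟩ := QuotientGroup.mk_surjective y1.left
    obtain ⟨g2, hg2'⟩ := QuotientGroup.mk_surjective y2.left
    rw [← hg1'] at l1
    rw [← hg2'] at l2
    have h1 : ¬ Rn n g1.1.det := by
      intro h
      apply hf1.2
      rw [← th_psu]
      exact ⟨y1, ⟨QuotientGroup.mk g1, mk_mem_PSU h, l1⟩, rfl⟩
    obtain ⟨k, hk⟩ := Rn_cyc hp (by omega) hK hs hg (det_norm g1) (det_norm g2) h1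
    have h2 : Rn n (g2 * (g1 ^ k)⁻¹).1.det := by
      have h3 : (g2 * (g1 ^ k)⁻¹).1.det = g2.1.det * (g1.1.det ^ k)⁻¹ := by
        have h4 : (g2 * (g1 ^ k)⁻¹).1 = g2.1 * star (g1 ^ k).1 := rfl
        have h5 : (g1 ^ k).1 = g1.1 ^ k := rfl
        have h6 := det_norm (g1 ^ k)
        rw [h4, Matrix.det_mul, Matrix.star_eq_conjTranspose, Matrix.det_conjTranspose]
        rw [← Matrix.det_pow, ← h5]
        rw [eq_inv_of_mul_eq_one_right h6]
      rw [h3]
      exact hk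
    have h3 : H63.As.th K n (y2 * (y1 ^ k)⁻¹) ∈ (MulAut.conj (G := PSU K n)).range := by
      rw [← th_psu]
      refine ⟨_, ⟨QuotientGroup.mk (g2 * (g1 ^ k)⁻¹), mk_mem_PSU h2, ?_⟩, rfl⟩
      rw [← l1, ← l2, ← map_pow, ← map_inv, ← map_mul]
      rfl
    have h4 : H63.As.th K n y2 = H63.As.th K n (y2 * (y1 ^ k)⁻¹) * (H63.As.th K n y1) ^ k := by
      rw [← map_pow, ← map_mul, inv_mul_cancel_right]
    rw [h4]
    exact mul_mem (mem_sup_right h3) (mem_sup_left (Subgroup.npow_mem_zpowers _ _))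
  exact ⟨fun f g _ hf hg _ => Or.inl (key f g hf hg), Or.inl key⟩

/-- **`FewAut 3 (PSU_3(q))`**, `9 ∤ q + 1`. -/
theorem fewAut_33 (hq : 4 ≤ q) (hK : Nat.card K = q ^ 2) (hs : ∀ x : K, star x = x ^ q)
    (h3 : 3 ∣ q + 1) (h9 : ¬ 9 ∣ q + 1) : FewAut 3 (PSU K 3) := by
  have hq8 : q ≠ 8 := by
    rintro rfl
    exact h9 (by norm_num)
  refine fewAut_gcd Nat.prime_three hq hq8 hK hs le_rfl (Nat.gcd_eq_left h3) fun s hs3 => ?_
  by_contra hne
  haveI : Fact (Nat.Prime 3) := ⟨Nat.prime_three⟩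
  obtain ⟨a, k, ha4, hqa, hpa, -⟩ := H687.fix_data2 (by omega) hK hs Nat.prime_three (by norm_num) h3
    (fun h => hq8 h.2) s (orderOf_eq_prime hs3 hne)
  apply h9
  obtain ⟨b, hb⟩ := hpa
  rw [hqa]
  obtain ⟨c, hc⟩ : ∃ c, a = 3 * c + 2 := ⟨b - 1, by omega⟩
  rw [hc]
  refine ⟨3 * c ^ 3 + 6 * c ^ 2 + 4 * c + 1, ?_⟩
  ring

end

end Vale.Agent.P240.R2.H938
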