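import Vale.Agent.P240.R2.H938.FamF

/-!
The property `LocTopF` from a family of subgroups `A` of `L` that are maximal among the elementary
abelian subgroups of `L` and such that the elementary abelian groups containing `A` have at most one
further generator outside `L ⊔ C(L)`.
-/

set_option linter.all false

namespace Vale.Agent.P240.R2.H938

open Finsupp hiding cons
open Subgroup Vale.Agent.P240.K Vale.Agent.P240.H195 Vale.Agent.P240.R2.H487

universe u v

section
variable {G : Type u} [Group G] {p : ℕ}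

/-- the powers of an element of order `p` outside a subgroup -/
lemma pow_mem_iff [hp : Fact p.Prime] {M : Subgroup G} {t : G} (htp : t ^ p = 1) (ht : t ∉ M)
    {y : G} (hy : y ∈ zpowers t) (hyM : y ∈ M) : y = 1 := by
  by_contra hne
  apply ht
  have h1 : orderOf t = p := orderOf_eq_prime htp fun h0 => ht (h0 ▸ one_mem M)
  have h2 : y ^ p = 1 := by
    obtain ⟨k, rfl⟩ := mem_zpowers_iff.1 hy
    rw [← zpow_natCast, ← zpow_mul, mul_comm, zpow_mul, zpow_natCast, htp, one_zpow]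
  have h3 : orderOf y = p := orderOf_eq_prime h2 hne
  have hfin : Finite (zpowers t) := by
    apply Nat.finite_of_card_ne_zero
    rw [Nat.card_zpowers, h1]
    exact hp.out.ne_zero
  have h4 : zpowers y = zpowers t := by
    apply Subgroup.eq_of_le_of_card_ge (zpowers_le.2 hy)
    rw [Nat.card_zpowers, Nat.card_zpowers, h1, h3]
  have h5 : t ∈ zpowers y := h4 ▸ mem_zpowers t
  exact (zpowers_le.2 hyM) h5

/-- **The property `LocTopF`** from the structure of the elementary abelian groups. -/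
theorem locTopF_of [Finite G] [hp : Fact p.Prime] (𝕜 : Type v) [Field 𝕜] {L : Subgroup G}
    {𝒜 : Set (Subgroup G)} {N : ℕ} (hne : 𝒜.Nonempty)
    (hA : ∀ A ∈ 𝒜, A ≤ L ∧ A ∈ ApS p G ∧ Nat.card A = N)
    (hZ : L ⊓ centralizer (L : Set G) = ⊥)
    (hC : ∀ A ∈ 𝒜, ∀ l ∈ L, l ^ p = 1 → (∀ a ∈ A, l * a = a * l) → l ∈ A)
    (hF : ∀ A ∈ 𝒜, ∀ t ∈ normalizer (L : Set G), ∀ x ∈ normalizer (L : Set G), t ^ p = 1 →
      x ^ p = 1 → t * x = x * t → (∀ a ∈ A, t * a = a * t) → (∀ a ∈ A, x * a = a * x) →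
      t ∉ L ⊔ centralizer (L : Set G) → ∃ k : ℕ, x * t ^ k ∈ L ⊔ centralizer (L : Set G))
    (T1 : ∃ A ∈ 𝒜, ∃ (α : Ch 𝕜 (Subgroup G)) (φ : List (Subgroup G)), TopCycle 𝕜 p L A α φ)
    (T2 : ∀ A ∈ 𝒜, ∀ t ∈ normalizer (L : Set G), t ^ p = 1 → (∀ a ∈ A, t * a = a * t) →
      t ∉ L ⊔ centralizer (L : Set G) → ∃ A' ∈ 𝒜, (∀ a ∈ A', t * a = a * t) ∧
        ∃ (α : Ch 𝕜 (Subgroup G)) (φ : List (Subgroup G)),
          TopCycle 𝕜 p (L ⊓ centralizer ({t} : Set G)) A' α φ)
    (T3 : ∀ A ∈ 𝒜, ∀ t ∈ normalizer (L : Set G), t ^ p = 1 → (∀ a ∈ A, t * a = a * t) →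
      t ∉ L ⊔ centralizer (L : Set G) → ∃ A' ∈ 𝒜, ∃ t', t' * t⁻¹ ∈ L ∧ t' ^ p = 1 ∧
        (∀ a ∈ A', t' * a = a * t') ∧ ∃ (α : Ch 𝕜 (Subgroup G)) (φ : List (Subgroup G)),
          TopCycle 𝕜 p (L ⊔ zpowers t) (A' ⊔ zpowers t') α φ) :
    LocTopF 𝕜 p L := by
  refine ⟨𝒜, hne, fun A h => ⟨(hA A h).1, (hA A h).2.1⟩, ?_⟩
  intro E hE hEN E₁ hE₁E hAE hE₁C
  obtain ⟨A, hA𝒜, hAE₁⟩ := hAE
  obtain ⟨hAL, hAS, hAN⟩ := hA A hA𝒜
  set M : Subgroup G := L ⊔ centralizer (L : Set G) with hM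
  set Z : Subgroup G := E ⊓ centralizer (L : Set G) with hZdef
  have hEab := hE.2.1
  have hEp := hE.2.2
  have hAE := hAE₁.trans hE₁E
  have hLC : ∀ l ∈ L, ∀ z ∈ centralizer (L : Set G), l * z = z * l := fun l hl z hz =>
    (mem_centralizer_iff.1 hz) l hl
  have hLM : L ≤ M := le_sup_left
  have hCM : centralizer (L : Set G) ≤ M := le_sup_right
  -- the part of `E` in `M`
  have ha : ∀ x ∈ E, x ∈ M → ∃ a ∈ A, ∃ z ∈ Z, x = a * z := by
    intro x hxE hxM
    obtain ⟨l, hl, z, hz, rfl⟩ := H487.mem_sup_comm hLC hxM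
    have h1 := hEp _ hxE
    have h2 : (l * z) ^ p = l ^ p * z ^ p := Commute.mul_pow (hLC l hl z hz) p
    rw [h2] at h1
    have h3 : l ^ p ∈ L ⊓ centralizer (L : Set G) := by
      refine mem_inf.2 ⟨pow_mem hl p, ?_⟩
      rw [eq_inv_of_mul_eq_one_left h1]
      exact inv_mem (pow_mem hz p)
    rw [hZ, mem_bot] at h3
    have h4 : l ∈ A := by
      refine hC A hA𝒜 l hl h3 fun a haA => ?_
      have h5 := hEab _ hxE a (hAE haA)
      have h6 := hLC a (hAL haA) z hz
      have h7 : l * a * z = a * l * z := by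
        calc l * a * z = l * (a * z) := mul_assoc _ _ _
          _ = l * (z * a) := by rw [h6]
          _ = (l * z) * a := (mul_assoc _ _ _).symm
          _ = a * (l * z) := h5
          _ = a * l * z := (mul_assoc _ _ _).symm
      exact mul_right_cancel h7
    refine ⟨l, h4, z, mem_inf.2 ⟨?_, hz⟩, rfl⟩
    have h5 := mul_mem (inv_mem (hAE h4)) hxE
    rwa [inv_mul_cancel_left] at h5
  -- elements of `E₁` in `M`
  have hE₁M : ∀ x ∈ E₁, x ∈ M → x ∈ A := by
    intro x hx hxM
    obtain ⟨a, haA, z, hz, rfl⟩ := ha x (hE₁E hx) hxM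
    have h1 : z ∈ E₁ ⊓ centralizer (L : Set G) := by
      refine mem_inf.2 ⟨?_, hz.2⟩
      have h5 := mul_mem (inv_mem (hAE₁ haA)) hx
      rwa [inv_mul_cancel_left] at h5
    rw [hE₁C, mem_bot] at h1
    rwa [h1, mul_one]
  have hE₁Z : E₁ ⊓ Z = ⊥ := by
    rw [eq_bot_iff, ← hE₁C]
    exact inf_le_inf_left _ inf_le_right
  have hZE : Z ≤ E := inf_le_left
  have hZC : Z ≤ centralizer (L : Set G) := inf_le_right
  by_cases hI : E ≤ M
  · -- Case I
    have hEA : E₁ = A := le_antisymm (fun x hx => hE₁M x hx (hI (hE₁E hx))) hAE₁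
    obtain ⟨A', hA', α, φ, hT⟩ := T1
    obtain ⟨hA'L, hA'S, hA'N⟩ := hA A' hA'
    have hLle : L ≤ (L ⊔ E₁) ⊓ centralizer (Z : Set G) := by
      refine le_inf le_sup_left fun x hx => ?_
      rw [mem_centralizer_iff]
      exact fun z hz => (hLC x hx z (hZC hz)).symm
    refine ⟨Z, hZE, ?_, hE₁Z, le_rfl, A', hA'L.trans hLle, hA'S, ⟨A', hA', le_rfl⟩, ?_, ?_, ?_,
      α, φ, r5_mono hLle hT⟩
    · refine le_antisymm (sup_le hE₁E hZE) fun x hx => ?_
      obtain ⟨a, haA, z, hz, rfl⟩ := ha x hx (hI hx)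
      exact mul_mem (mem_sup_left (hAE₁ haA)) (mem_sup_right hz)
    · rw [sup_eq_left.2 hZC, eq_bot_iff, ← hZ]
      exact inf_le_inf_right _ hA'L
    · rw [hEA, sup_eq_left.2 hA'L, sup_eq_left.2 hAL]
    · rw [hEA, hAN, hA'N]
  · -- Case II
    -- for `t ∈ E` outside `M`
    have hdec : ∀ t ∈ E, t ∉ M → ∀ x ∈ E, ∃ a ∈ A, ∃ z ∈ Z, ∃ s ∈ zpowers t, x = a * z * s := by
      intro t htE htM x hxE
      obtain ⟨k, hk⟩ := hF A hA𝒜 t (hEN htE) x (hEN hxE) (hEp t htE) (hEp x hxE)
        (hEab t htE x hxE) (fun a haA => hEab t htE a (hAE haA))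
        (fun a haA => hEab x hxE a (hAE haA)) htM
      obtain ⟨a, haA, z, hz, h1⟩ := ha (x * t ^ k) (mul_mem hxE (pow_mem htE k)) hk
      refine ⟨a, haA, z, hz, (t ^ k)⁻¹, inv_mem (pow_mem (mem_zpowers t) k), ?_⟩
      rw [← h1, mul_inv_cancel_right]
    by_cases hII : E₁ ≤ M
    · -- Case IIa
      obtain ⟨t, htE, htM⟩ := SetLike.not_le_iff_exists.1 hI
      have htp := hEp t htE
      have hEA : E₁ = A := le_antisymm (fun x hx => hE₁M x hx (hII hx)) hAE₁
      obtain ⟨A', hA', hA't, α, φ, hT⟩ := T2 A hA𝒜 t (hEN htE) htp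
        (fun a haA => hEab t htE a (hAE haA)) htM
      obtain ⟨hA'L, hA'S, hA'N⟩ := hA A' hA'
      have htn : ∀ b ∈ zpowers t, ∀ c ∈ centralizer (L : Set G), b * c * b⁻¹ ∈
          centralizer (L : Set G) := by
        intro b hb c hc
        have hbN : b ∈ normalizer (L : Set G) := (zpowers_le.2 (hEN htE)) hb
        rw [mem_centralizer_iff] at hc ⊢
        intro l hl
        have h1 : b⁻¹ * l * b ∈ L := by
          have h2 := (mem_normalizer_iff.1 hbN (b⁻¹ * l * b)).2
          apply h2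
          have h3 : b * (b⁻¹ * l * b) * b⁻¹ = l := by group
          rwa [h3]
        have h4 := hc _ h1
        calc l * (b * c * b⁻¹) = b * ((b⁻¹ * l * b) * c) * b⁻¹ := by group
          _ = b * (c * (b⁻¹ * l * b)) * b⁻¹ := by rw [h4]
          _ = b * c * b⁻¹ * l := by group
      have hBE : Z ⊔ zpowers t ≤ E := sup_le hZE (zpowers_le.2 htE)
      have hZt : ∀ z ∈ Z, ∀ s ∈ zpowers t, z * s = s * z := fun z hz s hs =>
        hEab z (hZE hz) s ((zpowers_le.2 htE) hs)
      have hle : L ⊓ centralizer ({t} : Set G) ≤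
          (L ⊔ E₁) ⊓ centralizer ((Z ⊔ zpowers t : Subgroup G) : Set G) := by
        refine le_inf (inf_le_left.trans le_sup_left) ?_
        rw [le_centralizer_iff]
        refine sup_le (fun z hz => ?_) ?_
        · rw [mem_centralizer_iff]
          exact fun x hx => hLC x hx.1 z (hZC hz)
        · rw [zpowers_le, mem_centralizer_iff]
          exact fun x hx => ((mem_centralizer_iff.1 hx.2) t rfl).symm
      refine ⟨Z ⊔ zpowers t, hBE, ?_, ?_, le_sup_left, A', ?_, hA'S, ⟨A', hA', le_rfl⟩, ?_, ?_, ?_,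
        α, φ, r5_mono hle hT⟩
      · refine le_antisymm (sup_le hE₁E hBE) fun x hx => ?_
        obtain ⟨a, haA, z, hz, s, hs, rfl⟩ := hdec t htE htM x hx
        rw [mul_assoc]
        exact mul_mem (mem_sup_left (hAE₁ haA)) (mem_sup_right
          (mul_mem (mem_sup_left hz) (mem_sup_right hs)))
      · rw [eq_bot_iff]
        intro y hy
        obtain ⟨hy1, hy2⟩ := mem_inf.1 hy
        obtain ⟨z, hz, s, hs, rfl⟩ := H487.mem_sup_comm hZt hy2
        have h1 : s ∈ M := by
          have h2 := mul_mem (inv_mem (hCM (hZC hz))) (hII hy1)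
          rwa [inv_mul_cancel_left] at h2
        have h2 : s = 1 := pow_mem_iff htp htM hs h1
        rw [h2, mul_one] at hy1 ⊢
        rw [← hE₁Z]
        exact mem_inf.2 ⟨hy1, hz⟩
      · refine le_trans (le_inf hA'L fun a ha' => ?_) hle
        rw [mem_centralizer_iff]
        rintro _ rfl
        exact hA't a ha'
      · rw [eq_bot_iff]
        intro y hy
        obtain ⟨hy1, hy2⟩ := mem_inf.1 hy
        rw [← sup_assoc, sup_eq_left.2 hZC] at hy2
        obtain ⟨c, hc, s, hs, rfl⟩ := mem_sup_norm htn hy2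
        have h1 : s ∈ M := by
          have h2 := mul_mem (inv_mem (hCM hc)) (hLM (hA'L hy1))
          rwa [inv_mul_cancel_left] at h2
        have h2 : s = 1 := pow_mem_iff htp htM hs h1
        rw [h2, mul_one] at hy1 ⊢
        rw [← hZ]
        exact mem_inf.2 ⟨hA'L hy1, hc⟩
      · rw [hEA, sup_eq_left.2 hA'L, sup_eq_left.2 hAL]
      · rw [hEA, hAN, hA'N]
    · -- Case IIb
      obtain ⟨t, htE₁, htM⟩ := SetLike.not_le_iff_exists.1 hII
      have htE := hE₁E htE₁
      have htp := hEp t htE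
      obtain ⟨A', hA', t', ht'L, ht'p, hA't', α, φ, hT⟩ := T3 A hA𝒜 t (hEN htE) htp
        (fun a haA => hEab t htE a (hAE haA)) htM
      obtain ⟨hA'L, hA'S, hA'N⟩ := hA A' hA'
      have ht' : t' = (t' * t⁻¹) * t := by rw [inv_mul_cancel_right]
      have ht'M : t' ∉ M := by
        intro h
        apply htM
        have h1 : t = (t' * t⁻¹)⁻¹ * t' := by group
        rw [h1]
        exact mul_mem (inv_mem (hLM ht'L)) h
      have ht'1 : t' ≠ 1 := fun h => ht'M (h ▸ one_mem M)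
      have hE₁ : E₁ = A ⊔ zpowers t := by
        refine le_antisymm (fun x hx => ?_) (sup_le hAE₁ (zpowers_le.2 htE₁))
        obtain ⟨a, haA, z, hz, s, hs, rfl⟩ := hdec t htE htM x (hE₁E hx)
        have h1 : z ∈ E₁ ⊓ Z := by
          refine mem_inf.2 ⟨?_, hz⟩
          have h2 : z = a⁻¹ * (a * z * s) * s⁻¹ := by group
          rw [h2]
          exact mul_mem (mul_mem (inv_mem (hAE₁ haA)) hx) (inv_mem ((zpowers_le.2 htE₁) hs))
        rw [hE₁Z, mem_bot] at h1
        rw [h1, mul_one]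
        exact mul_mem (mem_sup_left haA) (mem_sup_right hs)
      have hle : L ⊔ zpowers t ≤ (L ⊔ E₁) ⊓ centralizer (Z : Set G) := by
        refine sup_le (le_inf le_sup_left fun x hx => ?_) ?_
        · rw [mem_centralizer_iff]
          exact fun z hz => (hLC x hx z (hZC hz)).symm
        · rw [zpowers_le]
          refine mem_inf.2 ⟨mem_sup_right htE₁, ?_⟩
          rw [mem_centralizer_iff]
          exact fun z hz => hEab z (hZE hz) t htE
      have ht't : t' ∈ L ⊔ zpowers t := by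
        rw [ht']
        exact mul_mem (mem_sup_left ht'L) (mem_sup_right (mem_zpowers t))
      have hcomm : ∀ a ∈ A', ∀ s ∈ zpowers t', a * s = s * a := by
        intro a haA s hs
        have h1 : zpowers t' ≤ centralizer ({a} : Set G) := by
          rw [zpowers_le, mem_centralizer_singleton_iff]
          exact hA't' a haA
        exact (mem_centralizer_singleton_iff.1 (h1 hs)).symm
      have hzp : zpowers t' ∈ ApS p G := by
        refine ⟨fun h => ht'1 ?_, ?_, ?_⟩
        · rw [zpowers_eq_bot] at h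
          exact h
        · rintro _ ⟨i, rfl⟩ _ ⟨j, rfl⟩
          exact (Commute.refl t').zpow_zpow i j
        · rintro _ ⟨i, rfl⟩
          show (t' ^ i) ^ p = 1
          rw [← zpow_natCast, ← zpow_mul, mul_comm, zpow_mul, zpow_natCast, ht'p, one_zpow]
      refine ⟨Z, hZE, ?_, hE₁Z, le_rfl, A' ⊔ zpowers t', ?_, sup_mem_ApS hA'S hzp hcomm,
        ⟨A', hA', le_sup_left⟩, ?_, ?_, ?_, α, φ, r5_mono hle hT⟩
      · refine le_antisymm (sup_le hE₁E hZE) fun x hx => ?_
        obtain ⟨a, haA, z, hz, s, hs, rfl⟩ := hdec t htE htM x hx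
        exact mul_mem (mul_mem (mem_sup_left (hAE₁ haA)) (mem_sup_right hz))
          (mem_sup_left ((zpowers_le.2 htE₁) hs))
      · refine le_trans (sup_le (hA'L.trans le_sup_left) ?_) hle
        rwa [zpowers_le]
      · rw [sup_eq_left.2 hZC, eq_bot_iff]
        intro y hy
        obtain ⟨hy1, hy2⟩ := mem_inf.1 hy
        obtain ⟨a, haA, s, hs, rfl⟩ := H487.mem_sup_comm hcomm hy1
        have h1 : s ∈ M := by
          have h2 := mul_mem (inv_mem (hLM (hA'L haA))) (hCM hy2)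
          rwa [inv_mul_cancel_left] at h2
        have h2 : s = 1 := pow_mem_iff ht'p ht'M hs h1
        rw [h2, mul_one] at hy2 ⊢
        rw [← hZ]
        exact mem_inf.2 ⟨hA'L haA, hy2⟩
      · rw [hE₁, ← sup_assoc, ← sup_assoc, sup_eq_left.2 hA'L, sup_eq_left.2 hAL]
        refine le_antisymm (sup_le le_sup_left ?_) (sup_le le_sup_left ?_)
        · rwa [zpowers_le]
        · rw [zpowers_le]
          have h1 : t = (t' * t⁻¹)⁻¹ * t' := by group
          rw [h1]
          exact mul_mem (mem_sup_left (inv_mem ht'L)) (mem_sup_right (mem_zpowers t'))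
      · have h1 : Nat.card (zpowers t) ≤ p := by
          rw [Nat.card_zpowers]
          exact Nat.le_of_dvd hp.out.pos (orderOf_dvd_of_pow_eq_one htp)
        have h2 : Nat.card (zpowers t') = p := by
          rw [Nat.card_zpowers]
          exact orderOf_eq_prime ht'p ht'1
        have h3 : A' ⊓ zpowers t' = ⊥ := by
          rw [eq_bot_iff]
          intro y hy
          exact mem_bot.2 (pow_mem_iff ht'p ht'M (mem_inf.1 hy).2 (hLM (hA'L (mem_inf.1 hy).1)))
        rw [hE₁]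
        calc Nat.card (A ⊔ zpowers t : Subgroup G) ≤ Nat.card A * Nat.card (zpowers t) :=
              card_sup_le_comm fun a haA s hs => hEab a (hAE haA) s ((zpowers_le.2 htE) hs)
          _ ≤ Nat.card A * p := Nat.mul_le_mul_left _ h1
          _ = Nat.card A' * Nat.card (zpowers t') := by rw [hAN, hA'N, h2]
          _ ≤ Nat.card (A' ⊔ zpowers t' : Subgroup G) := card_sup_comm h3

end

end Vale.Agent.P240.R2.H938
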