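import Vale.Agent.P240.R2.H938.Comb4
import Vale.Agent.P240.R2.H472.M2b
import Vale.Agent.P240.R2.H296.Cen

/-!
Module M4c: the elements `eW ζ w` of `PGU_n(q)` satisfy the hypotheses of M3 (any star).
-/

set_option autoImplicit false

namespace Vale.Agent.P240.R2.H938

open Matrix Vale.Agent.P240 Vale.Agent.P240.R2.AS
open Vale.Agent.P240.R2.H472 (ln_idem ln_star ln_comm sm_nil sm_cons sm_append sm_mul sm_eq_one)
open scoped Classical

universe u v w

section words

variable {K : Type u} [Field K] [Fintype K] [StarRing K] {n : ℕ}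

lemma orth_perm {u v : List (Ln K n)} (h : u.Perm v) (hu : Orth u) : Orth v :=
  (h.pairwise_iff (fun {P Q} h => ln_comm (P := P) (Q := Q) h)).1 hu

lemma orth_app {u v : List (Ln K n)} : Orth (u ++ v) ↔
    Orth u ∧ Orth v ∧ ∀ P ∈ u, ∀ Q ∈ v, P.1 * Q.1 = 0 := List.pairwise_append

lemma sm_perm {u v : List (Ln K n)} (h : u.Perm v) : sm u = sm v := (h.map _).sum_eq

lemma ln_ne (P : Ln K n) : P.1 ≠ 0 := by
  obtain ⟨P, x, h1, rfl⟩ := P
  simp only
  intro h
  have h2 : (vecMulVec x (star x)) *ᵥ x = x := by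
    rw [vecMulVec_mulVec, h1, op_smul_eq_smul, one_smul]
  rw [h, zero_mulVec] at h2
  rw [← h2] at h1
  simp at h1

lemma mul_sm' {w : List (Ln K n)} (hw : Orth w) {P : Ln K n} (hP : P ∈ w) :
    P.1 * sm w = P.1 := by
  induction w with
  | nil => simp at hP
  | cons a t ih =>
    have hw' := List.pairwise_cons.1 hw
    rw [sm_cons, Matrix.mul_add]
    rcases List.mem_cons.1 hP with rfl | h
    · rw [ln_idem, H472.mul_sm_zero t hw'.1, add_zero]
    · rw [ln_comm (hw'.1 P h), zero_add, ih hw'.2 h]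

lemma sm_sm_zero {u v : List (Ln K n)} (h : ∀ P ∈ u, ∀ Q ∈ v, P.1 * Q.1 = 0) :
    sm u * sm v = 0 := by
  induction u with
  | nil => rw [sm_nil, Matrix.zero_mul]
  | cons a t ih =>
    rw [sm_cons, Matrix.add_mul, H472.mul_sm_zero v (h a (by simp)),
      ih fun P hP => h P (List.mem_cons_of_mem _ hP), add_zero]

lemma sm_idem {u : List (Ln K n)} (hu : Orth u) : sm u * sm u = sm u := by
  induction u with
  | nil => rw [sm_nil, Matrix.zero_mul]
  | cons a t ih =>
    have h' := List.pairwise_cons.1 hu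
    have h1 : a.1 * sm t = 0 := H472.mul_sm_zero t h'.1
    have h2 : sm t * a.1 = 0 := H472.sm_mul_zero t h'.1
    rw [sm_cons, Matrix.add_mul, Matrix.mul_add, Matrix.mul_add, ln_idem, h1, h2, ih h'.2]
    simp

lemma sm_star (u : List (Ln K n)) : (sm u)ᴴ = sm u := by
  induction u with
  | nil => simp [sm_nil]
  | cons a t ih => rw [sm_cons, conjTranspose_add, ih, ln_star]

/-- products of orthogonal frames -/
lemma sm_app_zero {u v : List (Ln K n)} (h : Orth (u ++ v)) : sm u * sm v = 0 :=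
  sm_sm_zero (orth_app.1 h).2.2

lemma sm_ne {u : List (Ln K n)} (hu : Orth u) (h : u ≠ []) : sm u ≠ 0 := by
  obtain ⟨a, t, rfl⟩ := List.exists_cons_of_ne_nil h
  intro h0
  have h1 := mul_sm' hu (P := a) (by simp)
  rw [h0, Matrix.mul_zero] at h1
  exact ln_ne a h1.symm

lemma eq_of_mul {P Q : Ln K n} (h : P.1 * Q.1 = P.1) : P = Q := by
  have h1 : Q.1 * P.1 = P.1 := by
    have h2 := congrArg conjTranspose h
    rwa [conjTranspose_mul, ln_star, ln_star] at h2
  have h3 : Q.1 * P.1 * Q.1 = P.1 := by rw [h1, h]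
  obtain ⟨Q, y, hy, rfl⟩ := Q
  simp only at h h1 h3
  have h4 : ∃ c : K, P.1 = c • vecMulVec y (star y) := by
    refine ⟨star y ⬝ᵥ (P.1 *ᵥ y), ?_⟩
    have h5 : vecMulVec y (star y) * P.1 * vecMulVec y (star y) =
        (star y ⬝ᵥ (P.1 *ᵥ y)) • vecMulVec y (star y) := by
      rw [Matrix.mul_assoc, Matrix.mul_vecMulVec, vecMulVec_mul_vecMulVec]
      ext i j
      simp only [vecMulVec_apply, Matrix.smul_apply, smul_eq_mul, Pi.smul_apply]
      ring
    rw [← h5, h3]
  obtain ⟨c, hc⟩ := h4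
  have h5 : vecMulVec y (star y) * vecMulVec y (star y) = vecMulVec y (star y) := by
    rw [vecMulVec_mul_vecMulVec, hy]
    simp
  have h6 := ln_idem P
  rw [hc, smul_mul_smul_comm, h5] at h6
  have h7 : c ≠ 0 := by
    rintro rfl
    rw [zero_smul] at hc
    exact ln_ne P hc
  have h8 : vecMulVec y (star y) ≠ 0 := by
    intro h0
    rw [h0, smul_zero] at hc
    exact ln_ne P hc
  have h9 : (c * c - c) • vecMulVec y (star y) = 0 := by rw [sub_smul, h6, sub_self]
  have h10 : c * c - c = 0 := by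
    rcases smul_eq_zero.1 h9 with h | h
    · exact h
    · exact absurd h h8
  have h11 : c = 1 := by
    have : c * (c - 1) = 0 := by rw [← h10]; ring
    rcases mul_eq_zero.1 this with h | h
    · exact absurd h h7
    · exact sub_eq_zero.1 h
  refine Subtype.ext ?_
  rw [hc, h11, one_smul]

lemma orth_nodup {w : List (Ln K n)} (h : Orth w) : w.Nodup := by
  refine List.Pairwise.imp (fun {P Q} hPQ hne => ?_) h
  subst hne
  rw [ln_idem] at hPQ
  exact ln_ne P hPQ

end words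

section gp

variable {G : Type*} [Group G] {S : Subgroup G} {a : G}

lemma sup_zp_mul (ha : a ∈ S) (x : G) :
    S ⊔ Subgroup.zpowers (a * x) = S ⊔ Subgroup.zpowers x := by
  refine le_antisymm (sup_le le_sup_left ?_) (sup_le le_sup_left ?_)
  · rw [Subgroup.zpowers_le]
    exact mul_mem (Subgroup.mem_sup_left ha)
      (Subgroup.mem_sup_right (Subgroup.mem_zpowers x))
  · rw [Subgroup.zpowers_le]
    have h3 : x = a⁻¹ * (a * x) := by group
    rw [h3]
    exact mul_mem (Subgroup.mem_sup_left (inv_mem ha))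
      (by rw [← h3]; exact Subgroup.mem_sup_right (Subgroup.mem_zpowers _))

lemma sup_zp_inv (ha : a ∈ S) (x : G) :
    S ⊔ Subgroup.zpowers ((x * a)⁻¹) = S ⊔ Subgroup.zpowers x := by
  refine le_antisymm (sup_le le_sup_left ?_) (sup_le le_sup_left ?_)
  · rw [Subgroup.zpowers_le]
    exact inv_mem (mul_mem (Subgroup.mem_sup_right (Subgroup.mem_zpowers x))
      (Subgroup.mem_sup_left ha))
  · rw [Subgroup.zpowers_le]
    have h4 : (x * a)⁻¹ ∈ S ⊔ Subgroup.zpowers ((x * a)⁻¹) :=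
      Subgroup.mem_sup_right (Subgroup.mem_zpowers _)
    have h5 := mul_mem (inv_mem h4) (Subgroup.mem_sup_left (T := Subgroup.zpowers ((x * a)⁻¹))
      (inv_mem ha))
    rwa [inv_inv, mul_inv_cancel_right] at h5

end gp

section els

variable {K : Type u} [Field K] [Fintype K] [StarRing K] {n p : ℕ} {ζ : K}

lemma eU_val (h2 : ζ * star ζ = 1) {u : List (Ln K n)} (hu : Orth u) :
    (eU ζ (sm u)).1 = 1 + (ζ - 1) • sm u := by
  rw [eU, dif_pos ⟨by rw [star_eq_conjTranspose, sm_star], sm_idem hu, h2⟩]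

lemma eU_app (h2 : ζ * star ζ = 1) {u v : List (Ln K n)} (h : Orth (u ++ v)) :
    eU ζ (sm (u ++ v)) = eU ζ (sm u) * eU ζ (sm v) := by
  have h' := orth_app.1 h
  apply Subtype.ext
  show (eU ζ (sm (u ++ v))).1 = (eU ζ (sm u)).1 * (eU ζ (sm v)).1
  rw [eU_val h2 h, eU_val h2 h'.1, eU_val h2 h'.2.1, sm_append, Matrix.add_mul, Matrix.mul_add,
    Matrix.mul_add, one_mul, smul_mul_smul_comm, sm_app_zero h, smul_zero, add_zero, mul_one,
    one_mul, smul_add]
  abel

lemma eW_app (h2 : ζ * star ζ = 1) {u v : List (Ln K n)} (h : Orth (u ++ v)) :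
    eW ζ (u ++ v) = eW ζ u * eW ζ v := by
  rw [eW, eU_app h2 h]
  rfl

lemma eW_perm {u v : List (Ln K n)} (h : u.Perm v) : eW ζ u = eW ζ v := by
  rw [eW, eW, sm_perm h]

lemma eW_comm (h2 : ζ * star ζ = 1) {u v : List (Ln K n)} (h : Orth (u ++ v)) :
    eW ζ u * eW ζ v = eW ζ v * eW ζ u := by
  have h3 : Orth (v ++ u) := orth_perm List.perm_append_comm h
  rw [← eW_app h2 h, ← eW_app h2 h3, eW_perm List.perm_append_comm]

lemma eW_nil (h2 : ζ * star ζ = 1) : eW ζ ([] : List (Ln K n)) = 1 := by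
  rw [eW]
  have : eU ζ (sm ([] : List (Ln K n))) = 1 := by
    apply Subtype.ext
    rw [eU_val h2 List.Pairwise.nil, sm_nil, smul_zero, add_zero]
    rfl
  rw [this]
  rfl

lemma eU_pow (h2 : ζ * star ζ = 1) {u : List (Ln K n)} (hu : Orth u) (k : ℕ) :
    (eU ζ (sm u) ^ k).1 = 1 + (ζ ^ k - 1) • sm u := by
  induction k with
  | zero =>
    rw [pow_zero, pow_zero, sub_self, zero_smul, add_zero]
    rfl
  | succ k ih =>
    rw [pow_succ]
    show (eU ζ (sm u) ^ k).1 * (eU ζ (sm u)).1 = _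
    rw [ih, eU_val h2 hu, Matrix.add_mul, Matrix.mul_add, Matrix.mul_add, one_mul,
      smul_mul_smul_comm, sm_idem hu, mul_one, one_mul, add_assoc, ← add_smul, ← add_smul]
    congr 2
    ring

lemma eW_pow (hp : ζ ^ p = 1) (h2 : ζ * star ζ = 1) {u : List (Ln K n)} (hu : Orth u) :
    eW ζ u ^ p = 1 := by
  have h1 : eU ζ (sm u) ^ p = 1 := by
    apply Subtype.ext
    rw [eU_pow h2 hu, hp, sub_self, zero_smul, add_zero]
    rfl
  show (QuotientGroup.mk (eU ζ (sm u)) : PGU K n) ^ p = 1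
  rw [← QuotientGroup.mk_pow, h1]
  rfl

lemma mk_eq_iff (h1 : ζ ≠ 1) (h2 : ζ * star ζ = 1) (g h : GU K n) :
    (QuotientGroup.mk g : PGU K n) = QuotientGroup.mk h ↔ ∃ c : K, h.1 = c • g.1 := by
  rw [QuotientGroup.eq, H296.mem_center_iff h1 h2]
  constructor
  · rintro ⟨c, hc⟩
    refine ⟨c, ?_⟩
    have h3 : h = g * (g⁻¹ * h) := by group
    rw [h3]
    show g.1 * (g⁻¹ * h : GU K n).1 = c • g.1
    rw [hc, Matrix.mul_smul, Matrix.mul_one]
  · rintro ⟨c, hc⟩
    refine ⟨c, ?_⟩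
    show (g⁻¹ : GU K n).1 * h.1 = c • 1
    rw [hc, Matrix.mul_smul]
    congr 1
    have h3 : g⁻¹ * g = 1 := inv_mul_cancel g
    exact congrArg Subtype.val h3

lemma eW_full (h1 : ζ ≠ 1) (h2 : ζ * star ζ = 1) {w : List (Ln K n)} (hw : w ∈ Fr K n) :
    eW ζ w = 1 := by
  obtain ⟨h3, h4⟩ := (mem_Fr K).1 hw
  show (QuotientGroup.mk (eU ζ (sm w)) : PGU K n) = QuotientGroup.mk 1
  symm
  rw [mk_eq_iff h1 h2]
  refine ⟨ζ, ?_⟩
  rw [eU_val h2 h4, sm_eq_one h3 h4]
  show (1 : Matrix (Fin n) (Fin n) K) + (ζ - 1) • 1 = ζ • 1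
  rw [sub_smul, one_smul]
  abel

/-- the classes of the matrices that are scalar on the image of `Q` -/
def Sc (Q : Matrix (Fin n) (Fin n) K) : Subgroup (PGU K n) where
  carrier := {x | ∃ g : GU K n, x = QuotientGroup.mk g ∧ ∃ s : K, g.1 * Q = s • Q}
  one_mem' := ⟨1, rfl, 1, by
    rw [one_smul]
    exact Matrix.one_mul Q⟩
  mul_mem' := by
    rintro _ _ ⟨g, rfl, s, hs⟩ ⟨g', rfl, s', hs'⟩
    refine ⟨g * g', rfl, s' * s, ?_⟩
    show g.1 * g'.1 * Q = _
    rw [Matrix.mul_assoc, hs', Matrix.mul_smul, hs, smul_smul]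
  inv_mem' := by
    rintro _ ⟨g, rfl, s, hs⟩
    refine ⟨g⁻¹, rfl, s⁻¹, ?_⟩
    have h1 : (g⁻¹ : GU K n).1 * g.1 = 1 := congrArg Subtype.val (inv_mul_cancel g)
    have h2 : Q = s • ((g⁻¹ : GU K n).1 * Q) := by
      rw [← Matrix.mul_smul, ← hs, ← Matrix.mul_assoc, h1, Matrix.one_mul]
    by_cases h0 : s = 0
    · rw [h0, zero_smul] at h2
      rw [h2]
      simp
    · conv_rhs => rw [h2]
      rw [smul_smul, inv_mul_cancel₀ h0, one_smul]

lemma mem_Sc {Q : Matrix (Fin n) (Fin n) K} (h2 : ζ * star ζ = 1) {u : List (Ln K n)}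
    (hu : Orth u) (h : sm u * Q = 0) : eW ζ u ∈ Sc Q := by
  refine ⟨eU ζ (sm u), rfl, 1, ?_⟩
  rw [eU_val h2 hu, Matrix.add_mul, Matrix.one_mul, smul_mul, h, smul_zero, add_zero, one_smul]

lemma of_mem_Sc {Q : Matrix (Fin n) (Fin n) K} (h1 : ζ ≠ 1) (h2 : ζ * star ζ = 1)
    {u : List (Ln K n)} (hu : Orth u) (hQ : Q ≠ 0) (h : eW ζ u ∈ Sc Q) :
    ∃ κ : K, sm u * Q = κ • Q := by
  obtain ⟨g, hg, s, hs⟩ := h
  obtain ⟨c, hc⟩ := (mk_eq_iff h1 h2 (eU ζ (sm u)) g).1 hg
  have h3 : ζ - 1 ≠ 0 := sub_ne_zero.2 h1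
  have hc0 : c ≠ 0 := by
    rintro rfl
    rw [zero_smul] at hc
    have h4 : g.1 * (g⁻¹ : GU K n).1 = 1 := congrArg Subtype.val (mul_inv_cancel g)
    rw [hc, Matrix.zero_mul] at h4
    apply hQ
    rw [← Matrix.one_mul Q, ← h4, Matrix.zero_mul]
  rw [hc, smul_mul, eU_val h2 hu, Matrix.add_mul, Matrix.one_mul, smul_mul, smul_add, smul_smul]
    at hs
  refine ⟨(c * (ζ - 1))⁻¹ * (s - c), ?_⟩
  have h5 : (c * (ζ - 1)) • (sm u * Q) = (s - c) • Q := by
    rw [sub_smul, ← hs]
    abel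
  rw [← smul_smul, ← h5, smul_smul, inv_mul_cancel₀ (mul_ne_zero hc0 h3), one_smul]

/-- a nonempty orthogonal word with sum below a letter -/
lemma single_of_le {l : Ln K n} {x : List (Ln K n)} (hx : Orth x) (hne : x ≠ [])
    (h : ∀ P ∈ x, P.1 * l.1 = P.1) : x = [l] := by
  obtain ⟨a, t, rfl⟩ := List.exists_cons_of_ne_nil hne
  have h1 : a = l := eq_of_mul (h a (by simp))
  rcases t with _ | ⟨b, t⟩
  · rw [h1]
  · exfalso
    have h2 : b = l := eq_of_mul (h b (by simp))
    have h3 := orth_nodup hx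
    rw [h1, h2] at h3
    simp at h3

/-- the module `sep` -/
lemma eW_sep (h1 : ζ ≠ 1) (h2 : ζ * star ζ = 1) {A u v B : List (Ln K n)} {l : Ln K n}
    {g : List (Ln K n)} (hF : A ++ (u ++ v) ++ B ∈ Fr K n) (hF' : A ++ (l :: g) ++ B ∈ Fr K n)
    (hu : u ≠ []) (hv : v ≠ []) :
    (SS (eW ζ) (A ++ B) ⊔ Subgroup.zpowers (eW ζ (A ++ u)) =
      SS (eW ζ) (A ++ B) ⊔ Subgroup.zpowers (eW ζ [l]) ↔ u = [l] ∨ v = [l]) := by
  obtain ⟨hlen, hO⟩ := (mem_Fr K).1 hF
  obtain ⟨hlen', hO'⟩ := (mem_Fr K).1 hF'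
  have hOAuv := (orth_app.1 hO).1
  have hOuv := (orth_app.1 hOAuv).2.1
  have hOu := (orth_app.1 hOuv).1
  have hOv := (orth_app.1 hOuv).2.1
  have hOA := (orth_app.1 hOAuv).1
  have hOB := (orth_app.1 hO).2.1
  have hOAu : Orth (A ++ u) := by
    have h3 : Orth ((A ++ u) ++ v) := by rwa [List.append_assoc]
    exact (orth_app.1 h3).1
  have hOlg := (orth_app.1 (orth_app.1 hO').1).2.1
  have hOg := (List.pairwise_cons.1 hOlg).2
  have hlg := (List.pairwise_cons.1 hOlg).1
  -- the elements of the words in `A ++ B`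
  have hgen : ∀ x : List (Ln K n), (∀ P ∈ x, P ∈ A ++ B) → Orth x →
      eW ζ x ∈ SS (eW ζ) (A ++ B) := by
    intro x
    induction x with
    | nil => intro _ _; rw [eW_nil h2]; exact one_mem _
    | cons a t ih =>
      intro hx hOx
      have h3 : eW ζ (a :: t) = eW ζ [a] * eW ζ t := eW_app (u := [a]) (v := t) h2 hOx
      rw [h3]
      exact mul_mem (Subgroup.subset_closure ⟨a, hx a (by simp), rfl⟩)
        (ih (fun P hP => hx P (List.mem_cons_of_mem _ hP)) (List.pairwise_cons.1 hOx).2)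
  have hAS : eW ζ A ∈ SS (eW ζ) (A ++ B) := hgen A (fun P hP => List.mem_append_left _ hP) hOA
  have hBS : eW ζ B ∈ SS (eW ζ) (A ++ B) := hgen B (fun P hP => List.mem_append_right _ hP) hOB
  constructor
  · intro h
    -- the complement
    have hg : g ≠ [] := by
      rintro rfl
      have h3 := hlen.trans hlen'.symm
      simp only [List.length_append, List.length_cons, List.length_nil] at h3
      have h4 : u.length ≠ 0 := fun h => hu (List.length_eq_zero_iff.1 h)
      have h5 : v.length ≠ 0 := fun h => hv (List.length_eq_zero_iff.1 h)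
      omega
    have hsum : sm u + sm v = l.1 + sm g := by
      have h3 := sm_eq_one hlen hO
      have h4 := sm_eq_one hlen' hO'
      rw [sm_append, sm_append, sm_append] at h3
      rw [sm_append, sm_append, sm_cons] at h4
      have h5 := h3.trans h4.symm
      exact add_left_cancel (add_right_cancel h5)
    have hmem : eW ζ (A ++ u) ∈ Sc (sm g) := by
      have h3 : SS (eW ζ) (A ++ B) ⊔ Subgroup.zpowers (eW ζ [l]) ≤ Sc (sm g) := by
        refine sup_le ?_ ?_
        · rw [SS, Subgroup.closure_le]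
          rintro _ ⟨x, hx, rfl⟩
          refine mem_Sc h2 (List.pairwise_singleton _ _) ?_
          rw [sm_cons, sm_nil, add_zero]
          refine H472.mul_sm_zero g fun b hb => ?_
          rcases List.mem_append.1 hx with hx | hx
          · exact (orth_app.1 (orth_app.1 hO').1).2.2 x hx b (by simp [hb])
          · exact ln_comm ((orth_app.1 hO').2.2 b (by simp [hb]) x hx)
        · rw [Subgroup.zpowers_le]
          refine mem_Sc h2 (List.pairwise_singleton _ _) ?_
          rw [sm_cons, sm_nil, add_zero]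
          exact H472.mul_sm_zero g hlg
      apply h3
      rw [← h]
      exact (le_sup_right : Subgroup.zpowers _ ≤ _) (Subgroup.mem_zpowers _)
    obtain ⟨κ, hκ⟩ := of_mem_Sc h1 h2 hOAu (sm_ne hOg hg) hmem
    have hAg : sm A * sm g = 0 := sm_sm_zero fun P hP Q hQ =>
      (orth_app.1 (orth_app.1 hO').1).2.2 P hP Q (by simp [hQ])
    rw [sm_append, Matrix.add_mul, hAg, zero_add] at hκ
    have hκ2 : (κ * κ - κ) • sm g = 0 := by
      have h3 : sm u * (sm u * sm g) = sm u * sm g := by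
        rw [← Matrix.mul_assoc, sm_idem hOu]
      rw [hκ, Matrix.mul_smul, hκ, smul_smul] at h3
      rw [sub_smul, h3, sub_self]
    have hκ3 : κ = 0 ∨ κ = 1 := by
      rcases smul_eq_zero.1 hκ2 with h3 | h3
      · have h4 : κ * (κ - 1) = 0 := by rw [← h3]; ring
        rcases mul_eq_zero.1 h4 with h5 | h5
        · exact Or.inl h5
        · exact Or.inr (sub_eq_zero.1 h5)
      · exact absurd h3 (sm_ne hOg hg)
    have huv0 : sm u * sm v = 0 := sm_app_zero hOuv
    have hvu0 : sm v * sm u = 0 := by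
      have h3 := congrArg conjTranspose huv0
      rwa [conjTranspose_mul, sm_star, sm_star, conjTranspose_zero] at h3
    rcases hκ3 with h3 | h3
    · -- `sm u` is below `l`
      left
      rw [h3, zero_smul] at hκ
      have h4 : sm u * l.1 = sm u := by
        have h5 : sm u * (sm u + sm v) = sm u := by
          rw [Matrix.mul_add, sm_idem hOu, huv0, add_zero]
        rw [hsum, Matrix.mul_add, hκ, add_zero] at h5
        exact h5
      refine single_of_le hOu hu fun P hP => ?_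
      have h6 := mul_sm' hOu hP
      rw [← h6, Matrix.mul_assoc, h4]
    · right
      rw [h3, one_smul] at hκ
      have h4 : sm v * sm g = 0 := by
        rw [← hκ, ← Matrix.mul_assoc, hvu0, Matrix.zero_mul]
      have h5 : sm v * l.1 = sm v := by
        have h6 : sm v * (sm u + sm v) = sm v := by
          rw [Matrix.mul_add, sm_idem hOv, hvu0, zero_add]
        rw [hsum, Matrix.mul_add, h4, add_zero] at h6
        exact h6
      refine single_of_le hOv hv fun P hP => ?_
      have h6 := mul_sm' hOv hP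
      rw [← h6, Matrix.mul_assoc, h5]
  · rintro (rfl | rfl)
    · rw [eW_app h2 hOAu]
      exact sup_zp_mul hAS _
    · have h3 : eW ζ (A ++ u) * (eW ζ [l] * eW ζ B) = 1 := by
        have h4 := eW_full h1 h2 hF
        have h5 : A ++ (u ++ [l]) ++ B = (A ++ u) ++ ([l] ++ B) := by simp
        rw [h5] at h4 hO
        rw [← eW_app (u := [l]) (v := B) h2 (orth_app.1 hO).2.1, ← eW_app h2 hO]
        exact h4
      rw [eq_inv_of_mul_eq_one_left h3]
      exact sup_zp_inv hBS _


/-- the subgroup of the initial segments of length at most `k` -/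
def Dk (ζ : K) (w : List (Ln K n)) (k : ℕ) : Subgroup (PGU K n) :=
  Subgroup.closure {y | ∃ u v, w = u ++ v ∧ u.length ≤ k ∧ y = eW ζ u}

lemma Dk_le (w : List (Ln K n)) (k : ℕ) : Dk ζ w k ≤ Dm (eW ζ) w := by
  rw [Dk, Dm]
  refine Subgroup.closure_mono ?_
  rintro y ⟨u, v, h1, -, h3⟩
  exact ⟨u, v, h1, h3⟩

lemma Dk_mono (w : List (Ln K n)) (k : ℕ) : Dk ζ w k ≤ Dk ζ w (k + 1) := by
  rw [Dk, Dk]
  refine Subgroup.closure_mono ?_
  rintro y ⟨u, v, h1, h2, h3⟩
  exact ⟨u, v, h1, h2.trans (Nat.le_succ k), h3⟩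

lemma Dk_lt (h1 : ζ ≠ 1) (h2 : ζ * star ζ = 1) {w : List (Ln K n)} (hw : Orth w) {k : ℕ}
    (hk : k + 2 ≤ w.length) : Dk ζ w k < Dk ζ w (k + 1) := by
  refine lt_of_le_of_ne (Dk_mono w k) fun h0 => ?_
  -- split the word
  obtain ⟨A, a, b, R, hwA, hA⟩ : ∃ (A : List (Ln K n)) (a b : Ln K n) (R : List (Ln K n)),
      w = A ++ a :: b :: R ∧ A.length = k := by
    have h3 : k < w.length := by omega
    have h4 : k + 1 < w.length := by omega
    refine ⟨w.take k, w[k], w[k + 1], w.drop (k + 2), ?_, by rw [List.length_take]; omega⟩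
    rw [← List.drop_eq_getElem_cons h4, ← List.drop_eq_getElem_cons h3, List.take_append_drop]
  have hO : Orth (A ++ a :: b :: R) := hwA ▸ hw
  have hOR := (orth_app.1 hO).2.1
  have hOR' := (List.pairwise_cons.1 hOR).2
  have hQ : sm (a :: b :: R) ≠ 0 := sm_ne hOR (by simp)
  have hle : Dk ζ w k ≤ Sc (sm (a :: b :: R)) := by
    rw [Dk, Subgroup.closure_le]
    rintro _ ⟨u, v, h3, h4, rfl⟩
    have hOu : Orth u := (orth_app.1 (h3 ▸ hw)).1
    refine mem_Sc h2 hOu (sm_sm_zero fun P hP Q hQ => ?_)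
    have h5 : P ∈ A := by
      rcases List.append_eq_append_iff.1 (h3.symm.trans hwA) with ⟨x, h6, h7⟩ | ⟨x, h6, h7⟩
      · rw [h6]
        exact List.mem_append_left _ hP
      · have h8 : x = [] := by
          rw [h6, List.length_append] at h4
          exact List.length_eq_zero_iff.1 (by omega)
        rw [h6, h8, List.append_nil] at hP
        exact hP
    exact (orth_app.1 hO).2.2 P h5 Q hQ
  have hAa : Orth (A ++ [a]) := by
    have h3 : Orth ((A ++ [a]) ++ b :: R) := by simpa using hO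
    exact (orth_app.1 h3).1
  have hmem : eW ζ (A ++ [a]) ∈ Dk ζ w (k + 1) :=
    Subgroup.subset_closure ⟨A ++ [a], b :: R, by rw [hwA]; simp, by simp [hA], rfl⟩
  rw [← h0] at hmem
  obtain ⟨κ, hκ⟩ := of_mem_Sc h1 h2 hAa hQ (hle hmem)
  have hAQ : sm A * sm (a :: b :: R) = 0 := sm_app_zero hO
  have haQ : a.1 * sm (a :: b :: R) = a.1 := mul_sm' hOR (by simp)
  have hbQ : b.1 * sm (a :: b :: R) = b.1 := mul_sm' hOR (by simp)
  have hba : b.1 * a.1 = 0 := ln_comm ((List.pairwise_cons.1 hOR).1 b (by simp))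
  rw [sm_append, sm_cons a [], sm_nil, add_zero, Matrix.add_mul, hAQ, zero_add, haQ] at hκ
  have h3 : (0 : Matrix (Fin n) (Fin n) K) = κ • b.1 := by
    rw [← hba]
    conv_lhs => rw [hκ]
    rw [Matrix.mul_smul, hbQ]
  have h4 : κ = 0 := by
    rcases smul_eq_zero.1 h3.symm with h | h
    · exact h
    · exact absurd h (ln_ne b)
  rw [h4, zero_smul] at hκ
  exact ln_ne a hκ

lemma Dm_eW_comm (h2 : ζ * star ζ = 1) {w : List (Ln K n)} (hw : Orth w) :
    ∀ x ∈ Dm (eW ζ) w, ∀ y ∈ Dm (eW ζ) w, x * y = y * x := by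
  refine Dm_comm fun u v r h => ?_
  have h3 : Orth (u ++ v) := by
    rw [h, ← List.append_assoc] at hw
    exact (orth_app.1 hw).1
  rw [eW_app h2 h3, mul_assoc, ← eW_comm h2 h3]

lemma card_Dm [hpr : Fact p.Prime] (hp : ζ ^ p = 1) (h1 : ζ ≠ 1) (h2 : ζ * star ζ = 1)
    [Finite (PGU K n)] {w : List (Ln K n)} (hw : w ∈ Fr K n) :
    Nat.card (Dm (eW ζ) w) = p ^ (n - 1) := by
  obtain ⟨hlen, hO⟩ := (mem_Fr K).1 hw
  have hDc := Dm_eW_comm (ζ := ζ) h2 hO
  have hDp : ∀ x ∈ Dm (eW ζ) w, x ^ p = 1 := Dm_pow hDc fun u v h =>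
    eW_pow hp h2 (orth_app.1 (h ▸ hO)).1
  refine le_antisymm ?_ ?_
  · -- upper bound
    have h3 := card_sup_list (p := p) hDc (pre (fun w => Subgroup.zpowers (eW ζ w)) w) ⊥ bot_le
      (fun s hs => by
        obtain ⟨u, hu, rfl⟩ := List.mem_map.1 hs
        obtain ⟨v, h4, h5, h6⟩ := mem_pfx.1 hu
        exact ⟨eW ζ u, Subgroup.subset_closure ⟨u, v, h4, rfl⟩,
          eW_pow hp h2 (orth_app.1 (h4 ▸ hO)).1, rfl⟩)
    rw [Subgroup.card_bot, one_mul, pre_length, hlen, bot_sup_eq] at h3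
    refine le_trans (Nat.card_mono (Set.toFinite _) ?_) h3
    show Dm (eW ζ) w ≤ _
    rw [Dm, Subgroup.closure_le]
    rintro _ ⟨u, v, h4, rfl⟩
    rw [SetLike.mem_coe]
    by_cases hu : u = []
    · rw [hu, eW_nil h2]
      exact one_mem _
    · by_cases hv : v = []
      · rw [hv, List.append_nil] at h4
        rw [← h4, eW_full h1 h2 hw]
        exact one_mem _
      · have h5 : Subgroup.zpowers (eW ζ u) ∈ pre (fun w => Subgroup.zpowers (eW ζ w)) w :=
          List.mem_map.2 ⟨u, mem_pfx.2 ⟨v, h4, hu, hv⟩, rfl⟩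
        have h6 : ∀ (S : List (Subgroup (PGU K n))), Subgroup.zpowers (eW ζ u) ∈ S →
            Subgroup.zpowers (eW ζ u) ≤ S.foldr (· ⊔ ·) ⊥ := by
          intro S
          induction S with
          | nil => intro h; simp at h
          | cons s S ih =>
            intro h
            rcases List.mem_cons.1 h with h | h
            · rw [List.foldr_cons, ← h]
              exact le_sup_left
            · exact (ih h).trans le_sup_right
        exact h6 _ h5 (Subgroup.mem_zpowers (eW ζ u))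
  · -- lower bound
    have key : ∀ k, k + 1 ≤ n → p ^ k ≤ Nat.card (Dk ζ w k) := by
      intro k
      induction k with
      | zero => intro _; rw [pow_zero]; exact Nat.card_pos
      | succ k ih =>
        intro hk
        have h3 := ih (by omega)
        have hlt : Dk ζ w k < Dk ζ w (k + 1) := Dk_lt h1 h2 hO (by omega)
        have hP : IsPGroup p (Dk ζ w (k + 1)) := by
          intro x
          refine ⟨1, ?_⟩
          rw [pow_one]
          exact Subtype.ext (hDp x.1 (Dk_le w (k + 1) x.2))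
        obtain ⟨i, hi⟩ := IsPGroup.iff_card.1 hP
        obtain ⟨j, hji, hj⟩ := (Nat.dvd_prime_pow hpr.out).1 (hi ▸ Subgroup.card_dvd_of_le hlt.le)
        have hne : j ≠ i := by
          rintro rfl
          exact hlt.ne (Subgroup.eq_of_le_of_card_ge hlt.le (by rw [hi, hj]))
        rw [hj] at h3
        have h4 : k ≤ j := (Nat.pow_le_pow_iff_right hpr.out.one_lt).1 h3
        rw [hi]
        exact Nat.pow_le_pow_right hpr.out.pos (by omega)
    rcases Nat.eq_zero_or_pos n with hn | hn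
    · have h3 : n - 1 = 0 := by omega
      rw [h3, pow_zero]
      exact Nat.card_pos
    · have h3 := key (n - 1) (by omega)
      exact h3.trans (Nat.card_mono (Set.toFinite _) (Dk_le w (n - 1)))

/-- **The hypotheses of M3**, any star. -/
theorem comb_eW [hpr : Fact p.Prime] (hp : ζ ^ p = 1) (h1 : ζ ≠ 1) (h2 : ζ * star ζ = 1) :
    Comb p n (Fr K n) (eW ζ) := by
  haveI : Finite (GU K n) := by
    haveI : Finite (Matrix (Fin n) (Fin n) K) := inferInstanceAs (Finite (Fin n → Fin n → K))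
    infer_instance
  haveI : Finite (PGU K n) := inferInstanceAs (Finite (GU K n ⧸ Subgroup.center (GU K n)))
  refine ⟨fun w hw => ((mem_Fr K).1 hw).1, fun w hw => orth_nodup ((mem_Fr K).1 hw).2, ?_, ?_, ?_,
    ?_, eW_nil h2, fun w hw => eW_full h1 h2 hw, fun w hw => card_Dm hp h1 h2 hw, ?_⟩
  · intro w hw w' hww'
    obtain ⟨h3, h4⟩ := (mem_Fr K).1 hw
    exact (mem_Fr K).2 ⟨hww'.length_eq ▸ h3, orth_perm hww' h4⟩
  · intro u a b c d v w h3 h4
    obtain ⟨h5, h6⟩ := (mem_Fr K).1 h3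
    obtain ⟨h7, h8⟩ := (mem_Fr K).1 h4
    have h9 := sm_eq_one h5 h6
    have h10 := sm_eq_one h7 h8
    have e1 : u ++ a :: b :: (v ++ w) = (u ++ a :: b :: v) ++ w := by simp
    have e2 : u ++ c :: d :: (v ++ w) = (u ++ c :: d :: v) ++ w := by simp
    rw [e1, sm_append] at h9
    rw [e2, sm_append] at h10
    rw [eW, eW, add_right_cancel (h9.trans h10.symm)]
  · intro u v w h3
    have h4 : Orth (u ++ v) := by
      have h5 := ((mem_Fr K).1 h3).2
      rw [← List.append_assoc] at h5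
      exact (orth_app.1 h5).1
    rw [eW_app h2 h4, mul_assoc, ← eW_comm h2 h4]
  · intro u v h3
    exact eW_pow hp h2 (orth_app.1 ((mem_Fr K).1 h3).2).1
  · intro A u v B l g h3 h4 hu hv
    exact eW_sep h1 h2 h3 h4 hu hv

end els

/-- **Module M4c.** -/
theorem stmtM4c : StmtM4c.{u} := by
  intro K _ _ _ q _ _ _ p _ ζ hp h1 h2 n _
  exact comb_eW hp h1 h2

end Vale.Agent.P240.R2.H938
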