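import Vale.Agent.P240.R2.H487.EDefs

/-!
Elimination of families of commuting subgroups satisfying `LocTopF`.
-/

set_option linter.all false

namespace Vale.Agent.P240.R2.H938

open Finsupp hiding cons
open Subgroup Vale.Agent.P240.K Vale.Agent.P240.H195 Vale.Agent.P240.R2.H487

universe u v

section
variable {G : Type u} [Group G]

lemma card_sup_le_comm [Finite G] {A B : Subgroup G} (h : ∀ a ∈ A, ∀ b ∈ B, a * b = b * a) :
    Nat.card (A ⊔ B : Subgroup G) ≤ Nat.card A * Nat.card B := by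
  rw [← Nat.card_prod]
  refine Nat.card_le_card_of_surjective (fun z : A × B =>
    (⟨z.1 * z.2, mul_mem ((le_sup_left : A ≤ A ⊔ B) z.1.2)
      ((le_sup_right : B ≤ A ⊔ B) z.2.2)⟩ : (A ⊔ B : Subgroup G))) ?_
  rintro ⟨x, hx⟩
  obtain ⟨a, ha, b, hb, rfl⟩ := H487.mem_sup_comm h hx
  exact ⟨(⟨a, ha⟩, ⟨b, hb⟩), rfl⟩

lemma card_sup_comm [Finite G] {A B : Subgroup G}
    (hAB : A ⊓ B = ⊥) : Nat.card A * Nat.card B ≤ Nat.card (A ⊔ B : Subgroup G) := by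
  rw [← Nat.card_prod]
  refine Nat.card_le_card_of_injective (fun z : A × B =>
    (⟨z.1 * z.2, mul_mem ((le_sup_left : A ≤ A ⊔ B) z.1.2)
      ((le_sup_right : B ≤ A ⊔ B) z.2.2)⟩ : (A ⊔ B : Subgroup G))) ?_
  rintro ⟨⟨a, ha⟩, ⟨b, hb⟩⟩ ⟨⟨a', ha'⟩, ⟨b', hb'⟩⟩ heq
  have h1 : a * b = a' * b' := congrArg Subtype.val heq
  have h2 : a'⁻¹ * a = b' * b⁻¹ := by
    calc a'⁻¹ * a = a'⁻¹ * (a * b) * b⁻¹ := by group
      _ = a'⁻¹ * (a' * b') * b⁻¹ := by rw [h1]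
      _ = b' * b⁻¹ := by group
  have h3 : a'⁻¹ * a ∈ A ⊓ B :=
    mem_inf.2 ⟨mul_mem (inv_mem ha') ha, h2 ▸ mul_mem hb' (inv_mem hb)⟩
  rw [hAB, mem_bot] at h3
  have h4 : a = a' := (inv_mul_eq_one.1 h3).symm
  rw [h3] at h2
  have h5 : b' = b := mul_inv_eq_one.1 h2.symm
  subst h4 h5
  rfl

end

section
variable {𝕜 : Type v} [Field 𝕜] {G : Type u} [Group G] {p : ℕ}

/-- **Local elimination**, with top cycles for a subgroup of at least the same order. -/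
theorem local_topF [hp : Fact p.Prime] [Finite G] {X C A : Subgroup G} (hCX : C ≤ X)
    (Q : Subgroup G → Prop) (hQ : ∀ F F', Q F → F ≤ F' → Q F')
    (hAX : A ≤ X) (hQA : Q A) (hA : A ∈ ApB p G) (hAC : A ⊓ C = ⊥)
    (hcen : C ≤ centralizer (A : Set G))
    (hα : ∀ F ∈ ApB p G, F ≤ X → Q F → F ⊓ C = ⊥ →
      NA 𝕜 (Ain p (C ⊓ centralizer (F : Set G))) →
      ∃ (F' H : Subgroup G) (α : Ch 𝕜 (Subgroup G)) (φ : List (Subgroup G)),
        F' ∈ ApB p G ∧ F' ≤ X ∧ Q F' ∧ F' ⊓ C = ⊥ ∧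
        C ⊓ centralizer (F' : Set G) = C ⊓ centralizer (F : Set G) ∧
        Nat.card F ≤ Nat.card F' ∧ TopCycle 𝕜 p H F' α φ ∧
        H ≤ X ∧ ∀ x ∈ H, ∀ y ∈ C ⊓ centralizer (F' : Set G), x * y = y * x)
    (h : NA 𝕜 (Ain p C)) : NA 𝕜 (Ain p X) := by
  set S : Set (Subgroup G) := {F : Subgroup G | F ∈ ApB p G ∧ F ≤ X ∧ Q F ∧ F ⊓ C = ⊥ ∧
      NA 𝕜 (Ain p (C ⊓ centralizer (F : Set G)))} with hS
  have hne : A ∈ S := by
    refine ⟨hA, hAX, hQA, hAC, ?_⟩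
    rwa [inf_eq_left.2 hcen]
  obtain ⟨F₀, hF₀, hmax⟩ := Set.exists_max_image S (fun F => Nat.card F) (Set.toFinite S) ⟨A, hne⟩
  obtain ⟨hF₀B, hF₀X, hF₀Q, hF₀C, hNA₀⟩ := hF₀
  obtain ⟨F, H, α, φ, hFB, hFX, hFQ, hFC, hCF, hcard, hT, hHX, hcomm⟩ :=
    hα F₀ hF₀B hF₀X hF₀Q hF₀C hNA₀
  have hNA : NA 𝕜 (Ain p (C ⊓ centralizer (F : Set G))) := by rwa [hCF]
  obtain ⟨y, hy, hyb, hyc⟩ := join_cycle (𝒮 := Ain p X) C (fun E hE => hE.1)
    (fun E hE E' hE' h0 => ⟨mem_ApS_of_le hE.1 hE' h0, hE'.trans hE.2⟩)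
    (fun F' hF' B hB => by
      have hBX : B ≤ X := hB.2.trans (inf_le_left.trans hCX)
      rcases hF' with h0 | hF'
      · rw [h0, bot_sup_eq]
        exact ⟨hB.1, hBX⟩
      · refine ⟨sup_mem_ApS hF'.1 hB.1 fun x hx y hy => ?_, sup_le hF'.2 hBX⟩
        exact (mem_centralizer_iff.1 (mem_inf.1 (hB.2 hy)).2) x hx)
    (hFB.imp id fun h => ⟨h, hFX⟩) hFC
    (fun T hT hFT hTC hna => by
      have h1 : Nat.card T ≤ Nat.card F₀ := hmax T ⟨Or.inr hT.1, hT.2, hQ F T hFQ hFT.le, hTC, hna⟩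
      exact hFT.ne (Subgroup.eq_of_le_of_card_ge hFT.le (h1.trans hcard)))
    hT (fun E hE => ⟨hE.1, hE.2.trans hHX⟩)
    (fun E hE E' hE' => ⟨sup_mem_ApS hE.1 hE'.1 fun x hx y hy => hcomm x (hE.2 hx) y (hE'.2 hy),
      sup_le (hE.2.trans hHX) (hE'.2.trans (inf_le_left.trans hCX))⟩)
    hNA
  exact ⟨y, Sp_mono (st_mono fun E hE => hE.1) hy, hyb, hyc⟩

/-- **Top cycles** for commuting subgroups satisfying `LocTopF`. -/
theorem fam_topF [hp : Fact p.Prime] [Finite G] {D : Set (Subgroup G)}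
    (hcomm : ∀ L ∈ D, ∀ M ∈ D, L ≠ M → ∀ x ∈ L, ∀ y ∈ M, x * y = y * x)
    {𝒜 : Subgroup G → Set (Subgroup G)} (hAL : ∀ L ∈ D, ∀ A ∈ 𝒜 L, A ≤ L ∧ A ∈ ApS p G)
    (hA : ∀ L ∈ D, ∀ E ∈ ApS p G, E ≤ normalizer (L : Set G) → ∀ E₁ ≤ E,
      (∃ A ∈ 𝒜 L, A ≤ E₁) → E₁ ⊓ centralizer (L : Set G) = ⊥ → ∃ B ≤ E, E₁ ⊔ B = E ∧
        E₁ ⊓ B = ⊥ ∧ E ⊓ centralizer (L : Set G) ≤ B ∧
        ∃ E' ≤ (L ⊔ E₁) ⊓ centralizer (B : Set G),
          E' ∈ ApS p G ∧ (∃ A ∈ 𝒜 L, A ≤ E') ∧ E' ⊓ (centralizer (L : Set G) ⊔ B) = ⊥ ∧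
          L ⊔ E' = L ⊔ E₁ ∧ Nat.card E₁ ≤ Nat.card E' ∧
          ∃ (α : Ch 𝕜 (Subgroup G)) (φ : List (Subgroup G)),
            TopCycle 𝕜 p ((L ⊔ E₁) ⊓ centralizer (B : Set G)) E' α φ) :
    ∀ E ∈ ApB p G, (∀ L ∈ D, E ≤ normalizer (L : Set G)) → (∀ L ∈ D, ∃ A ∈ 𝒜 L, A ≤ E) →
      E ⊓ Cen D = ⊥ → ∃ E' ∈ ApB p G, (∀ L ∈ D, ∃ A ∈ 𝒜 L, A ≤ E') ∧ E' ⊓ Cen D = ⊥ ∧
        (⨆ L ∈ D, L) ⊔ E' = (⨆ L ∈ D, L) ⊔ E ∧ Nat.card E ≤ Nat.card E' ∧
        ∃ (α : Ch 𝕜 (Subgroup G)) (φ : List (Subgroup G)),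
          TopCycle 𝕜 p ((⨆ L ∈ D, L) ⊔ E) E' α φ := by
  have key : ∀ s : Set (Subgroup G), s.Finite → s ⊆ D → ∀ E ∈ ApB p G,
      (∀ L ∈ s, E ≤ normalizer (L : Set G)) → (∀ L ∈ s, ∃ A ∈ 𝒜 L, A ≤ E) →
      E ⊓ Cen s = ⊥ → ∃ E' ∈ ApB p G, (∀ L ∈ s, ∃ A ∈ 𝒜 L, A ≤ E') ∧ E' ⊓ Cen s = ⊥ ∧
        (⨆ L ∈ s, L) ⊔ E' = (⨆ L ∈ s, L) ⊔ E ∧ Nat.card E ≤ Nat.card E' ∧
        ∃ (α : Ch 𝕜 (Subgroup G)) (φ : List (Subgroup G)),
          TopCycle 𝕜 p ((⨆ L ∈ s, L) ⊔ E) E' α φ := by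
    intro s hs'
    induction s, hs' using Set.Finite.induction_on with
    | empty =>
      intro _ E hEB _ _ hE
      have hE0 := hE
      rw [Cen_empty, inf_top_eq] at hE
      subst hE
      exact ⟨⊥, hEB, by simp, hE0, rfl, le_rfl, single [] 1, [],
        single_mem_Sp ⟨⟨List.Pairwise.nil, by simp⟩, rfl⟩ _, by simp,
        by simp, Or.inl ⟨rfl, rfl⟩, by simp⟩
    | @insert L s hL _ ih =>
      intro hsD E hEB hEN hAE hEC
      have hLD := hsD (Set.mem_insert L s)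
      have hsD' : s ⊆ D := fun M hM => hsD (Set.mem_insert_of_mem L hM)
      obtain ⟨A, hAm, hAL'⟩ := hAE L (Set.mem_insert L s)
      have hE : E ∈ ApS p G := by
        rcases hEB with h0 | h0
        · exfalso
          rw [h0, le_bot_iff] at hAL'
          exact (hAL L hLD A hAm).2.1 hAL'
        · exact h0
      have hne : ∀ M ∈ s, M ≠ L := fun M hM h0 => hL (h0 ▸ hM)
      have hLCs : L ≤ Cen s := by
        intro x hx
        rw [mem_Cen]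
        intro M hM
        rw [mem_centralizer_iff]
        intro y hy
        exact hcomm M (hsD' hM) L hLD (hne M hM) y hy x hx
      have hsCL : ⨆ M ∈ s, M ≤ centralizer (L : Set G) := by
        refine iSup₂_le fun M hM x hx => ?_
        rw [mem_centralizer_iff]
        intro y hy
        exact (hcomm M (hsD' hM) L hLD (hne M hM) x hx y hy).symm
      have hALs : A ≤ Cen s := (hAL L hLD A hAm).1.trans hLCs
      have hENL := hEN L (Set.mem_insert L s)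
      obtain ⟨B, hBE, hB1, hB2, hB3, E₁, hE₁le, hE₁S, hE₁A, hE₁C, hE₁L, hE₁c, α₁, φ₁, hT₁⟩ :=
        hA L hLD E hE hENL (E ⊓ Cen s) inf_le_left
        ⟨A, hAm, le_inf hAL' hALs⟩ (by rw [inf_assoc, ← Cen_insert, hEC])
      have hBB : B ∈ ApB p G := by
        by_cases h0 : B = ⊥
        · exact Or.inl h0
        · exact Or.inr (mem_ApS_of_le hE hBE h0)
      obtain ⟨B', hB'B, hB'A, hB'C, hB's, hB'c, α₂, φ₂, hT₂⟩ := ih hsD' B hBB
        (fun M hM => hBE.trans (hEN M (Set.mem_insert_of_mem L hM))) (fun M hM => by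
          obtain ⟨A', hA'm, hA'E⟩ := hAE M (Set.mem_insert_of_mem L hM)
          refine ⟨A', hA'm, le_trans (le_inf hA'E fun x hx => ?_) hB3⟩
          rw [mem_centralizer_iff]
          intro y hy
          exact (hcomm M (hsD' hM) L hLD (hne M hM) x ((hAL M (hsD' hM) A' hA'm).1 hx)
            y hy).symm) (by
          rw [← hB2]
          refine le_antisymm (fun x hx => ?_) fun x hx => ?_
          · exact mem_inf.2 ⟨mem_inf.2 ⟨hBE hx.1, hx.2⟩, hx.1⟩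
          · exact mem_inf.2 ⟨hx.2, hx.1.2⟩)
      have hLs : ∀ x ∈ L ⊔ (E ⊓ Cen s), ∀ y ∈ ⨆ M ∈ s, M, x * y = y * x := by
        intro x hx y hy
        have h1 : ⨆ M ∈ s, M ≤ centralizer ((L ⊔ (E ⊓ Cen s) : Subgroup G) : Set G) := by
          refine iSup₂_le fun M hM => ?_
          rw [le_centralizer_iff]
          refine sup_le (fun z hz => ?_) fun z hz => mem_Cen.1 hz.2 M hM
          rw [mem_centralizer_iff]
          exact fun w hw => hcomm M (hsD' hM) L hLD (hne M hM) w hw z hz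
        exact (mem_centralizer_iff.1 (h1 hy)) x hx
      -- the two factors commute
      have hcom2 : ∀ x ∈ (L ⊔ (E ⊓ Cen s)) ⊓ centralizer (B : Set G),
          ∀ y ∈ (⨆ M ∈ s, M) ⊔ B, x * y = y * x := by
        intro x hx y hy
        have h1 : (⨆ M ∈ s, M) ⊔ B ≤ centralizer {x} := by
          refine sup_le (fun z hz => ?_) fun z hz => ?_
          · rw [mem_centralizer_singleton_iff]
            exact (hLs x hx.1 z hz).symm
          · rw [mem_centralizer_singleton_iff]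
            exact (mem_centralizer_iff.1 hx.2) z hz
        exact (mem_centralizer_singleton_iff.1 (h1 hy)).symm
      have hB'le : B' ≤ (⨆ M ∈ s, M) ⊔ B := by
        rw [← hB's]
        exact le_sup_right
      have hcom3 : ∀ x ∈ E₁, ∀ y ∈ B', x * y = y * x := fun x hx y hy =>
        hcom2 x (hE₁le hx) y (hB'le hy)
      have hdis : E₁ ⊓ ((⨆ M ∈ s, M) ⊔ B) = ⊥ := by
        rw [eq_bot_iff, ← hE₁C]
        exact inf_le_inf_left _ (sup_le_sup_right hsCL B)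
      have hdis' : E₁ ⊓ B' = ⊥ := by
        rw [eq_bot_iff, ← hdis]
        exact inf_le_inf_left _ hB'le
      have hE₁s : E₁ ≤ Cen s :=
        hE₁le.trans (inf_le_left.trans (sup_le hLCs inf_le_right))
      obtain ⟨α, φ, hT⟩ := topCycle_join hT₁ hT₂ hcom2 hdis
      refine ⟨E₁ ⊔ B', ?_, ?_, ?_, ?_, ?_, α, φ, r5_mono ?_ hT⟩
      · rcases hB'B with h0 | h0
        · rw [h0, sup_bot_eq]
          exact Or.inr hE₁S
        · exact Or.inr (sup_mem_ApS hE₁S h0 hcom3)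
      · intro M hM
        rcases Set.mem_insert_iff.1 hM with rfl | hM
        · obtain ⟨A', hA'm, hA'⟩ := hE₁A
          exact ⟨A', hA'm, hA'.trans le_sup_left⟩
        · obtain ⟨A', hA'm, hA'⟩ := hB'A M hM
          exact ⟨A', hA'm, hA'.trans le_sup_right⟩
      · rw [eq_bot_iff]
        intro x hx
        obtain ⟨hx1, hx2⟩ := mem_inf.1 hx
        rw [Cen_insert] at hx2
        obtain ⟨hx4, hx3⟩ := mem_inf.1 hx2
        obtain ⟨e, he, b, hb, rfl⟩ := H487.mem_sup_comm hcom3 hx1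
        have hbC : b ∈ B' ⊓ Cen s := by
          refine mem_inf.2 ⟨hb, ?_⟩
          have h1 := mul_mem (inv_mem (hE₁s he)) hx4
          rwa [inv_mul_cancel_left] at h1
        rw [hB'C, mem_bot] at hbC
        subst hbC
        rw [mul_one] at hx3 ⊢
        rw [← hE₁C]
        exact mem_inf.2 ⟨he, (le_sup_left : centralizer (L : Set G) ≤ _) hx3⟩
      · rw [iSup_insert]
        calc L ⊔ (⨆ M ∈ s, M) ⊔ (E₁ ⊔ B') = (L ⊔ E₁) ⊔ ((⨆ M ∈ s, M) ⊔ B') := by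
              rw [sup_sup_sup_comm]
          _ = (L ⊔ (E ⊓ Cen s)) ⊔ ((⨆ M ∈ s, M) ⊔ B) := by rw [hE₁L, hB's]
          _ = L ⊔ (⨆ M ∈ s, M) ⊔ ((E ⊓ Cen s) ⊔ B) := by rw [sup_sup_sup_comm]
          _ = L ⊔ (⨆ M ∈ s, M) ⊔ E := by rw [hB1]
      · calc Nat.card E = Nat.card ((E ⊓ Cen s) ⊔ B : Subgroup G) := by rw [hB1]
          _ ≤ Nat.card (E ⊓ Cen s : Subgroup G) * Nat.card B :=
              card_sup_le_comm fun a ha b hb => hE.2.1 a ha.1 b (hBE hb)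
          _ ≤ Nat.card E₁ * Nat.card B' := Nat.mul_le_mul hE₁c hB'c
          _ ≤ Nat.card (E₁ ⊔ B' : Subgroup G) := card_sup_comm hdis'
      · rw [iSup_insert]
        refine sup_le (inf_le_left.trans (sup_le (le_sup_left.trans le_sup_left)
          (inf_le_left.trans le_sup_right))) (sup_le (le_sup_right.trans le_sup_left)
          (hBE.trans le_sup_right))
  exact key D (Set.toFinite D) subset_rfl

/-- **Elimination** of a set `D` of commuting subgroups of `X` satisfying `LocTopF`. -/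
theorem top_stepF [hp : Fact p.Prime] [Finite G] {X : Subgroup G} {D : Set (Subgroup G)}
    (hDX : ∀ L ∈ D, L ≤ X) (hconj : ∀ g ∈ X, ∀ L ∈ D, K.cj g L ∈ D)
    (hcomm : ∀ L ∈ D, ∀ M ∈ D, L ≠ M → ∀ x ∈ L, ∀ y ∈ M, x * y = y * x)
    (hc : ∀ L ∈ D, L ⊓ centralizer (L : Set G) = ⊥) (hloc : ∀ L ∈ D, LocTopF 𝕜 p L)
    (hC : NA 𝕜 (Ain p (X ⊓ Cen D))) : NA 𝕜 (Ain p X) := by
  choose! 𝒜 h𝒜ne hAL hAW using hloc
  choose! A hAm using h𝒜ne
  have hAD : ⨆ L ∈ D, A L ≤ ⨆ L ∈ D, L := iSup₂_mono fun L hL => (hAL L hL _ (hAm L hL)).1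
  have hDX' : ⨆ L ∈ D, L ≤ X := iSup₂_le hDX
  have hcen : ∀ x ∈ ⨆ L ∈ D, L, ∀ y ∈ Cen D, x * y = y * x := by
    intro x hx y hy
    have h1 : ⨆ L ∈ D, L ≤ centralizer {y} := by
      refine iSup₂_le fun L hL z hz => ?_
      rw [mem_centralizer_singleton_iff]
      exact (mem_centralizer_iff.1 (mem_Cen.1 hy L hL)) z hz
    exact mem_centralizer_singleton_iff.1 (h1 hx)
  have hApB : (⨆ L ∈ D, A L) ∈ ApB p G := by
    refine fam_induction (P := fun B => B ∈ ApB p G) (Or.inl rfl) ?_ hcomm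
      (fun L hL => ⟨(hAL L hL _ (hAm L hL)).1, Or.inr (hAL L hL _ (hAm L hL)).2⟩)
    intro B B' h hB hB'
    rcases hB with hB | hB
    · rwa [hB, bot_sup_eq]
    · rcases hB' with hB' | hB'
      · rw [hB', sup_bot_eq]
        exact Or.inr hB
      · exact Or.inr (sup_mem_ApS hB hB' h)
  refine local_topF (C := X ⊓ Cen D) (A := ⨆ L ∈ D, A L) inf_le_left
    (fun F => ∀ L ∈ D, ∃ A ∈ 𝒜 L, A ≤ F) (fun F F' hF hFF' L hL => by
      obtain ⟨A', hA', hA'F⟩ := hF L hL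
      exact ⟨A', hA', hA'F.trans hFF'⟩) (hAD.trans hDX')
    (fun L hL => ⟨A L, hAm L hL, le_biSup A hL⟩) hApB ?_ ?_
    (fun E hE hEX hQE hEC _ => ?_) hC
  · rw [eq_bot_iff]
    intro x hx
    obtain ⟨h1, h2⟩ := mem_inf.1 hx
    exact mem_bot.2 (fam_centre hcomm hc (hAD h1) fun L hL => mem_Cen.1 (mem_inf.1 h2).2 L hL)
  · intro y hy
    rw [mem_centralizer_iff]
    exact fun x hx => hcen x (hAD hx) y (mem_inf.1 hy).2
  · -- `E` normalizes the members of `D`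
    have hEn : ∀ L ∈ D, E ≤ normalizer (L : Set G) := by
      intro L hL x hx
      rw [← cj_eq_iff]
      by_contra hne
      have h1 := hconj x (hEX hx) L hL
      obtain ⟨A', hA', hALE⟩ := hQE L hL
      have hEab : ∀ a ∈ E, ∀ b ∈ E, a * b = b * a := by
        rcases hE with h | h
        · intro a ha b hb
          rw [h, mem_bot] at ha hb
          rw [ha, hb]
        · exact h.2.1
      apply (hAL L hL A' hA').2.1
      rw [eq_bot_iff, ← hc L hL]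
      intro a ha
      refine mem_inf.2 ⟨(hAL L hL A' hA').1 ha, mem_centralizer_iff.2 fun y hy => ?_⟩
      have h2 : a ∈ K.cj x L := by
        rw [K.mem_cj]
        have : x⁻¹ * a * x = a := by
          rw [mul_assoc, hEab a (hALE ha) x hx, inv_mul_cancel_left]
        rw [this]
        exact (hAL L hL A' hA').1 ha
      exact hcomm L hL _ h1 (Ne.symm hne) y hy a h2
    have hEC' : E ⊓ Cen D = ⊥ := by
      rw [eq_bot_iff, ← hEC]
      exact fun x hx => mem_inf.2 ⟨hx.1, mem_inf.2 ⟨hEX hx.1, hx.2⟩⟩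
    obtain ⟨E', hE'B, hE'A, hE'C, hE's, hE'c, α, φ, hT⟩ :=
      fam_topF hcomm hAL hAW E hE hEn hQE hEC'
    -- elements commuting with `Cen D` and `E`
    have hH : ∀ y ∈ Cen D, (∀ x ∈ E, x * y = y * x) → ∀ x ∈ (⨆ L ∈ D, L) ⊔ E,
        x * y = y * x := by
      intro y hy hyE x hx
      have h1 : (⨆ L ∈ D, L) ⊔ E ≤ centralizer {y} := by
        refine sup_le (fun a ha => ?_) fun a ha => ?_
        · rw [mem_centralizer_singleton_iff]
          exact hcen a ha y hy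
        · rw [mem_centralizer_singleton_iff]
          exact hyE a ha
      exact mem_centralizer_singleton_iff.1 (h1 hx)
    have hH' : ∀ y ∈ Cen D, (∀ x ∈ E', x * y = y * x) → ∀ x ∈ (⨆ L ∈ D, L) ⊔ E,
        x * y = y * x := by
      intro y hy hyE x hx
      rw [← hE's] at hx
      have h1 : (⨆ L ∈ D, L) ⊔ E' ≤ centralizer {y} := by
        refine sup_le (fun a ha => ?_) fun a ha => ?_
        · rw [mem_centralizer_singleton_iff]
          exact hcen a ha y hy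
        · rw [mem_centralizer_singleton_iff]
          exact hyE a ha
      exact mem_centralizer_singleton_iff.1 (h1 hx)
    have hE'le : E' ≤ (⨆ L ∈ D, L) ⊔ E := by
      rw [← hE's]
      exact le_sup_right
    have hHX : (⨆ L ∈ D, L) ⊔ E ≤ X := sup_le hDX' hEX
    have hCC : X ⊓ Cen D ⊓ centralizer (E' : Set G) = X ⊓ Cen D ⊓ centralizer (E : Set G) := by
      refine le_antisymm (fun y hy => ?_) fun y hy => ?_
      · obtain ⟨h1, h2⟩ := mem_inf.1 hy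
        refine mem_inf.2 ⟨h1, ?_⟩
        rw [mem_centralizer_iff] at h2 ⊢
        exact fun x hx => hH' y (mem_inf.1 h1).2 h2 x ((le_sup_right : E ≤ _) hx)
      · obtain ⟨h1, h2⟩ := mem_inf.1 hy
        refine mem_inf.2 ⟨h1, ?_⟩
        rw [mem_centralizer_iff] at h2 ⊢
        exact fun x hx => hH y (mem_inf.1 h1).2 h2 x (hE'le hx)
    refine ⟨E', (⨆ L ∈ D, L) ⊔ E, α, φ, hE'B, hE'le.trans hHX, hE'A, ?_, hCC, hE'c, hT, hHX,
      fun x hx y hy => ?_⟩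
    · rw [eq_bot_iff, ← hE'C]
      exact fun x hx => mem_inf.2 ⟨hx.1, hx.2.2⟩
    · exact hH' y (mem_inf.1 (mem_inf.1 hy).1).2 (mem_centralizer_iff.1 (mem_inf.1 hy).2) x hx

end

end Vale.Agent.P240.R2.H938
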