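import Vale.Agent.P240.R2.H938.M6
import Vale.Agent.P240.R2.H938.M4c
import Vale.Agent.P240.R2.H387.M2
import Vale.Agent.P240.R2.H727.M4

/-!
The Quillen dimension property of the subgroups of `PGU_n(q)` that contain the elements `e W`.
-/

set_option autoImplicit false

namespace Vale.Agent.P240.R2.H938

open Vale.Agent.P240.R2.AS

universe u v

/-- **Theorem 2** of the unitary conjecture: `StmtM6` without hypotheses. -/
theorem m6 : StmtM6.{u, v} :=
  stmtM6 H387.stmtM2 H727.stmtM4 stmtM4c

end Vale.Agent.P240.R2.H938
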