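import Vale.Agent.P240.R2.H918.WSub
import Vale.Agent.P240.R2.H63.SysDef

/-!
LEMMA T (P240, crux 11): the system `Sys p F (Om F N)` with the relations `rl F N`.
-/

namespace Vale.Agent.P240.LT

open Subgroup Vale.Agent.P240.K Vale.Agent.P240.R2.H918

universe u

section
variable {G : Type u} [Group G]

lemma CN_inf_le (F N : Subgroup G) (X Y : Subgroup F) :
    CN F N X ⊓ CN F N Y ≤ CN F N (X ⊔ Y) := by
  intro g hg
  rw [Subgroup.mem_inf, mem_CN, mem_CN] at hg
  obtain ⟨⟨hN, hX⟩, -, hY⟩ := hg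
  rw [mem_CN]
  refine ⟨hN, fun x hx => ?_⟩
  have h : X ⊔ Y ≤ (centralizer ({g} : Set G)).comap F.subtype := by
    refine sup_le (fun z hz => ?_) (fun z hz => ?_)
    · rw [Subgroup.mem_comap, mem_centralizer_singleton_iff]
      exact (hX z hz)
    · rw [Subgroup.mem_comap, mem_centralizer_singleton_iff]
      exact (hY z hz)
  have h2 := h hx
  rw [Subgroup.mem_comap, mem_centralizer_singleton_iff] at h2
  exact h2

lemma rl_trivial_iff {F N : Subgroup G} {X : Subgroup F} :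
    (∀ x y, rl F N X x y → x = y) ↔ CN F N X ≤ CN F N ⊤ := by
  constructor
  · intro h g hg
    have hgN : g ∈ N := (mem_CN.1 hg).1
    have h1 := h (QuotientGroup.mk (1 : N)) (QuotientGroup.mk (⟨g, hgN⟩ : N))
      ((rl_mk _ _).2 (by simpa using hg))
    rw [QuotientGroup.eq, mem_subgroupOf] at h1
    simpa using h1
  · intro h x y hxy
    induction x using QuotientGroup.induction_on with | _ x
    induction y using QuotientGroup.induction_on with | _ y
    rw [rl_mk] at hxy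
    rw [QuotientGroup.eq, mem_subgroupOf]
    exact h hxy

lemma CN_map_le {F N : Subgroup G} {K : Subgroup F} (h : CN F N K ≤ CN F N ⊤) :
    N ⊓ centralizer ((K.map F.subtype : Subgroup G) : Set G) ≤ centralizer (F : Set G) := by
  intro g hg
  have h1 := (mem_CN.1 (h hg)).2
  rw [mem_centralizer_iff]
  intro x hx
  exact h1 ⟨x, hx⟩ (Subgroup.mem_top _)

/-- Field `gen`. -/
theorem gen_of_faithful [Finite G] {p : ℕ} [hp : Fact p.Prime] {F N : Subgroup G}
    (hAc : ∀ x ∈ F, ∀ y ∈ F, x * y = y * x) (hAp : ∀ x ∈ F, x ^ p = 1)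
    (hpN : ¬ p ∣ Nat.card N) (hAN : ∀ x ∈ F, ∀ q ∈ N, x * q * x⁻¹ ∈ N)
    (hfaith : ∀ x ∈ F, (∀ y ∈ N, x * y = y * x) → x = 1)
    (K : Subgroup F) (hK : K ≠ ⊥) :
    ∃ H : Subgroup F, Vale.Agent.P240.LT.Hyp p H ∧ ¬ K ≤ H ∧ ¬ CN F N H ≤ CN F N ⊤ := by
  obtain ⟨Λ, hΛ, hw⟩ := exists_weights_gen hAc hAp hpN hAN
  have h2 : ∀ a ∈ Λ, 2 ≤ a.2 := fun a ha => (hΛ a ha).1
  set K' : Subgroup G := K.map F.subtype with hK'
  have hK'F : K' ≤ F := map_subtype_le K
  -- `C_N(K) ≠ N`
  have h3 : Nat.card (N ⊓ centralizer (K' : Set G) : Subgroup G) < Nat.card N := by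
    refine lt_of_le_of_ne (card_le_of_le inf_le_left) fun e => hK ?_
    have e2 : N ⊓ centralizer (K' : Set G) = N :=
      SetLike.coe_injective (Set.eq_of_subset_of_ncard_le inf_le_left
        (by rw [← Nat.card_coe_set_eq, ← Nat.card_coe_set_eq]; exact e.ge) (Set.toFinite _))
    rw [eq_bot_iff]
    intro x hx
    rw [Subgroup.mem_bot]
    have h4 := hfaith (x : G) x.2 fun y hy => by
      have h5 : y ∈ N ⊓ centralizer (K' : Set G) := by rw [e2]; exact hy
      exact (mem_centralizer_iff.1 h5.2) x ⟨x, hx, rfl⟩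
    exact Subtype.ext h4
  -- some hyperplane does not contain `K`
  obtain ⟨a, ha, haK⟩ : ∃ a ∈ Λ, ¬ K' ≤ a.1 := by
    by_contra hcon
    push_neg at hcon
    have h5 : wt Λ K' = 1 := by
      rw [wt]
      refine List.prod_eq_one fun z hz => ?_
      rw [List.mem_map] at hz
      obtain ⟨b, hb, rfl⟩ := hz
      rw [if_pos (hcon b hb)]
    have h6 := hw K' hK'F
    rw [h5, mul_one] at h6
    have h7 : Nat.card N = Nat.card (N ⊓ centralizer (K' : Set G) : Subgroup G) := by
      exact_mod_cast h6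
    omega
  have hFa : ¬ F ≤ a.1 := fun h => haK (hK'F.trans h)
  have hcard := (hΛ a ha).2 F le_rfl hFa
  refine ⟨a.1.subgroupOf F, ?_, ?_, ?_⟩
  · have e : (a.1.subgroupOf F).map F.subtype = F ⊓ a.1 := by
      rw [inf_comm]; exact subgroupOf_map_subtype _ _
    rw [Vale.Agent.P240.LT.Hyp, ← card_map_sub F (a.1.subgroupOf F), e, ← hcard, mul_comm]
  · intro h
    apply haK
    rintro _ ⟨x, hx, rfl⟩
    exact h hx
  · intro h
    have e : (a.1.subgroupOf F).map F.subtype = a.1 ⊓ F := subgroupOf_map_subtype _ _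
    have h4 := CN_map_le h
    rw [e] at h4
    -- so `C_N(a ∩ F) = C_N(F)`
    have h5 : N ⊓ centralizer ((a.1 ⊓ F : Subgroup G) : Set G) ≤ N ⊓ centralizer (F : Set G) :=
      le_inf inf_le_left h4
    have h6 : (wt Λ (a.1 ⊓ F)) < wt Λ F :=
      (wt_mono h2 (inf_le_right : a.1 ⊓ F ≤ F)).2 ⟨a, ha, inf_le_left, hFa⟩
    have h7 := hw (a.1 ⊓ F) inf_le_right
    have h8 := hw F le_rfl
    have h9 : Nat.card (N ⊓ centralizer ((a.1 ⊓ F : Subgroup G) : Set G) : Subgroup G) ≤
        Nat.card (N ⊓ centralizer (F : Set G) : Subgroup G) := card_le_of_le h5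
    have h10 : 0 < Nat.card (N ⊓ centralizer (F : Set G) : Subgroup G) := Nat.card_pos
    have h11 := wt_pos h2 (a.1 ⊓ F)
    rw [h7] at h8
    have h12 : (Nat.card (N ⊓ centralizer ((a.1 ⊓ F : Subgroup G) : Set G) : Subgroup G) : ℤ) ≤
        Nat.card (N ⊓ centralizer (F : Set G) : Subgroup G) := by exact_mod_cast h9
    have h13 : (0 : ℤ) < Nat.card (N ⊓ centralizer (F : Set G) : Subgroup G) := by
      exact_mod_cast h10
    nlinarith

/-- **The system of `F` on `N / C_N(F)`.** -/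
noncomputable def sys [Finite G] {p : ℕ} [hp : Fact p.Prime] {F N : Subgroup G}
    (hAc : ∀ x ∈ F, ∀ y ∈ F, x * y = y * x) (hAp : ∀ x ∈ F, x ^ p = 1)
    (hpN : ¬ p ∣ Nat.card N) (hAN : ∀ x ∈ F, ∀ q ∈ N, x * q * x⁻¹ ∈ N)
    (hfaith : ∀ x ∈ F, (∀ y ∈ N, x * y = y * x) → x = 1) : Sys p F (Om F N) where
  r := rl F N
  top := rl_trivial_iff.2 le_rfl
  anti X Y h x y hxy := by
    induction x using QuotientGroup.induction_on with | _ x
    induction y using QuotientGroup.induction_on with | _ y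
    rw [rl_mk] at hxy ⊢
    exact CN_anti h hxy
  sup X Y x y h1 h2 := by
    induction x using QuotientGroup.induction_on with | _ x
    induction y using QuotientGroup.induction_on with | _ y
    rw [rl_mk] at h1 h2 ⊢
    exact CN_inf_le F N X Y ⟨h1, h2⟩
  dich H _ := by
    by_cases h : CN F N H ≤ CN F N ⊤
    · exact Or.inl (rl_trivial_iff.2 h)
    · right
      obtain ⟨c, hc, hc'⟩ := SetLike.not_le_iff_exists.1 h
      intro x
      induction x using QuotientGroup.induction_on with | _ x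
      refine ⟨QuotientGroup.mk (x * ⟨c, (mem_CN.1 hc).1⟩), fun e => hc' ?_, ?_⟩
      · rw [eq_comm, QuotientGroup.eq, mem_subgroupOf] at e
        simpa using e
      · rw [rl_mk]
        simpa using hc
  W H H' hH hH' hne hact x y z h1 h2 := by
    induction x using QuotientGroup.induction_on with | _ x
    induction y using QuotientGroup.induction_on with | _ y
    induction z using QuotientGroup.induction_on with | _ z
    rw [rl_mk] at h1 h2
    obtain ⟨y', hy', x', hx', e⟩ := W_sub hAc hAp hpN hAN H H' hH hH' hne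
      (fun K hK hle n1 n2 => CN_map_le (rl_trivial_iff.1 (hact K hK hle n1 n2))) _ h1 _ h2
    refine ⟨QuotientGroup.mk (x * ⟨y', (mem_CN.1 hy').1⟩), ?_, ?_⟩
    · rw [rl_mk]
      have e1 : (x : G)⁻¹ * ((x * ⟨y', (mem_CN.1 hy').1⟩ : N) : G) = y' := by
        push_cast
        rw [inv_mul_cancel_left]
      rw [e1]
      exact hy'
    · rw [rl_mk]
      have e2 : ((x * ⟨y', (mem_CN.1 hy').1⟩ : N) : G)⁻¹ * z = x' := by
        push_cast
        rw [mul_inv_rev]
        have e3 : (x : G)⁻¹ * z = y' * x' := by rw [← e]; group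
        rw [mul_assoc, e3]; group
      rw [e2]
      exact hx'
  gen K hK := by
    obtain ⟨H, hH, hKH, hc⟩ := gen_of_faithful hAc hAp hpN hAN hfaith K hK
    refine ⟨H, hH, hKH, ?_⟩
    by_contra hcon
    push_neg at hcon
    exact hc (rl_trivial_iff.1 hcon)

lemma sys_r [Finite G] {p : ℕ} [hp : Fact p.Prime] {F N : Subgroup G}
    (hAc : ∀ x ∈ F, ∀ y ∈ F, x * y = y * x) (hAp : ∀ x ∈ F, x ^ p = 1)
    (hpN : ¬ p ∣ Nat.card N) (hAN : ∀ x ∈ F, ∀ q ∈ N, x * q * x⁻¹ ∈ N)
    (hfaith : ∀ x ∈ F, (∀ y ∈ N, x * y = y * x) → x = 1) :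
    (sys hAc hAp hpN hAN hfaith).r = rl F N := rfl

end

end Vale.Agent.P240.LT
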