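import Vale.Agent.P240.R2.H938.W11
import Vale.Agent.P240.R2.H923.TR5

/-!
`LocTopF` for `PSU_n(q)`, `p` odd, `p ∣ q + 1`, both parities of `q`.
-/

set_option autoImplicit false
set_option linter.all false

namespace Vale.Agent.P240.R2.H938

open Matrix Vale.Agent.P240.R2.H38 Vale.Agent.P240.K Vale.Agent.P240.R2.H487
open Vale.Agent.P240.R2.AS hiding SU
open scoped Classical

universe u v w

noncomputable section

section
variable {K : Type u} [Field K] [Fintype K] [StarRing K] {n q : ℕ}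

/-- `SHom` from the semilinearity of the automorphisms of `PSU_n(q)` -/
theorem sHom_of_TR {ζ : K} (h1 : ζ ≠ 1) (hz : ζ * star ζ = 1)
    (hTR : ∀ α : MulAut ↥(PSU K n), ∃ (s : SA K) (g : GU K n), ∀ y : ↥(PSU K n),
      ((α y : ↥(PSU K n)) : PGU K n) =
        (QuotientGroup.mk g : PGU K n) * act n s (y : PGU K n) * (QuotientGroup.mk g : PGU K n)⁻¹)
    {G : Type v} [Group G] (L : Subgroup G) (e : L ≃* PSU K n) (p : ℕ) :
    ∃ ε : H38.SU K n →* G, SHom p L ε := by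
  refine ⟨L.subtype.comp (e.symm.toMonoidHom.comp (toP K n)), ⟨?_, ?_, ?_⟩⟩
  · ext y
    constructor
    · rintro ⟨g, rfl⟩
      exact (e.symm (toP K n g)).2
    · intro hy
      obtain ⟨g, hg⟩ := toP_surj (e ⟨y, hy⟩)
      refine ⟨g, ?_⟩
      show ((e.symm (toP K n g) : L) : G) = y
      rw [hg, MulEquiv.symm_apply_apply]
  · intro g
    rw [← toP_ker h1 hz g]
    show ((e.symm (toP K n g) : L) : G) = 1 ↔ _
    rw [OneMemClass.coe_eq_one, EmbeddingLike.map_eq_one_iff]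
  · intro u x hx _ _
    obtain ⟨s, g, hg⟩ := hTR ((e.symm.trans (Subgroup.normalizerMonoidHom L ⟨x, hx⟩)).trans e)
    refine ⟨g, s.1, s.2, fun h h' hh' => ?_⟩
    have h1 := hg (toP K n h)
    have h2 : ((e (Subgroup.normalizerMonoidHom L ⟨x, hx⟩ (e.symm (toP K n h))) : PSU K n) :
        PGU K n) = ((toP K n h' : PSU K n) : PGU K n) := by
      refine h1.trans ?_
      have e1 : ∀ y : H38.SU K n, ((toP K n y : PSU K n) : PGU K n) = QuotientGroup.mk y.1 :=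
        fun y => rfl
      rw [e1, e1]
      have h5 : h'.1 = g * mapGU s h.1 * g⁻¹ := Subtype.ext hh'
      rw [h5]
      rfl
    have h3 := Subtype.ext h2
    have h4 : Subgroup.normalizerMonoidHom L ⟨x, hx⟩ (e.symm (toP K n h)) = e.symm (toP K n h') := by
      rw [← h3, MulEquiv.symm_apply_apply]
    exact congrArg Subtype.val h4

variable {p : ℕ} {G : Type v} [Group G] [Finite G] {L : Subgroup G}

/-- **`LocTopF` for `PSU_n(q)`**, `p` odd, `q` even, `n ≥ 5`, `(q + 1) / gcd (n, q + 1)` prime to `p`. -/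
theorem locTopF_PSU_DE [Fact p.Prime] (𝕜 : Type w) [Field 𝕜] (hn : 5 ≤ n) (hq : 4 ≤ q) (hq8 : q ≠ 8)
    (hqe : Even q) (hK : Nat.card K = q ^ 2) (hs : ∀ x : K, star x = x ^ q) (hp2 : p ≠ 2)
    (hpq : p ∣ q + 1) (hno : ¬ p * n.gcd (q + 1) ∣ q + 1)
    (e : Nonempty (L ≃* PSU K n)) : LocTopF 𝕜 p L := by
  have hp : p.Prime := Fact.out
  obtain ⟨e⟩ := e
  obtain ⟨m, rfl⟩ : ∃ m, n = m + 1 := ⟨n - 1, by omega⟩
  obtain ⟨ζ, h1, h3, h4⟩ := exists_zeta hK hs hp hpq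
  have h38 : ¬ (p = 3 ∧ q = 8) := fun h => hq8 h.2
  obtain ⟨ε, hε⟩ := sHom_of_TR h3 h4
    (H923.TR.stmtTReven K q hq hq8 hqe ⟨hK, hs⟩ (m + 1) (by omega)) L e p
  have hN := H613.EI.numD_of hn (by omega) hK hs hp (dvd_of_not hp hpq hno) hno h1 h3 h4
  exact locTopF_D 𝕜 hN (hI_odd (by omega) (by omega) hK hs hp hp2 hpq h38 ζ)
    (hII_odd (by omega) (by omega) hK hs hp hp2 hpq h38 ζ) (H38.t_pos (by omega) (by omega) hK hs)
    (H38.t_pos (by omega) (by omega) hK hs) hε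

end

section
variable {K : Type} [Field K] [Fintype K] [StarRing K] {n q : ℕ}
variable {p : ℕ} {G : Type v} [Group G] [Finite G] {L : Subgroup G}

/-- **`LocTopF` for `PSU_n(q)`**, `p` odd, `p ∣ q + 1`, `n ≥ 3`, `q > 3`, `(p, q) ≠ (3, 8)`, without
the case `n = p = 3`, `9 ∤ q + 1`. -/
theorem locTopF_PSU_all [Fact p.Prime] (𝕜 : Type w) [Field 𝕜] (hn : 3 ≤ n) (hq : 3 < q)
    (hK : Nat.card K = q ^ 2) (hs : ∀ x : K, star x = x ^ q) (hp2 : p ≠ 2)
    (hpq : p ∣ q + 1) (h38 : ¬ (p = 3 ∧ q = 8)) (h33 : ¬ (n = 3 ∧ p = 3 ∧ ¬ 9 ∣ q + 1))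
    (e : Nonempty (L ≃* PSU K n)) : LocTopF 𝕜 p L := by
  rcases Nat.even_or_odd q with hqe | hqo
  · have hp : p.Prime := Fact.out
    by_cases hno : p * n.gcd (q + 1) ∣ q + 1
    · exact H38.locTopF_PSU 𝕜 hn (by omega) hK hs hno h38 (fun h => absurd h hp2) e
    · have hpn := dvd_of_not hp hpq hno
      have hn5 : 5 ≤ n := by
        by_contra hlt
        have hp3 : 3 ≤ p := by
          have := hp.two_le
          omega
        have hn34 : n = 3 ∨ n = 4 := by omega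
        rcases hn34 with rfl | rfl
        · have hp33 : p = 3 := le_antisymm (Nat.le_of_dvd (by norm_num) hpn) hp3
          subst hp33
          refine h33 ⟨rfl, rfl, fun h9 => hno ?_⟩
          rw [Nat.gcd_eq_left hpq]
          exact h9
        · have h6 : p = 3 ∨ p = 4 := by
            have := Nat.le_of_dvd (by norm_num) hpn
            omega
          rcases h6 with rfl | rfl
          · exact absurd hpn (by decide)
          · exact absurd hp (by decide)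
      have hq8 : q ≠ 8 := by
        rintro rfl
        have h9 : p ∣ 3 ^ 2 := hpq
        exact h38 ⟨(Nat.prime_dvd_prime_iff_eq hp Nat.prime_three).1 (hp.dvd_of_dvd_pow h9), rfl⟩
      exact locTopF_PSU_DE 𝕜 hn5 (by omega) hq8 hqe hK hs hp2 hpq hno e
  · exact locTopF_PSU_odd 𝕜 hn hq hqo hK hs hp2 hpq h33 e

end

/-- `L` is isomorphic to `PSU_n(q)`, where `n ≥ 3`, `q > 3`, `p` is odd, `p ∣ q + 1`, `(p, q) ≠ (3, 8)`,
and not `n = p = 3`, `9 ∤ q + 1`. -/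
def PSUFacA (p : ℕ) (L : Type u) [Group L] : Prop :=
  ∃ (n q : ℕ) (K : Type) (_ : Field K) (_ : Fintype K) (_ : StarRing K), Nat.card K = q ^ 2 ∧
    (∀ x : K, star x = x ^ q) ∧ 3 ≤ n ∧ 3 < q ∧ p ≠ 2 ∧ p ∣ q + 1 ∧ ¬ (p = 3 ∧ q = 8) ∧
    ¬ (n = 3 ∧ p = 3 ∧ ¬ 9 ∣ q + 1) ∧ Nonempty (L ≃* ↥(PSU K n))

theorem PSUFacA.topFac (𝕜 : Type v) [Field 𝕜] {p : ℕ} [Fact p.Prime] {L : Type u} [Group L]
    (h : PSUFacA p L) : TopFac 𝕜 p L := by
  obtain ⟨n, q, K, hF1, hF2, hF3, hK, hs, hn, hq, hp2, hpq, h38, h33, ⟨e⟩⟩ := h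
  intro G _ _ M ⟨f⟩
  exact locTopF_PSU_all 𝕜 hn hq hK hs hp2 hpq h38 h33 ⟨f.symm.trans e⟩

end

end Vale.Agent.P240.R2.H938
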