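import Mathlib.GroupTheory.OrderOfElement
import Vale.Agent.P240.K.FamDefs

/-!
Groups with an element of prime order that is fixed by no automorphism of order `p` (definition).
-/

set_option autoImplicit false

namespace Vale.Agent.P240.R2.H938

open Vale.Agent.P240.K

/-- `L` has an element `s` of prime order `r` that is fixed by no automorphism of order `p`, and `r`
does not divide `p ^ k - 1` for the orders `p ^ k` of the nontrivial elementary abelian `p`-subgroups
of `L`. -/
def OrdFree (p : ℕ) (L : Type*) [Group L] : Prop :=
  ∃ s : L, (orderOf s).Prime ∧ (∀ f : MulAut L, f ^ p = 1 → f s = s → f = 1) ∧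
    ∀ E : Subgroup L, ElemAb p E → ¬ orderOf s ∣ Nat.card E - 1

end Vale.Agent.P240.R2.H938
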