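import Vale.Agent.P240.H195.CF
import Vale.Agent.P240.H195.Eu3
import Vale.Agent.P240.R2.H938.ArDefs

/-!
An element `s` of prime order `r` that is fixed by no automorphism of order `p` normalizes no
nontrivial elementary abelian `p`-group of automorphisms, if `r` does not divide `p ^ k - 1` for the
orders `p ^ k` of the elementary abelian `p`-subgroups.
-/

set_option autoImplicit false

namespace Vale.Agent.P240.R2.H938

open Subgroup Vale.Agent.P240.K Vale.Agent.P240.H195

section
variable {L : Type*} [Group L]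

lemma ar_mod {s : L} (hr : (orderOf s).Prime) {E : Subgroup L} [Finite E]
    (hn : s ∈ normalizer (E : Set L)) (hc : ∀ x ∈ E, s * x * s⁻¹ = x → x = 1) :
    orderOf s ∣ Nat.card E - 1 := by
  have hle : zpowers s ≤ normalizer (E : Set L) := zpowers_le.2 hn
  let _ : MulAction (zpowers s) E :=
    { smul := fun g x => ⟨(g : L) * x * (g : L)⁻¹, (mem_normalizer_iff.1 (hle g.2) x).1 x.2⟩
      one_smul := fun x => Subtype.ext (by
        change ((1 : zpowers s) : L) * (x : L) * ((1 : zpowers s) : L)⁻¹ = x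
        simp)
      mul_smul := fun g h x => Subtype.ext (by
        change ((g * h : zpowers s) : L) * (x : L) * ((g * h : zpowers s) : L)⁻¹ =
          (g : L) * ((h : L) * x * (h : L)⁻¹) * (g : L)⁻¹
        rw [Subgroup.coe_mul]
        group) }
  have : Fact (orderOf s).Prime := ⟨hr⟩
  have hP : IsPGroup (orderOf s) (zpowers s) := IsPGroup.of_card (n := 1) (by
    rw [Nat.card_zpowers, pow_one])
  have h1 := hP.card_modEq_card_fixedPoints E
  have h2 : MulAction.fixedPoints (zpowers s) E = {1} := by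
    ext x
    rw [Set.mem_singleton_iff, MulAction.mem_fixedPoints]
    constructor
    · intro h
      have h3 : s * (x : L) * s⁻¹ = x := congrArg Subtype.val (h ⟨s, mem_zpowers s⟩)
      exact Subtype.ext (hc x x.2 h3)
    · rintro rfl g
      refine Subtype.ext ?_
      change (g : L) * ((1 : E) : L) * (g : L)⁻¹ = ((1 : E) : L)
      simp
  rw [h2] at h1
  have h3 : Nat.card ({1} : Set E) = 1 := by simp
  rw [h3] at h1
  exact (Nat.modEq_iff_dvd' Nat.card_pos).1 h1.symm

lemma conj_eq {f : MulAut L} {s : L} : MulAut.conj (f s) = f * MulAut.conj s * f⁻¹ := by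
  ext y
  simp [MulAut.conj_apply]

lemma conj_inj (hZ : ∀ x : L, (∀ y, x * y = y * x) → x = 1) :
    Function.Injective (MulAut.conj : L →* MulAut L) := by
  rw [injective_iff_map_eq_one]
  intro x hx
  refine hZ x fun y => ?_
  have h1 := congrArg (fun f : MulAut L => f y) hx
  change x * y * x⁻¹ = y at h1
  rwa [mul_inv_eq_iff_eq_mul] at h1

/-- no nontrivial elementary abelian `p`-group of automorphisms is normalized by `s` -/
theorem OrdFree.cyc [Finite L] {p : ℕ} (hZ : ∀ x : L, (∀ y, x * y = y * x) → x = 1)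
    (h : OrdFree p L) : ∃ s : L, (orderOf s).Prime ∧ ∀ E : Subgroup (MulAut L), ElemAb p E →
      MulAut.conj s ∈ normalizer (E : Set (MulAut L)) → False := by
  obtain ⟨s, hs, hf, hE⟩ := h
  refine ⟨s, hs, fun E h1 hn => ?_⟩
  have hinj := conj_inj hZ
  have : Finite (MulAut L) := inferInstance
  have hmem : ∀ f ∈ E, MulAut.conj s * f * (MulAut.conj s)⁻¹ ∈ E := fun f hf' =>
    (mem_normalizer_iff.1 hn f).1 hf'
  have hfix : ∀ f ∈ E, MulAut.conj s * f * (MulAut.conj s)⁻¹ = f → f = 1 := by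
    intro f hf' he
    refine hf f (h1.2.2 f hf') (hinj ?_)
    rw [conj_eq]
    have h2 : MulAut.conj s * f = f * MulAut.conj s := by rwa [mul_inv_eq_iff_eq_mul] at he
    rw [← h2, mul_assoc, mul_inv_cancel, mul_one]
  -- the commutator map is surjective
  let φ : E → E := fun f => ⟨MulAut.conj s * f * (MulAut.conj s)⁻¹ * (f : MulAut L)⁻¹,
    mul_mem (hmem f f.2) (inv_mem f.2)⟩
  have hφ : Function.Injective φ := by
    intro f g hfg
    have h2 : MulAut.conj s * (f : MulAut L) * (MulAut.conj s)⁻¹ * (f : MulAut L)⁻¹ =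
        MulAut.conj s * (g : MulAut L) * (MulAut.conj s)⁻¹ * (g : MulAut L)⁻¹ :=
      congrArg Subtype.val hfg
    have h3 : (MulAut.conj s * (g : MulAut L) * (MulAut.conj s)⁻¹)⁻¹ *
        (MulAut.conj s * (f : MulAut L) * (MulAut.conj s)⁻¹) =
        (g : MulAut L)⁻¹ * (f : MulAut L) := by
      have h4 : MulAut.conj s * (f : MulAut L) * (MulAut.conj s)⁻¹ =
          MulAut.conj s * (g : MulAut L) * (MulAut.conj s)⁻¹ * (g : MulAut L)⁻¹ *
            (f : MulAut L) := by
        rw [← h2, inv_mul_cancel_right]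
      rw [h4]
      group
    have h5 : MulAut.conj s * ((g : MulAut L)⁻¹ * (f : MulAut L)) * (MulAut.conj s)⁻¹ =
        (g : MulAut L)⁻¹ * (f : MulAut L) := by
      refine Eq.trans ?_ h3
      group
    have h6 := hfix _ (mul_mem (inv_mem g.2) f.2) h5
    exact Subtype.ext (inv_mul_eq_one.1 h6).symm
  have hsur := Finite.surjective_of_injective hφ
  have hrange : ∀ f ∈ E, ∃ x : L, MulAut.conj x = f := by
    intro f hf'
    obtain ⟨g, hg⟩ := hsur ⟨f, hf'⟩
    have h2 : MulAut.conj s * (g : MulAut L) * (MulAut.conj s)⁻¹ * (g : MulAut L)⁻¹ = f :=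
      congrArg Subtype.val hg
    refine ⟨s * ((g : MulAut L) s)⁻¹, ?_⟩
    rw [← h2, map_mul, map_inv, conj_eq]
    group
  -- the subgroup of `L`
  have hE0 : ElemAb p (E.comap (MulAut.conj (G := L))) := by
    refine ⟨?_, ?_, ?_⟩
    · intro hb
      apply h1.1
      rw [eq_bot_iff]
      intro f hf'
      obtain ⟨x, rfl⟩ := hrange f hf'
      have h2 : x ∈ E.comap (MulAut.conj (G := L)) := hf'
      rw [hb, mem_bot] at h2
      rw [h2, map_one]
      exact one_mem _
    · intro x hx y hy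
      apply hinj
      rw [map_mul, map_mul]
      exact h1.2.1 _ hx _ hy
    · intro x hx
      apply hinj
      rw [map_pow, map_one]
      exact h1.2.2 _ hx
  refine hE _ hE0 (ar_mod hs ?_ ?_)
  · rw [mem_normalizer_iff]
    intro y
    have h2 := mem_normalizer_iff.1 hn (MulAut.conj y)
    rw [← map_inv, ← map_mul, ← map_mul] at h2
    exact h2
  · intro x hx he
    apply hinj
    rw [map_one]
    refine hfix _ hx ?_
    rw [← map_inv, ← map_mul, ← map_mul, he]

theorem OrdFree.autFree [Finite L] {p : ℕ} (hZ : ∀ x : L, (∀ y, x * y = y * x) → x = 1)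
    (h : OrdFree p L) : ∃ r : ℕ, r.Prime ∧ AutFree p r L := by
  obtain ⟨s, hs, hE⟩ := h.cyc hZ
  refine ⟨orderOf s, hs, zpowers s, ?_, fun E h1 h2 => hE E h1 (h2 ⟨s, mem_zpowers s, rfl⟩)⟩
  refine IsPGroup.of_card (n := 1) ?_
  rw [Nat.card_zpowers, pow_one]

theorem OrdFree.euFree [Finite L] {p : ℕ} (hZ : ∀ x : L, (∀ y, x * y = y * x) → x = 1)
    (h : OrdFree p L) : EuFree p L := by
  obtain ⟨s, hs, hE⟩ := h.cyc hZ
  refine ⟨s, ?_, fun f hf hfi hfs => ?_⟩
  · have h0 : {E | E ∈ Ain p (⊤ : Subgroup L) ∧ s ∈ normalizer (E : Set L)} = ∅ := by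
      ext E
      simp only [Set.mem_ofPred_eq, Set.mem_empty_iff_false, iff_false]
      rintro ⟨⟨h1, -⟩, h3⟩
      refine hE (E.map MulAut.conj) ⟨?_, ?_, ?_⟩ ?_
      · intro hb
        apply h1.1
        rw [eq_bot_iff]
        intro x hx
        have h4 : MulAut.conj x ∈ E.map MulAut.conj := ⟨x, hx, rfl⟩
        rw [hb, mem_bot] at h4
        exact conj_inj hZ (h4.trans (map_one _).symm)
      · rintro _ ⟨x, hx, rfl⟩ _ ⟨y, hy, rfl⟩
        rw [← map_mul, ← map_mul, h1.2.1 x hx y hy]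
      · rintro _ ⟨x, hx, rfl⟩
        rw [← map_pow, h1.2.2 x hx, map_one]
      · have h6 : (normalizer (E : Set L)).map MulAut.conj ≤
            normalizer ((E.map MulAut.conj : Subgroup (MulAut L)) : Set (MulAut L)) :=
          le_normalizer_map _
        exact h6 ⟨s, h3, rfl⟩
    rw [eulerFix_eq, lam, h0, eu_empty]
    exact one_ne_zero
  · refine hE (zpowers f) ⟨?_, ?_, ?_⟩ ?_
    · rw [Ne, zpowers_eq_bot]
      rintro rfl
      exact hfi (one_mem _)
    · rintro _ ⟨i, rfl⟩ _ ⟨j, rfl⟩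
      exact (Commute.refl f).zpow_zpow i j
    · rintro _ ⟨i, rfl⟩
      change (f ^ i) ^ p = 1
      rw [← zpow_natCast, zpow_comm, zpow_natCast, hf, one_zpow]
    · have h7 : Commute (MulAut.conj s) f := by
        have h8 : MulAut.conj (f s) = f * MulAut.conj s * f⁻¹ := conj_eq
        rw [hfs] at h8
        exact eq_mul_inv_iff_mul_eq.1 h8
      refine mem_of_comm ?_
      rintro _ ⟨i, rfl⟩
      exact h7.zpow_right i

/-- **good for all fields and all primes `l`** -/
theorem OrdFree.good [Finite L] {𝕜 : Type*} [Field 𝕜] {p l : ℕ}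
    (hZ : ∀ x : L, (∀ y, x * y = y * x) → x = 1) (h : OrdFree p L) : GoodFactor 𝕜 p l L := by
  by_cases hd : p ∣ Nat.card L
  · exact Or.inr (Or.inr (Or.inl ⟨h.euFree hZ, hd⟩))
  · obtain ⟨r, hr, hA⟩ := h.autFree hZ
    exact Or.inr (Or.inr (Or.inr (Or.inl ⟨r, hr, hA, Or.inr (Or.inr (Or.inr hd))⟩)))

/-- for simple groups -/
theorem OrdFree.good' [Finite L] {𝕜 : Type*} [Field 𝕜] {p l : ℕ} (hs : IsSimpleGroup L)
    (hab : ∃ x y : L, x * y ≠ y * x) (h : OrdFree p L) : GoodFactor 𝕜 p l L := by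
  refine h.good fun x hx => ?_
  rcases hs.eq_bot_or_eq_top_of_normal (center L) inferInstance with h1 | h1
  · have h2 : x ∈ center L := mem_center_iff.2 fun y => (hx y).symm
    rwa [h1, mem_bot] at h2
  · exfalso
    obtain ⟨a, b, hab⟩ := hab
    have h2 : b ∈ center L := by rw [h1]; exact mem_top b
    exact hab (mem_center_iff.1 h2 a)

/-- it is enough that `r` does not divide `p ^ k - 1` for all `p ^ k` dividing the order -/
theorem OrdFree.of_card [Finite L] {p : ℕ} (hp : p.Prime) {s : L} (hs : (orderOf s).Prime)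
    (hf : ∀ f : MulAut L, f ^ p = 1 → f s = s → f = 1)
    (hk : ∀ k : ℕ, 0 < k → p ^ k ∣ Nat.card L → ¬ orderOf s ∣ p ^ k - 1) : OrdFree p L := by
  refine ⟨s, hs, hf, fun E hE hd => ?_⟩
  have : Fact p.Prime := ⟨hp⟩
  have hpg : IsPGroup p E := by
    intro x
    refine ⟨1, ?_⟩
    rw [pow_one]
    exact Subtype.ext (hE.2.2 x x.2)
  obtain ⟨k, hk'⟩ := IsPGroup.iff_card.1 hpg
  rw [hk'] at hd
  refine hk k ?_ ?_ hd
  · rcases Nat.eq_zero_or_pos k with rfl | h
    · exfalso
      rw [pow_zero] at hk'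
      exact hE.1 (Subgroup.eq_bot_of_card_eq E hk')
    · exact h
  · rw [← hk']
    exact Subgroup.card_subgroup_dvd_card E

end

end Vale.Agent.P240.R2.H938
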