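import Vale.Agent.P240.R2.H938.Ar

/-!
The same for elements of arbitrary order: an automorphism of a `p`-group.
-/

set_option autoImplicit false

namespace Vale.Agent.P240.R2.H938

open Subgroup Vale.Agent.P240.K Vale.Agent.P240.H195

/-- a nontrivial automorphism, of order dividing `m`, of a `p`-group `A` -/
theorem aut_dvd {A : Type*} [Group A] [Finite A] {p : ℕ} (hp : p.Prime) (hA : IsPGroup p A) {m : ℕ}
    (a : MulAut A) (hm : orderOf a ∣ m) (hpm : ¬ p ∣ m) (h1 : a ≠ 1) :
    ∃ j, 0 < j ∧ p ^ j ∣ Nat.card A ∧ ¬ m.Coprime (p ^ j - 1) := by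
  have hfp : Fact p.Prime := ⟨hp⟩
  have hfin : Finite (MulAut A) := inferInstance
  have hne : orderOf a ≠ 1 := fun h => h1 (orderOf_eq_one_iff.1 h)
  obtain ⟨ℓ, hℓ, hdvd⟩ := Nat.exists_prime_and_dvd hne
  have hfl : Fact ℓ.Prime := ⟨hℓ⟩
  have hlp : ℓ ≠ p := by
    rintro rfl
    exact hpm (hdvd.trans hm)
  set t : MulAut A := a ^ (orderOf a / ℓ) with ht
  have hot : orderOf t = ℓ := orderOf_pow_orderOf_div (orderOf_pos a).ne' hdvd
  have hP : IsPGroup ℓ (zpowers t) := IsPGroup.of_card (n := 1) (by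
    rw [Nat.card_zpowers, hot, pow_one])
  have h2 := hP.card_modEq_card_fixedPoints A
  -- the fixed points
  let F : Subgroup A := t.toMonoidHom.eqLocus (MonoidHom.id A)
  have hF : MulAction.fixedPoints (zpowers t) A = (F : Set A) := by
    ext x
    rw [MulAction.mem_fixedPoints]
    constructor
    · intro h
      exact h ⟨t, mem_zpowers t⟩
    · intro h g
      have h3 : t ∈ MulAction.stabilizer (MulAut A) x := h
      have h4 : zpowers t ≤ MulAction.stabilizer (MulAut A) x := zpowers_le.2 h3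
      exact h4 g.2
  rw [hF] at h2
  have hFt : F ≠ ⊤ := by
    intro h
    have h3 : t = 1 := by
      ext x
      have h4 : x ∈ F := by rw [h]; exact mem_top x
      exact h4
    rw [h3, orderOf_one] at hot
    exact hℓ.one_lt.ne hot
  obtain ⟨e, he⟩ := IsPGroup.iff_card.1 hA
  have hFp : IsPGroup p F := hA.to_subgroup F
  obtain ⟨i, hi⟩ := IsPGroup.iff_card.1 hFp
  have hlt : i < e := by
    by_contra hcon
    push Not at hcon
    apply hFt
    apply Subgroup.eq_top_of_le_card
    rw [he, hi]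
    exact Nat.pow_le_pow_right hp.pos hcon
  have h5 : Nat.card ((F : Set A) : Type _) = p ^ i := hi
  rw [h5, he] at h2
  have h6 : ℓ ∣ p ^ e - p ^ i :=
    (Nat.modEq_iff_dvd' (Nat.pow_le_pow_right hp.pos hlt.le)).1 h2.symm
  have h7 : p ^ e - p ^ i = p ^ i * (p ^ (e - i) - 1) := by
    rw [Nat.mul_sub, mul_one, ← pow_add, Nat.add_sub_cancel' hlt.le]
  rw [h7] at h6
  have h8 : ℓ ∣ p ^ (e - i) - 1 := by
    rcases (Nat.Prime.dvd_mul hℓ).1 h6 with h | h
    · exact absurd ((Nat.prime_dvd_prime_iff_eq hℓ hp).1 (hℓ.dvd_of_dvd_pow h)) hlp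
    · exact h
  refine ⟨e - i, Nat.sub_pos_of_lt hlt, ?_, fun hc => ?_⟩
  · rw [he]
    exact Nat.pow_dvd_pow p (Nat.sub_le e i)
  · exact Nat.not_coprime_of_dvd_of_dvd hℓ.one_lt (hdvd.trans hm) h8 hc

/-- `L` has an element `s` that is fixed by no automorphism of order `p`, and the order of `s` is
prime to `p ^ j - 1` if `0 < j` and `p ^ j` divides the order of an elementary abelian `p`-subgroup. -/
def OrdFreeC (p : ℕ) (L : Type*) [Group L] : Prop :=
  ∃ s : L, (∀ f : MulAut L, f ^ p = 1 → f s = s → f = 1) ∧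
    ∀ E : Subgroup L, ElemAb p E → ∀ j, 0 < j → p ^ j ∣ Nat.card E →
      (orderOf s).Coprime (p ^ j - 1)

section
variable {L : Type*} [Group L]

/-- no nontrivial elementary abelian `p`-group of automorphisms is normalized by `s` -/
theorem OrdFreeC.cyc [Finite L] {p : ℕ} (hp : p.Prime) (hZ : ∀ x : L, (∀ y, x * y = y * x) → x = 1)
    (h : OrdFreeC p L) : ∃ s : L, ∀ E : Subgroup (MulAut L), ElemAb p E →
      MulAut.conj s ∈ normalizer (E : Set (MulAut L)) → False := by
  obtain ⟨s, hf, hE⟩ := h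
  refine ⟨s, fun E h1 hn => ?_⟩
  have hinj := conj_inj hZ
  have : Finite (MulAut L) := inferInstance
  have hmem : ∀ f ∈ E, MulAut.conj s * f * (MulAut.conj s)⁻¹ ∈ E := fun f hf' =>
    (mem_normalizer_iff.1 hn f).1 hf'
  have hfix : ∀ f ∈ E, MulAut.conj s * f * (MulAut.conj s)⁻¹ = f → f = 1 := by
    intro f hf' he
    refine hf f (h1.2.2 f hf') (hinj ?_)
    rw [conj_eq]
    have h2 : MulAut.conj s * f = f * MulAut.conj s := by rwa [mul_inv_eq_iff_eq_mul] at he
    rw [← h2, mul_assoc, mul_inv_cancel, mul_one]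
  -- the commutator map is surjective
  let φ : E → E := fun f => ⟨MulAut.conj s * f * (MulAut.conj s)⁻¹ * (f : MulAut L)⁻¹,
    mul_mem (hmem f f.2) (inv_mem f.2)⟩
  have hφ : Function.Injective φ := by
    intro f g hfg
    have h2 : MulAut.conj s * (f : MulAut L) * (MulAut.conj s)⁻¹ * (f : MulAut L)⁻¹ =
        MulAut.conj s * (g : MulAut L) * (MulAut.conj s)⁻¹ * (g : MulAut L)⁻¹ :=
      congrArg Subtype.val hfg
    have h3 : (MulAut.conj s * (g : MulAut L) * (MulAut.conj s)⁻¹)⁻¹ *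
        (MulAut.conj s * (f : MulAut L) * (MulAut.conj s)⁻¹) =
        (g : MulAut L)⁻¹ * (f : MulAut L) := by
      have h4 : MulAut.conj s * (f : MulAut L) * (MulAut.conj s)⁻¹ =
          MulAut.conj s * (g : MulAut L) * (MulAut.conj s)⁻¹ * (g : MulAut L)⁻¹ *
            (f : MulAut L) := by
        rw [← h2, inv_mul_cancel_right]
      rw [h4]
      group
    have h5 : MulAut.conj s * ((g : MulAut L)⁻¹ * (f : MulAut L)) * (MulAut.conj s)⁻¹ =
        (g : MulAut L)⁻¹ * (f : MulAut L) := by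
      refine Eq.trans ?_ h3
      group
    have h6 := hfix _ (mul_mem (inv_mem g.2) f.2) h5
    exact Subtype.ext (inv_mul_eq_one.1 h6).symm
  have hsur := Finite.surjective_of_injective hφ
  have hrange : ∀ f ∈ E, ∃ x : L, MulAut.conj x = f := by
    intro f hf'
    obtain ⟨g, hg⟩ := hsur ⟨f, hf'⟩
    have h2 : MulAut.conj s * (g : MulAut L) * (MulAut.conj s)⁻¹ * (g : MulAut L)⁻¹ = f :=
      congrArg Subtype.val hg
    refine ⟨s * ((g : MulAut L) s)⁻¹, ?_⟩
    rw [← h2, map_mul, map_inv, conj_eq]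
    group
  -- the subgroup of `L`
  set E0 : Subgroup L := E.comap (MulAut.conj (G := L)) with hE0d
  have hE0 : ElemAb p E0 := by
    refine ⟨?_, ?_, ?_⟩
    · intro hb
      apply h1.1
      rw [eq_bot_iff]
      intro f hf'
      obtain ⟨x, rfl⟩ := hrange f hf'
      have h2 : x ∈ E0 := hf'
      rw [hb, mem_bot] at h2
      rw [h2, map_one]
      exact one_mem _
    · intro x hx y hy
      apply hinj
      rw [map_mul, map_mul]
      exact h1.2.1 _ hx _ hy
    · intro x hx
      apply hinj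
      rw [map_pow, map_one]
      exact h1.2.2 _ hx
  have hn0 : s ∈ normalizer (E0 : Set L) := by
    rw [mem_normalizer_iff]
    intro y
    have h2 := mem_normalizer_iff.1 hn (MulAut.conj y)
    rw [← map_inv, ← map_mul, ← map_mul] at h2
    exact h2
  have hfix0 : ∀ x ∈ E0, s * x * s⁻¹ = x → x = 1 := by
    intro x hx he
    apply hinj
    rw [map_one]
    refine hfix _ hx ?_
    rw [← map_inv, ← map_mul, ← map_mul, he]
  have hpg : IsPGroup p E0 := by
    intro x
    refine ⟨1, ?_⟩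
    rw [pow_one]
    exact Subtype.ext (hE0.2.2 x x.2)
  have hps : ¬ p ∣ orderOf s := by
    intro hd
    have h2 : orderOf (s ^ (orderOf s / p)) = p := orderOf_pow_orderOf_div (orderOf_pos s).ne' hd
    have h3 : MulAut.conj (s ^ (orderOf s / p)) = 1 := by
      refine hf _ ?_ ?_
      · rw [← map_pow, ← pow_mul, Nat.div_mul_cancel hd, pow_orderOf_eq_one, map_one]
      · rw [MulAut.conj_apply, ← (Commute.refl s).pow_right (orderOf s / p), mul_inv_cancel_right]
    rw [hinj (h3.trans (map_one _).symm), orderOf_one] at h2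
    exact hp.one_lt.ne h2
  let a : MulAut E0 := E0.normalizerMonoidHom ⟨s, hn0⟩
  have ha : ∀ x : E0, ((a x : E0) : L) = s * x * s⁻¹ := fun x => rfl
  have hao : orderOf a ∣ orderOf s := by
    have h2 : orderOf a ∣ orderOf (⟨s, hn0⟩ : normalizer (E0 : Set L)) := orderOf_map_dvd _ _
    rwa [Subgroup.orderOf_mk] at h2
  have ha1 : a ≠ 1 := by
    intro h
    apply hE0.1
    rw [eq_bot_iff]
    intro x hx
    rw [mem_bot]
    refine hfix0 x hx ?_
    have h2 := ha ⟨x, hx⟩
    rw [h] at h2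
    exact h2.symm
  obtain ⟨j, hj, hd, hc⟩ := aut_dvd hp hpg a hao hps ha1
  exact hc (hE E0 hE0 j hj hd)

theorem OrdFreeC.euFree [Finite L] {p : ℕ} (hp : p.Prime)
    (hZ : ∀ x : L, (∀ y, x * y = y * x) → x = 1) (h : OrdFreeC p L) : EuFree p L := by
  obtain ⟨s, hE⟩ := h.cyc hp hZ
  refine ⟨s, ?_, fun f hf hfi hfs => ?_⟩
  · have h0 : {E | E ∈ Ain p (⊤ : Subgroup L) ∧ s ∈ normalizer (E : Set L)} = ∅ := by
      ext E
      simp only [Set.mem_ofPred_eq, Set.mem_empty_iff_false, iff_false]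
      rintro ⟨⟨h1, -⟩, h3⟩
      refine hE (E.map MulAut.conj) ⟨?_, ?_, ?_⟩ ?_
      · intro hb
        apply h1.1
        rw [eq_bot_iff]
        intro x hx
        have h4 : MulAut.conj x ∈ E.map MulAut.conj := ⟨x, hx, rfl⟩
        rw [hb, mem_bot] at h4
        exact conj_inj hZ (h4.trans (map_one _).symm)
      · rintro _ ⟨x, hx, rfl⟩ _ ⟨y, hy, rfl⟩
        rw [← map_mul, ← map_mul, h1.2.1 x hx y hy]
      · rintro _ ⟨x, hx, rfl⟩
        rw [← map_pow, h1.2.2 x hx, map_one]
      · have h6 : (normalizer (E : Set L)).map MulAut.conj ≤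
            normalizer ((E.map MulAut.conj : Subgroup (MulAut L)) : Set (MulAut L)) :=
          le_normalizer_map _
        exact h6 ⟨s, h3, rfl⟩
    rw [eulerFix_eq, lam, h0, eu_empty]
    exact one_ne_zero
  · refine hE (zpowers f) ⟨?_, ?_, ?_⟩ ?_
    · rw [Ne, zpowers_eq_bot]
      rintro rfl
      exact hfi (one_mem _)
    · rintro _ ⟨i, rfl⟩ _ ⟨j, rfl⟩
      exact (Commute.refl f).zpow_zpow i j
    · rintro _ ⟨i, rfl⟩
      change (f ^ i) ^ p = 1
      rw [← zpow_natCast, zpow_comm, zpow_natCast, hf, one_zpow]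
    · have h7 : Commute (MulAut.conj s) f := by
        have h8 : MulAut.conj (f s) = f * MulAut.conj s * f⁻¹ := conj_eq
        rw [hfs] at h8
        exact eq_mul_inv_iff_mul_eq.1 h8
      refine mem_of_comm ?_
      rintro _ ⟨i, rfl⟩
      exact h7.zpow_right i

theorem OrdFreeC.good [Finite L] {𝕜 : Type*} [Field 𝕜] {p l : ℕ} (hp : p.Prime)
    (hs : IsSimpleGroup L) (hab : ∃ x y : L, x * y ≠ y * x) (hd : p ∣ Nat.card L)
    (h : OrdFreeC p L) : GoodFactor 𝕜 p l L := by
  refine Or.inr (Or.inr (Or.inl ⟨h.euFree hp fun x hx => ?_, hd⟩))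
  rcases hs.eq_bot_or_eq_top_of_normal (center L) inferInstance with h1 | h1
  · have h2 : x ∈ center L := mem_center_iff.2 fun y => (hx y).symm
    rwa [h1, mem_bot] at h2
  · exfalso
    obtain ⟨a, b, hab⟩ := hab
    have h2 : b ∈ center L := by rw [h1]; exact mem_top b
    exact hab (mem_center_iff.1 h2 a)

/-- the condition with `s` of prime order is a special case -/
theorem OrdFree.toC [Finite L] {p : ℕ} (hp : p.Prime)
    (hs : ∃ s : L, (orderOf s).Prime ∧ (∀ f : MulAut L, f ^ p = 1 → f s = s → f = 1) ∧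
      ∀ k : ℕ, 0 < k → p ^ k ∣ Nat.card L → ¬ orderOf s ∣ p ^ k - 1) : OrdFreeC p L := by
  obtain ⟨s, h1, h2, h3⟩ := hs
  refine ⟨s, h2, fun E hE j hj hd => (Nat.Prime.coprime_iff_not_dvd h1).2 (h3 j hj ?_)⟩
  exact hd.trans (Subgroup.card_subgroup_dvd_card E)

end

end Vale.Agent.P240.R2.H938
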