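import Vale.Agent.P240.Bdl.B1

/-!
Joins of vertices in a lattice: the chains `AL S`, their boundaries, the recursion for the smallest
elements of the chains, and the coefficients at the comb chains.
-/

set_option linter.all false

namespace Vale.Agent.P240.R2.H938

open Finsupp hiding cons
open Vale.Agent.P240.K

universe u v w

section hcb
variable {𝕜 : Type v} [Field 𝕜] {α β : Type*}

@[simp] lemma mp_ap (f : α → β) (y : α) (c : Ch 𝕜 α) : mp f (ap y c) = ap (f y) (mp f c) := by
  have := lin_ext_apply (f := (mp f).comp (ap y)) (g := (ap (f y)).comp (mp f))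
    (fun l => by simp) c
  simpa using this

lemma mp_sg (f : α → β) (c : Ch 𝕜 α) : mp f (sg c) = sg (mp f c) := by
  have := lin_ext_apply (f := (mp f).comp sg) (g := (sg).comp (mp (𝕜 := 𝕜) f))
    (fun l => by simp) c
  simpa using this

lemma mp_sn (f : α → β) (y : α) (c : Ch 𝕜 α) : mp f (sn y c) = sn (f y) (mp f c) := by
  simp only [sn, LinearMap.comp_apply, mp_ap, mp_sg]

lemma mp_h1 {f : α → β} {φ : α → α} {φ' : β → β} (h : ∀ x, f (φ x) = φ' (f x)) (c : Ch 𝕜 α) :
    mp f (h1 φ c) = h1 φ' (mp f c) := by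
  have := ch_ext_apply (F := (mp f).comp (h1 φ)) (G := (h1 φ').comp (mp (𝕜 := 𝕜) f))
    (by simp [h1_single, h1L])
    (fun y c hy => by
      simp only [LinearMap.comp_apply] at hy ⊢
      rw [h1_cons, map_sub]
      simp only [mp_cons, h1_cons, hy, h]) c
  simpa using this

lemma mp_hc {f : α → β} {φ : α → α} {φ' : β → β} (h : ∀ x, f (φ x) = φ' (f x)) (F : α)
    (c : Ch 𝕜 α) : mp f (hc φ F c) = hc φ' (f F) (mp f c) := by
  simp only [hc, LinearMap.add_apply, LinearMap.comp_apply, map_add, mp_sn, mp_mp]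
  rw [mp_h1 h, show f ∘ φ = φ' ∘ f from funext h]

lemma h1_ap (φ : α → α) (y : α) (c : Ch 𝕜 α) : h1 φ (ap y c) = ap y (hc φ (φ y) c) := by
  have := ch_ext_apply (F := (h1 φ).comp (ap y)) (G := (ap y).comp (hc (𝕜 := 𝕜) φ (φ y)))
    (by simp [h1_single, h1L, hc])
    (fun x c hx => by
      simp only [LinearMap.comp_apply] at hx ⊢
      rw [ap_cons, h1_cons, hx]
      simp only [hc, LinearMap.add_apply, LinearMap.comp_apply, h1_cons, mp_cons, sn_cons,
        map_add, map_sub, map_neg, ap_cons]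
      abel) c
  simpa using this

lemma hc_ap (φ : α → α) (F y : α) (c : Ch 𝕜 α) :
    hc φ F (ap y c) = ap y (hc φ (φ y) c) + sn F (mp φ (ap y c)) := by
  rw [← h1_ap]
  rfl

lemma sn_of_length {n : ℕ} {c : Ch 𝕜 α} (y : α) (h : c ∈ Sp 𝕜 (fun l : List α => l.length = n)) :
    sn y c = (-1 : 𝕜) ^ n • ap y c := by
  have := eq_of_Sp (F := sn y) (G := ((-1 : 𝕜) ^ n) • ap (𝕜 := 𝕜) y) (fun l (hl : l.length = n) => by
    rw [sn_single, LinearMap.smul_apply, ap_single, hl]) h
  simpa using this

lemma ap_apply (y b : α) (c : Ch 𝕜 α) (l : List α) [Decidable (y = b)] :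
    (ap y c) (l ++ [b]) = if y = b then c l else 0 := by
  by_cases h : y = b
  · subst h
    rw [if_pos rfl, ap, Finsupp.lmapDomain_apply]
    exact Finsupp.mapDomain_apply (f := fun l : List α => l ++ [y])
      (fun a b hab => List.append_cancel_right hab) c l
  · rw [if_neg h, ap, Finsupp.lmapDomain_apply]
    refine Finsupp.mapDomain_notin_range c _ ?_
    rintro ⟨a, ha⟩
    have h1 := congrArg List.getLast? ha
    simp only [List.getLast?_append, List.getLast?_singleton, Option.some_or] at h1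
    exact h (Option.some.inj h1)

lemma cons_apply (y b : α) (c : Ch 𝕜 α) (l : List α) [Decidable (y = b)] :
    (cons y c) (b :: l) = if y = b then c l else 0 := by
  by_cases h : y = b
  · subst h
    rw [if_pos rfl, cons, Finsupp.lmapDomain_apply]
    exact Finsupp.mapDomain_apply (f := List.cons y)
      (fun a b hab => by simpa using hab) c l
  · rw [if_neg h, cons, Finsupp.lmapDomain_apply]
    refine Finsupp.mapDomain_notin_range c _ ?_
    rintro ⟨a, ha⟩
    exact h (List.cons.inj ha).1

end hcb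

section AL
variable {𝕜 : Type v} [Field 𝕜] {Λ : Type*} [SemilatticeSup Λ] [OrderBot Λ]

/-- the join of the vertices of a list -/
noncomputable def AL (𝕜 : Type v) [Field 𝕜] {Λ : Type*} [SemilatticeSup Λ] [OrderBot Λ] :
    List Λ → Ch 𝕜 Λ
  | [] => single [] 1
  | x :: S => hc (fun y => x ⊔ y) x (AL 𝕜 S)

/-- the linear extension of `AL` -/
noncomputable def ALm (𝕜 : Type v) [Field 𝕜] {Λ : Type*} [SemilatticeSup Λ] [OrderBot Λ] :
    Ch 𝕜 Λ →ₗ[𝕜] Ch 𝕜 Λ := Finsupp.linearCombination 𝕜 (AL 𝕜)

lemma ALm_single (S : List Λ) : ALm 𝕜 (single S 1) = AL 𝕜 S := by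
  simp [ALm, Finsupp.linearCombination_single]

lemma ALm_cons (x : Λ) (c : Ch 𝕜 Λ) :
    ALm 𝕜 (cons x c) = hc (fun y => x ⊔ y) x (ALm 𝕜 c) := by
  have := lin_ext_apply (f := (ALm 𝕜).comp (cons x))
    (g := (hc (𝕜 := 𝕜) (fun y => x ⊔ y) x).comp (ALm 𝕜))
    (fun l => by simp [ALm_single, AL]) c
  simpa using this

lemma bd_ALm (c : Ch 𝕜 Λ) : bd (ALm 𝕜 c) = ALm 𝕜 (bd c) := by
  have := ch_ext_apply (F := bd.comp (ALm 𝕜)) (G := (ALm 𝕜).comp (bd (𝕜 := 𝕜) (α := Λ)))
    (by simp [ALm_single, AL])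
    (fun x c hx => by
      simp only [LinearMap.comp_apply] at hx ⊢
      have h1 := bd_hc (𝕜 := 𝕜) (fun y => x ⊔ y) x (ALm 𝕜 c)
      rw [bd_cons, map_sub, ALm_cons, ALm_cons, ← hx]
      exact eq_sub_of_add_eq h1) c
  simpa using this

/-- **The boundary of a join of vertices.** -/
theorem bd_AL (S : List Λ) :
    bd (AL 𝕜 S) = ∑ i ∈ Finset.range S.length, (-1 : 𝕜) ^ i • AL 𝕜 (S.eraseIdx i) := by
  rw [← ALm_single, bd_ALm, bd_single, one_smul, map_sum]
  refine Finset.sum_congr rfl fun i _ => ?_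
  rw [map_smul, ALm_single]

lemma mp_AL (y : Λ) (S : List Λ) :
    mp (fun t => y ⊔ t) (AL 𝕜 S) = AL 𝕜 (S.map fun t => y ⊔ t) := by
  induction S with
  | nil => simp [AL]
  | cons x S ih =>
    rw [List.map_cons, AL, AL, ← ih]
    exact mp_hc (φ' := fun t => (y ⊔ x) ⊔ t) (fun t => by
      show y ⊔ (x ⊔ t) = (y ⊔ x) ⊔ (y ⊔ t)
      rw [← sup_assoc y x t]
      refine le_antisymm (sup_le le_sup_left (le_sup_of_le_right le_sup_right))
        (sup_le le_sup_left (sup_le (le_sup_of_le_left le_sup_left) le_sup_right))) x _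

lemma mp_AL' (y x : Λ) (S : List Λ) :
    mp (fun t => y ⊔ t) (AL 𝕜 (x :: S)) =
      hc (fun t => x ⊔ t) (x ⊔ y) (mp (fun t => y ⊔ t) (AL 𝕜 S)) := by
  rw [AL, sup_comm x y]
  exact mp_hc (φ' := fun t => x ⊔ t) (fun t => by
    show y ⊔ (x ⊔ t) = x ⊔ (y ⊔ t)
    rw [sup_left_comm]) x _

lemma AL_length (S : List Λ) : AL 𝕜 S ∈ Sp 𝕜 (fun l : List Λ => l.length = S.length) := by
  induction S with
  | nil =>
    rw [AL]
    exact single_mem_Sp (𝕜 := 𝕜) (P := fun l : List Λ => l.length = ([] : List Λ).length) rfl 1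
  | cons x S ih =>
    rw [AL]
    have key : ∀ (φ : Λ → Λ) (l : List Λ), h1L (𝕜 := 𝕜) φ l ∈
        Sp 𝕜 (fun m : List Λ => m.length = l.length + 1) := by
      intro φ l
      induction l with
      | nil => exact Submodule.zero_mem _
      | cons y l ih =>
        rw [h1L]
        refine Submodule.sub_mem _ (single_mem_Sp (by simp) _) ?_
        exact cons_mem (P := fun m : List Λ => m.length = l.length + 1)
          (fun m hm => by rw [List.length_cons, List.length_cons, hm]) ih
    rw [hc, LinearMap.add_apply]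
    refine Submodule.add_mem _ ?_ ?_
    · refine map_mem (h1 (fun y => x ⊔ y)) (fun l hl => ?_) ih
      rw [h1_single]
      have h2 := key (fun y => x ⊔ y) l
      rwa [hl] at h2
    · rw [LinearMap.comp_apply]
      refine sn_mem (P := fun l : List Λ => l.length = S.length) (fun l hl => by
        rw [List.length_append, hl]; rfl) ?_
      exact mp_mem (P := fun l : List Λ => l.length = S.length)
        (fun l hl => by rw [List.length_map, hl]) ih

/-- **The recursion for the smallest elements of the chains.** -/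
theorem AL_bot (S : List Λ) (hS : S ≠ []) :
    AL 𝕜 S = ∑ j ∈ Finset.range S.length, (-1 : 𝕜) ^ (S.length - 1 - j) •
      ap (S.getD j ⊥) (mp (fun t => S.getD j ⊥ ⊔ t) (AL 𝕜 (S.eraseIdx j))) := by
  induction S with
  | nil => exact absurd rfl hS
  | cons x S ih =>
    by_cases hS' : S = []
    · subst hS'
      simp [AL, hc, h1_single, h1L]
    · rw [List.length_cons, Finset.sum_range_succ']
      have h0 : (-1 : 𝕜) ^ (S.length + 1 - 1 - 0) • ap ((x :: S).getD 0 ⊥)
          (mp (fun t => (x :: S).getD 0 ⊥ ⊔ t) (AL 𝕜 ((x :: S).eraseIdx 0))) =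
          sn x (mp (fun t => x ⊔ t) (AL 𝕜 S)) := by
        rw [sn_of_length (n := S.length) x (mp_mem (P := fun l : List Λ => l.length = S.length)
          (fun l hl => by rw [List.length_map, hl]) (AL_length S))]
        simp
      rw [h0]
      have h1 : ∀ j ∈ Finset.range S.length, (-1 : 𝕜) ^ (S.length + 1 - 1 - (j + 1)) •
          ap ((x :: S).getD (j + 1) ⊥) (mp (fun t => (x :: S).getD (j + 1) ⊥ ⊔ t)
            (AL 𝕜 ((x :: S).eraseIdx (j + 1)))) =
          (-1 : 𝕜) ^ (S.length - 1 - j) • ap (S.getD j ⊥) (hc (fun t => x ⊔ t) (x ⊔ S.getD j ⊥)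
            (mp (fun t => S.getD j ⊥ ⊔ t) (AL 𝕜 (S.eraseIdx j)))) := by
        intro j hj
        rw [List.getD_cons_succ, List.eraseIdx_cons_succ, ← mp_AL']
        congr 2
        have := Finset.mem_range.1 hj
        omega
      rw [Finset.sum_congr rfl h1]
      conv_lhs => rw [AL, ih hS']
      conv_rhs => rw [ih hS']
      simp only [map_sum, map_smul]
      rw [← Finset.sum_add_distrib]
      refine Finset.sum_congr rfl fun j _ => ?_
      rw [← smul_add, ← hc_ap]

/-- the chains have the join of all vertices as their largest element -/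
lemma AL_head (S : List Λ) (hS : S ≠ []) :
    AL 𝕜 S ∈ Sp 𝕜 (fun l : List Λ => l.head? = some (S.foldr (· ⊔ ·) ⊥)) := by
  induction S with
  | nil => exact absurd rfl hS
  | cons x S ih =>
    by_cases hS' : S = []
    · subst hS'
      simp only [AL, hc, LinearMap.add_apply, LinearMap.comp_apply, mp_single, sn_single,
        h1_single, h1L, List.foldr]
      simp only [List.map_nil, List.length_nil, pow_zero, List.nil_append, one_smul, zero_add]
      exact single_mem_Sp (by simp) _
    · have h1 := ih hS'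
      rw [AL, hc, LinearMap.add_apply]
      refine Submodule.add_mem _ (map_mem _ (fun l hl => ?_) h1) (map_mem _ (fun l hl => ?_) h1)
      · rw [h1_single]
        rcases l with _ | ⟨t, l⟩
        · simp at hl
        · have ht : t = S.foldr (· ⊔ ·) ⊥ := by simpa using hl
          rw [h1L]
          refine Submodule.sub_mem _ (single_mem_Sp (by simp [ht]) _) ?_
          exact cons_mem (P := fun _ => True) (fun m _ => by simp [ht]) (by
            rw [mem_Sp]
            exact fun _ _ => trivial)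
      · rw [LinearMap.comp_apply, mp_single, sn_single]
        rcases l with _ | ⟨t, l⟩
        · simp at hl
        · have ht : t = S.foldr (· ⊔ ·) ⊥ := by simpa using hl
          exact Submodule.smul_mem _ _ (single_mem_Sp (by simp [ht]) _)

open Classical in
/-- the coefficients, by the smallest element -/
theorem K_snoc (B : Λ) (S : List Λ) (hS : S ≠ []) (φ : List Λ) (b : Λ) :
    (mp (fun t => B ⊔ t) (AL 𝕜 S)) (φ ++ [b]) = ∑ j ∈ Finset.range S.length,
      (-1 : 𝕜) ^ (S.length - 1 - j) * (if B ⊔ S.getD j ⊥ = b then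
        (mp (fun t => b ⊔ t) (AL 𝕜 (S.eraseIdx j))) φ else 0) := by
  conv_lhs => rw [AL_bot S hS]
  rw [map_sum, Finsupp.finset_sum_apply]
  refine Finset.sum_congr rfl fun j _ => ?_
  rw [map_smul, Finsupp.smul_apply, smul_eq_mul, mp_ap, mp_mp, ap_apply]
  congr 1
  split_ifs with h
  · subst h
    congr 3
    funext t
    exact (sup_assoc _ _ _).symm
  · rfl

end AL

end Vale.Agent.P240.R2.H938
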