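import Vale.Agent.P240.R2.H938.Comb1

/-!
Words in letters, the join chains of their initial segments, and the coefficients at the comb
chains: they are given by the brackets.
-/

set_option linter.all false

namespace Vale.Agent.P240.R2.H938

open Finsupp hiding cons
open Vale.Agent.P240.K

universe u v w

section words
variable {X : Type*}

/-- the nonempty proper initial segments -/
def pfx : List X → List (List X)
  | [] => []
  | [_] => []
  | x :: y :: w => [x] :: (pfx (y :: w)).map (List.cons x)

lemma pfx_cons (x : X) {w : List X} (hw : w ≠ []) :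
    pfx (x :: w) = [x] :: (pfx w).map (List.cons x) := by
  obtain ⟨y, w, rfl⟩ := List.exists_cons_of_ne_nil hw
  rw [pfx]

lemma pfx_length : ∀ w : List X, (pfx w).length = w.length - 1
  | [] => rfl
  | [_] => rfl
  | x :: y :: w => by
    rw [pfx, List.length_cons, List.length_map, pfx_length (y :: w)]
    simp

lemma pfx_snoc (w : List X) (x : X) (hw : w ≠ []) : pfx (w ++ [x]) = pfx w ++ [w] := by
  induction w with
  | nil => exact absurd rfl hw
  | cons y w ih =>
    by_cases h : w = []
    · subst h
      rfl
    · rw [List.cons_append, pfx_cons _ (by simp), pfx_cons _ h, ih h]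
      simp

lemma mem_pfx {w u : List X} : u ∈ pfx w ↔ ∃ v, w = u ++ v ∧ u ≠ [] ∧ v ≠ [] := by
  induction w generalizing u with
  | nil =>
    refine ⟨fun h => by simp [pfx] at h, ?_⟩
    rintro ⟨v, h1, h2, -⟩
    exact absurd (List.append_eq_nil_iff.1 h1.symm).1 h2
  | cons y w ih =>
    by_cases h : w = []
    · subst h
      refine ⟨fun h => by simp [pfx] at h, ?_⟩
      rintro ⟨v, h1, h2, h3⟩
      obtain ⟨a, u, rfl⟩ := List.exists_cons_of_ne_nil h2
      rw [List.cons_append, List.cons.injEq] at h1
      exact absurd (List.append_eq_nil_iff.1 h1.2.symm).2 h3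
    · rw [pfx_cons _ h, List.mem_cons, List.mem_map]
      constructor
      · rintro (rfl | ⟨u', hu', rfl⟩)
        · exact ⟨w, rfl, by simp, h⟩
        · obtain ⟨v, h1, h2, h3⟩ := ih.1 hu'
          exact ⟨v, by rw [h1]; rfl, by simp, h3⟩
      · rintro ⟨v, h1, h2, h3⟩
        obtain ⟨a, u', rfl⟩ := List.exists_cons_of_ne_nil h2
        rw [List.cons_append, List.cons.injEq] at h1
        obtain ⟨rfl, h1⟩ := h1
        by_cases hu : u' = []
        · left
          rw [hu]
        · right
          exact ⟨u', ih.2 ⟨v, h1, hu, h3⟩, rfl⟩

/-- the words of the bracket `β(l₁, …, lₙ)`, with coefficients -/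
noncomputable def brF (𝕜 : Type v) [Field 𝕜] {X : Type*} : List X → Ch 𝕜 X
  | [] => 0
  | [l] => single [l] 1
  | l :: m :: L => cons l (brF 𝕜 (m :: L)) + (-1 : 𝕜) ^ (L.length + 2) • ap l (brF 𝕜 (m :: L))

lemma brF_cons {𝕜 : Type v} [Field 𝕜] (l : X) {L : List X} (hL : L ≠ []) :
    brF 𝕜 (l :: L) = cons l (brF 𝕜 L) + (-1 : 𝕜) ^ (L.length + 1) • ap l (brF 𝕜 L) := by
  obtain ⟨m, L, rfl⟩ := List.exists_cons_of_ne_nil hL
  rw [brF, List.length_cons]

lemma brF_perm {𝕜 : Type v} [Field 𝕜] (f : List X) : brF 𝕜 f ∈ Sp 𝕜 (fun w : List X => w.Perm f) := by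
  induction f with
  | nil => exact Submodule.zero_mem _
  | cons l L ih =>
    by_cases hL : L = []
    · subst hL
      exact single_mem_Sp (𝕜 := 𝕜) (P := fun w : List X => w.Perm [l]) (List.Perm.refl _) 1
    · rw [brF_cons l hL]
      refine Submodule.add_mem _ (cons_mem (P := fun w : List X => w.Perm L)
        (Q := fun w : List X => w.Perm (l :: L)) (fun w hw => List.Perm.cons l hw) ih)
        (Submodule.smul_mem _ _ (ap_mem (P := fun w : List X => w.Perm L)
          (Q := fun w : List X => w.Perm (l :: L)) (fun w hw => ?_) ih))
      exact (List.perm_append_singleton l w).trans (List.Perm.cons l hw)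

end words

section comb
variable {𝕜 : Type v} [Field 𝕜] {Λ : Type*} [SemilatticeSup Λ] [OrderBot Λ] {X : Type*}

/-- the values of `C` on the proper initial segments -/
def pre (C : List X → Λ) (m : List X) : List Λ := (pfx m).map C

lemma pre_length (C : List X → Λ) (m : List X) : (pre C m).length = m.length - 1 := by
  rw [pre, List.length_map, pfx_length]

/-- the comb chain -/
def comb (C : List X → Λ) : Λ → List X → List Λ
  | _, [] => []
  | _, [_] => []
  | B, l :: m :: L => comb C (B ⊔ C [l]) (m :: L) ++ [B ⊔ C [l]]

lemma comb_cons (C : List X → Λ) (B : Λ) (l : X) {L : List X} (hL : L ≠ []) :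
    comb C B (l :: L) = comb C (B ⊔ C [l]) L ++ [B ⊔ C [l]] := by
  obtain ⟨m, L, rfl⟩ := List.exists_cons_of_ne_nil hL
  rw [comb]

lemma comb_length (C : List X → Λ) (B : Λ) (f : List X) : (comb C B f).length = f.length - 1 := by
  induction f generalizing B with
  | nil => rfl
  | cons l L ih =>
    by_cases hL : L = []
    · subst hL
      rfl
    · rw [comb_cons C B l hL, List.length_append, ih]
      have : L.length ≠ 0 := fun h => hL (List.length_eq_zero_iff.1 h)
      simp
      omega

/-- the join of the values at the letters of a word, and of `B` -/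
def bs (C : List X → Λ) (B : Λ) (w : List X) : Λ := w.foldr (fun x b => C [x] ⊔ b) B

lemma bs_nil (C : List X → Λ) (B : Λ) : bs C B [] = B := rfl

lemma bs_mid (C : List X → Λ) (B : Λ) (A : List X) (x : X) (A' : List X) :
    bs C B (A ++ x :: A') = bs C B (A ++ A') ⊔ C [x] := by
  induction A with
  | nil =>
    show C [x] ⊔ bs C B A' = bs C B A' ⊔ C [x]
    rw [sup_comm]
  | cons a A ih =>
    show C [a] ⊔ bs C B (A ++ x :: A') = (C [a] ⊔ bs C B (A ++ A')) ⊔ C [x]
    rw [ih, sup_assoc]

/-- the separation property of the frames -/
def Sep (C : List X → Λ) (B : Λ) (F : Set (List X)) : Prop :=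
  ∀ (A u v A' : List X) (l : X) (g : List X), A ++ (u ++ v) ++ A' ∈ F → A ++ (l :: g) ++ A' ∈ F →
    u ≠ [] → v ≠ [] →
    (bs C B (A ++ A') ⊔ C (A ++ u) = bs C B (A ++ A') ⊔ C [l] ↔ u = [l] ∨ v = [l])

lemma Sep.uniq {C : List X → Λ} {B : Λ} {F : Set (List X)} (h : Sep C B F)
    (hnd : ∀ w ∈ F, w.Nodup) (hperm : ∀ w ∈ F, ∀ w', w.Perm w' → w' ∈ F) {l x y : X} {R : List X}
    (hx : l :: x :: R ∈ F) (hy : l :: y :: R ∈ F) : x = y := by
  have hy' : y :: l :: R ∈ F := hperm _ hy _ (List.Perm.swap _ _ _)
  have h1 := h [] [l] [x] R y [l] hx hy' (by simp) (by simp)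
  have h2 := h [] [l] [y] R y [l] hy hy' (by simp) (by simp)
  rcases h1.1 (h2.2 (Or.inr rfl)) with h3 | h3
  · exfalso
    have h4 : l = y := by simpa using h3
    have h5 := hnd _ hy
    rw [h4] at h5
    simp at h5
  · simpa using h3

/-- the sign of the coefficient at the comb chain -/
def csgn (𝕜 : Type v) [Field 𝕜] : ℕ → 𝕜
  | 0 => -1
  | n + 1 => (-1) ^ (n + 1) * csgn 𝕜 n

lemma csgn_ne (n : ℕ) : csgn 𝕜 n ≠ 0 := by
  induction n with
  | zero => simp [csgn]
  | succ n ih =>
    rw [csgn]
    exact mul_ne_zero (pow_ne_zero _ (by simp)) ih

lemma csgn_one : csgn 𝕜 1 = 1 := by simp [csgn]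

lemma getD_pre (C : List X → Λ) {m : List X} {j : ℕ} (hj : j < ((pfx m).map C).length) :
    ∃ u v, m = u ++ v ∧ u.length = j + 1 ∧ v ≠ [] ∧ ((pfx m).map C).getD j ⊥ = C u := by
  have hj' : j < (pfx m).length := by rwa [List.length_map] at hj
  have key : ∀ (m : List X) (j : ℕ) (hj : j < (pfx m).length), ((pfx m)[j]).length = j + 1 := by
    intro m
    induction m with
    | nil => intro j hj; simp [pfx] at hj
    | cons x w ih =>
      intro j hj
      by_cases h : w = []
      · subst h
        simp [pfx] at hj
      · simp only [pfx_cons x h] at hj ⊢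
        rcases j with _ | j
        · simp
        · simp only [List.getElem_cons_succ, List.getElem_map, List.length_cons]
          rw [ih j]
  obtain ⟨v, h1, h2, h3⟩ := mem_pfx.1 (List.getElem_mem hj')
  refine ⟨(pfx m)[j], v, h1, key m j hj', h3, ?_⟩
  rw [List.getD_eq_getElem?_getD, List.getElem?_eq_getElem hj]
  simp

/-- **The coefficient at the comb chain** of the join chain of a frame. -/
theorem comb_coeff (C : List X → Λ) (B : Λ) (F : Set (List X))
    (hlen : ∀ m ∈ F, ∀ m' ∈ F, m.length = m'.length) (hnd : ∀ w ∈ F, w.Nodup)
    (hperm : ∀ w ∈ F, ∀ w', w.Perm w' → w' ∈ F) (hsep : Sep C B F) (f : List X) :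
    ∀ (A A' m : List X), f ≠ [] → A ++ m ++ A' ∈ F → A ++ f ++ A' ∈ F → (f.length = 1 → m = f) →
    (mp (fun t => bs C B (A ++ A') ⊔ t) (AL 𝕜 ((pfx m).map fun u => C (A ++ u))))
      (comb C (bs C B (A ++ A')) f) = csgn 𝕜 f.length * (brF 𝕜 f) m := by
  classical
  induction f with
  | nil => intro A A' m h; exact absurd rfl h
  | cons l L ih =>
    intro A A' m _ hmF hfF h1m
    by_cases hL : L = []
    · subst hL
      have hm' : m = [l] := h1m rfl
      subst hm'
      simp [pfx, AL, comb, brF, csgn]
    · have hlL : l ∉ L := by
        have h1 := hnd _ hfF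
        rw [List.nodup_append, List.nodup_append, List.nodup_cons] at h1
        exact h1.1.2.1.1
      have hmnd : m.Nodup := by
        have h1 := hnd _ hmF
        rw [List.nodup_append, List.nodup_append] at h1
        exact h1.1.2.1
      have hmlen : m.length = L.length + 1 := by
        have h1 := hlen _ hmF _ hfF
        simp only [List.length_append, List.length_cons] at h1
        omega
      have hLlen : L.length ≠ 0 := fun h => hL (List.length_eq_zero_iff.1 h)
      set S : List Λ := (pfx m).map fun u => C (A ++ u) with hSdef
      have hpl : S.length = L.length := by rw [hSdef, List.length_map, pfx_length, hmlen]; rfl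
      have hpne : S ≠ [] := by
        intro h0
        rw [h0] at hpl
        exact hLlen hpl.symm
      rw [comb_cons C _ l hL, K_snoc _ _ hpne, hpl, brF_cons l hL]
      have hadd : ∀ w : List X, (cons l (brF 𝕜 L) + (-1 : 𝕜) ^ (L.length + 1) •
          ap l (brF 𝕜 L)) w = (cons l (brF 𝕜 L)) w + (-1 : 𝕜) ^ (L.length + 1) *
          (ap l (brF 𝕜 L)) w := fun w => by
        rw [Finsupp.add_apply, Finsupp.smul_apply, smul_eq_mul]
      rw [hadd]
      -- which initial segments contribute
      have hcase : ∀ j ∈ Finset.range L.length, bs C B (A ++ A') ⊔ S.getD j ⊥ =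
          bs C B (A ++ A') ⊔ C [l] → ∃ u v, m = u ++ v ∧ u.length = j + 1 ∧ (u = [l] ∨ v = [l]) := by
        intro j hj h
        obtain ⟨u, v, h1, h2, h3, h4⟩ := getD_pre (fun u => C (A ++ u)) (m := m) (j := j)
          (by rw [← hSdef, hpl]; exact Finset.mem_range.1 hj)
        rw [hSdef, h4] at h
        exact ⟨u, v, h1, h2, (hsep A u v A' l L (h1 ▸ hmF) hfF (by rintro rfl; simp at h2) h3).1 h⟩
      have hsq : ∀ a : 𝕜, (-1 : 𝕜) ^ (L.length + 1) * ((-1 : 𝕜) ^ (L.length + 1) * a) = a := by
        intro a
        rw [← mul_assoc, ← pow_add, ← two_mul, pow_mul]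
        simp
      rcases m with _ | ⟨x, m'⟩
      · simp at hmlen
      have hm'len : m'.length = L.length := by simpa using hmlen
      have hm'ne : m' ≠ [] := by
        intro h0
        rw [h0] at hm'len
        exact hLlen hm'len.symm
      by_cases hx : x = l
      · -- `l` is the first letter
        subst hx
        have hxm' : x ∉ m' := (List.nodup_cons.1 hmnd).1
        rw [cons_apply, if_pos rfl]
        have hap : (ap x (brF 𝕜 L)) (x :: m') = 0 := by
          by_contra hne
          have h1 := mem_Sp.1 (ap_mem (Q := fun w : List X => ∃ w', w = w' ++ [x] ∧ w'.Perm L)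
            (fun w hw => ⟨w, rfl, hw⟩) (brF_perm (𝕜 := 𝕜) L)) (x :: m')
            (Finsupp.mem_support_iff.2 hne)
          obtain ⟨w', h2, h3⟩ := h1
          obtain ⟨y, w'', rfl⟩ := List.exists_cons_of_ne_nil (l := w') (by
            rintro rfl
            exact hL (List.nil_perm.1 h3))
          rw [List.cons_append, List.cons.injEq] at h2
          apply hxm'
          rw [h2.2]
          simp
        rw [hap, mul_zero, add_zero]
        rw [Finset.sum_eq_single_of_mem 0 (Finset.mem_range.2 (Nat.pos_of_ne_zero hLlen))]
        · have hb : bs C B (A ++ A') ⊔ C [x] = bs C B ((A ++ [x]) ++ A') := by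
            rw [List.append_assoc, List.singleton_append, bs_mid]
          have hm1 : (A ++ [x]) ++ m' ++ A' ∈ F := by simpa using hmF
          have hf1 : (A ++ [x]) ++ L ++ A' ∈ F := by simpa using hfF
          have h1L : L.length = 1 → m' = L := by
            intro h1
            obtain ⟨y0, rfl⟩ := List.length_eq_one_iff.1 h1
            obtain ⟨x0, rfl⟩ := List.length_eq_one_iff.1 (hm'len.trans h1)
            rw [hsep.uniq hnd hperm (l := x) (x := x0) (y := y0) (R := A ++ A')]
            · refine hperm _ hm1 _ (List.perm_iff_count.2 fun a => ?_)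
              simp only [List.count_append, List.count_cons, List.count_nil]
              omega
            · refine hperm _ hf1 _ (List.perm_iff_count.2 fun a => ?_)
              simp only [List.count_append, List.count_cons, List.count_nil]
              omega
          rw [hSdef, pfx_cons x hm'ne, List.map_cons, List.getD_cons_zero,
            if_pos ((hsep A [x] m' A' x L (by simpa using hmF) hfF (by simp) hm'ne).2 (Or.inl rfl)),
            List.eraseIdx_cons_zero, Nat.sub_zero, hb, List.map_map]
          have h1 := ih (A ++ [x]) A' m' hL hm1 hf1 h1L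
          have h3 : (fun u => C (A ++ u)) ∘ List.cons x = fun u => C ((A ++ [x]) ++ u) := by
            funext u
            simp
          rw [h3, h1, List.length_cons, csgn]
          have h2 : (-1 : 𝕜) ^ (L.length - 1) = (-1 : 𝕜) ^ (L.length + 1) := by
            obtain ⟨k, hk⟩ := Nat.exists_eq_succ_of_ne_zero hLlen
            rw [hk, Nat.succ_sub_one, pow_succ, pow_succ]
            ring
          rw [h2]
          ring
        · intro j hj hj0
          rw [if_neg, mul_zero]
          intro h
          obtain ⟨u, v, h1, h2, h3⟩ := hcase j hj h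
          rcases h3 with rfl | rfl
          · simp at h2
            exact hj0 h2
          · obtain ⟨y, u', rfl⟩ := List.exists_cons_of_ne_nil (l := u) (by
              rintro rfl
              simp at h2)
            rw [List.cons_append, List.cons.injEq] at h1
            apply hxm'
            rw [h1.2]
            simp
      · have hcons : (cons l (brF 𝕜 L)) (x :: m') = 0 := by
          rw [cons_apply, if_neg (fun h => hx h.symm)]
        rw [hcons, zero_add]
        rcases List.eq_nil_or_concat' (x :: m') with h0 | ⟨w, y, hwy⟩
        · simp at h0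
        by_cases hy : y = l
        · -- `l` is the last letter
          subst hy
          have hw : w ≠ [] := by
            rintro rfl
            simp at hwy
            exact hx hwy.1
          have hwlen : w.length = L.length := by
            have h1 := congrArg List.length hwy
            rw [hmlen, List.length_append, List.length_singleton] at h1
            omega
          have hm1 : A ++ w ++ ([y] ++ A') ∈ F := by
            rw [hwy] at hmF
            simpa using hmF
          have hf1 : A ++ L ++ ([y] ++ A') ∈ F := by
            refine hperm _ hfF _ (List.perm_iff_count.2 fun a => ?_)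
            simp only [List.count_append, List.count_cons, List.count_nil]
            omega
          have h1L : L.length = 1 → w = L := by
            intro h1
            obtain ⟨y0, rfl⟩ := List.length_eq_one_iff.1 h1
            obtain ⟨x0, rfl⟩ := List.length_eq_one_iff.1 (hwlen.trans h1)
            rw [hsep.uniq hnd hperm (l := y) (x := x0) (y := y0) (R := A ++ A')]
            · refine hperm _ hm1 _ (List.perm_iff_count.2 fun a => ?_)
              simp only [List.count_append, List.count_cons, List.count_nil]
              omega
            · refine hperm _ hf1 _ (List.perm_iff_count.2 fun a => ?_)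
              simp only [List.count_append, List.count_cons, List.count_nil]
              omega
          rw [hwy, ap_apply, if_pos rfl]
          have hlast : L.length - 1 ∈ Finset.range L.length :=
            Finset.mem_range.2 (Nat.sub_lt (Nat.pos_of_ne_zero hLlen) one_pos)
          rw [Finset.sum_eq_single_of_mem (L.length - 1) hlast]
          · have hSw : S = (pfx w).map (fun u => C (A ++ u)) ++ [C (A ++ w)] := by
              rw [hSdef, hwy, pfx_snoc w y hw, List.map_append, List.map_cons, List.map_nil]
            have hpw : ((pfx w).map (fun u => C (A ++ u))).length = L.length - 1 := by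
              rw [List.length_map, pfx_length, hwlen]
            have h1 : S.getD (L.length - 1) ⊥ = C (A ++ w) := by
              rw [hSw, ← hpw]
              simp
            have h2 : S.eraseIdx (L.length - 1) = (pfx w).map (fun u => C (A ++ u)) := by
              rw [hSw, ← hpw, List.eraseIdx_append_of_length_le le_rfl]
              simp
            have hb : bs C B (A ++ A') ⊔ C [y] = bs C B (A ++ ([y] ++ A')) := by
              rw [List.singleton_append, bs_mid]
            rw [h1, h2, if_pos ((hsep A w [y] A' y L (hwy ▸ hmF) hfF hw (by simp)).2 (Or.inr rfl)),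
              hb, ih A ([y] ++ A') w hL hm1 hf1 h1L, List.length_cons, csgn, Nat.sub_self, pow_zero,
              one_mul]
            have := hsq (csgn 𝕜 L.length * (brF 𝕜 L) w)
            calc csgn 𝕜 L.length * (brF 𝕜 L) w = _ := this.symm
              _ = _ := by ring
          · intro j hj hj0
            rw [if_neg, mul_zero]
            intro h
            obtain ⟨u, v, h1, h2, h3⟩ := hcase j hj h
            rcases h3 with rfl | rfl
            · rw [List.singleton_append, List.cons.injEq] at h1
              exact hx h1.1
            · rw [h1] at hmlen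
              rw [List.length_append, List.length_singleton, h2] at hmlen
              apply hj0
              omega
        · -- `l` is in the middle
          have hap : (ap l (brF 𝕜 L)) (x :: m') = 0 := by
            rw [hwy, ap_apply, if_neg (fun h => hy h.symm)]
          rw [hap, mul_zero, mul_zero]
          refine Finset.sum_eq_zero fun j hj => ?_
          rw [if_neg, mul_zero]
          intro h
          obtain ⟨u, v, h1, h2, h3⟩ := hcase j hj h
          rcases h3 with rfl | rfl
          · rw [List.singleton_append, List.cons.injEq] at h1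
            exact hx h1.1
          · rw [hwy] at h1
            have h4 := List.append_inj_right' h1 rfl
            exact hy (by simpa using h4)

end comb

end Vale.Agent.P240.R2.H938
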