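import Vale.Agent.P240.R2.H938.Comb2
import Vale.Agent.P240.R2.AS.Defs

/-!
The chain `mu` of a solution `z`: its boundary is zero, and its coefficients at the comb chains are
the values of `z` on the brackets.
-/

set_option linter.all false

namespace Vale.Agent.P240.R2.H938

open Finsupp hiding cons
open Vale.Agent.P240.K

universe u v w

section words
variable {X : Type*}

/-- the nonempty initial segments -/
def npf : List X → List (List X)
  | [] => []
  | x :: w => [x] :: (npf w).map (List.cons x)

lemma npf_length (w : List X) : (npf w).length = w.length := by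
  induction w with
  | nil => rfl
  | cons x w ih => rw [npf, List.length_cons, List.length_map, ih, List.length_cons]

lemma pfx_append (u : List X) {w : List X} (hw : w ≠ []) :
    pfx (u ++ w) = npf u ++ (pfx w).map (fun t => u ++ t) := by
  induction u with
  | nil => simp [npf]
  | cons x u ih =>
    rw [List.cons_append, pfx_cons x (by simp [hw]), ih, npf, List.map_append, List.cons_append,
      List.map_map]
    rfl

lemma pfx_erase (u : List X) (a b : X) (v : List X) :
    (pfx (u ++ a :: b :: v)).eraseIdx u.length =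
      npf u ++ (pfx (b :: v)).map (fun t => u ++ a :: t) := by
  rw [pfx_append u (by simp), pfx, List.eraseIdx_append_of_length_le (npf_length u).le,
    npf_length, Nat.sub_self, List.map_cons, List.eraseIdx_cons_zero, List.map_map]
  rfl

lemma pre_erase {Λ : Type*} {C : List X → Λ} {F : Finset (List X)}
    (hC : ∀ (u : List X) (a b c d : X) (v w : List X), u ++ a :: b :: (v ++ w) ∈ F →
      u ++ c :: d :: (v ++ w) ∈ F → C (u ++ a :: b :: v) = C (u ++ c :: d :: v))
    {u v : List X} {a b a' b' : X}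
    (h : u ++ a :: b :: v ∈ F) (h' : u ++ a' :: b' :: v ∈ F) :
    (pre C (u ++ a :: b :: v)).eraseIdx u.length =
      (pre C (u ++ a' :: b' :: v)).eraseIdx u.length := by
  rw [pre, pre, List.eraseIdx_map, List.eraseIdx_map, pfx_erase, pfx_erase, List.map_append,
    List.map_append, List.map_map, List.map_map]
  congr 1
  by_cases hv : v = []
  · subst hv
    rfl
  · rw [pfx_cons b hv, pfx_cons b' hv, List.map_cons, List.map_cons, List.map_map, List.map_map]
    congr 1
    · exact hC u a b a' b' [] v h h'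
    · refine List.map_congr_left fun t ht => ?_
      obtain ⟨r, h1, h2, h3⟩ := mem_pfx.1 ht
      subst h1
      exact hC u a b a' b' t r h h'

end words

section mu
variable {𝕜 : Type v} [Field 𝕜] {Λ : Type*} [SemilatticeSup Λ] [OrderBot Λ] {X : Type*}

/-- the chain of a function on words -/
noncomputable def mu (C : List X → Λ) (F : Finset (List X)) (z : List X → 𝕜) : Ch 𝕜 Λ :=
  ∑ m ∈ F, z m • AL 𝕜 (pre C m)

lemma sum_fib {M Y V : Type*} [AddCommGroup V] [Module 𝕜 V] [DecidableEq Y] {F : Finset M}
    (lab : M → Y) (z : M → 𝕜) (g : M → V)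
    (hg : ∀ m ∈ F, ∀ m' ∈ F, lab m = lab m' → g m = g m')
    (hz : ∀ y, ∑ m ∈ F with lab m = y, z m = 0) : ∑ m ∈ F, z m • g m = 0 := by
  rw [← Finset.sum_fiberwise_of_maps_to (t := F.image lab) (g := lab)
    (fun m hm => Finset.mem_image_of_mem lab hm)]
  refine Finset.sum_eq_zero fun y hy => ?_
  obtain ⟨m₀, hm₀, rfl⟩ := Finset.mem_image.1 hy
  rw [Finset.sum_congr rfl (g := fun m => z m • g m₀) fun m hm => by
    obtain ⟨h1, h2⟩ := Finset.mem_filter.1 hm
    rw [hg m h1 m₀ hm₀ h2]]
  rw [← Finset.sum_smul, hz, zero_smul]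

/-- **The boundary.** -/
theorem bd_mu [Fintype X] {n : ℕ} (C : List X → Λ) (F : Finset (List X))
    (hlen : ∀ m ∈ F, m.length = n)
    (hC : ∀ (u : List X) (a b c d : X) (v w : List X), u ++ a :: b :: (v ++ w) ∈ F →
      u ++ c :: d :: (v ++ w) ∈ F → C (u ++ a :: b :: v) = C (u ++ c :: d :: v)) (z : List X → 𝕜)
    (hz0 : ∀ w, w ∉ F → z w = 0)
    (hz : ∀ u v : List X, ∑ x : X × X, z (u ++ x.1 :: x.2 :: v) = 0) : bd (mu C F z) = 0 := by
  classical
  have h1 : bd (mu C F z) = ∑ j ∈ Finset.range (n - 1), (-1 : 𝕜) ^ j •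
      ∑ m ∈ F, z m • AL 𝕜 ((pre C m).eraseIdx j) := by
    rw [mu, map_sum]
    simp_rw [Finset.smul_sum]
    rw [Finset.sum_comm]
    refine Finset.sum_congr rfl fun m hm => ?_
    rw [map_smul, bd_AL, pre_length, hlen m hm, Finset.smul_sum]
    exact Finset.sum_congr rfl fun j _ => smul_comm _ _ _
  rw [h1]
  refine Finset.sum_eq_zero fun j hj => ?_
  rw [Finset.mem_range] at hj
  have hdec : ∀ m ∈ F, ∃ a b, m = m.take j ++ a :: b :: m.drop (j + 2) ∧
      (m.take j).length = j := by
    intro m hm
    have h2 := hlen m hm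
    have h3 : j < m.length := by omega
    have h4 : j + 1 < m.length := by omega
    refine ⟨m[j], m[j + 1], ?_, by rw [List.length_take]; omega⟩
    rw [← List.drop_eq_getElem_cons h4, ← List.drop_eq_getElem_cons h3, List.take_append_drop]
  rw [sum_fib (fun m => (m.take j, m.drop (j + 2))) z _ (fun m hm m' hm' h => ?_) (fun y => ?_),
    smul_zero]
  · obtain ⟨a, b, h2, h3⟩ := hdec m hm
    obtain ⟨a', b', h4, h5⟩ := hdec m' hm'
    have h6 : m.take j = m'.take j := congrArg Prod.fst h
    have h7 : m.drop (j + 2) = m'.drop (j + 2) := congrArg Prod.snd h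
    rw [← h6, ← h7] at h4
    have h8 := pre_erase hC (h2 ▸ hm) (h4 ▸ hm')
    rw [h3] at h8
    rw [← h2, ← h4] at h8
    show AL 𝕜 ((pre C m).eraseIdx j) = AL 𝕜 ((pre C m').eraseIdx j)
    rw [h8]
  · obtain ⟨u, v⟩ := y
    by_cases hu : u.length = j
    · have h2 := hz u v
      rw [← h2]
      symm
      rw [← Finset.sum_subset (Finset.subset_univ
        (Finset.univ.filter fun ab : X × X => u ++ ab.1 :: ab.2 :: v ∈ F))]
      · refine Finset.sum_bij (fun ab _ => u ++ ab.1 :: ab.2 :: v) ?_ ?_ ?_ ?_
        · intro ab hab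
          have h3 := (Finset.mem_filter.1 hab).2
          refine Finset.mem_filter.2 ⟨h3, ?_⟩
          rw [Prod.mk.injEq]
          constructor
          · rw [← hu, List.take_left]
          · rw [← hu, show u ++ ab.1 :: ab.2 :: v = (u ++ [ab.1, ab.2]) ++ v by simp,
              show u.length + 2 = (u ++ [ab.1, ab.2]).length by simp, List.drop_left]
        · intro ab _ ab' _ h
          have h3 := List.append_cancel_left h
          rw [List.cons.injEq, List.cons.injEq] at h3
          exact Prod.ext h3.1 h3.2.1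
        · intro m hm
          obtain ⟨h3, h4⟩ := Finset.mem_filter.1 hm
          rw [Prod.mk.injEq] at h4
          obtain ⟨a, b, h5, -⟩ := hdec m h3
          rw [h4.1, h4.2] at h5
          exact ⟨(a, b), Finset.mem_filter.2 ⟨Finset.mem_univ _, h5 ▸ h3⟩, h5.symm⟩
        · intro ab _
          rfl
      · intro ab _ hab
        exact hz0 _ fun h => hab (Finset.mem_filter.2 ⟨Finset.mem_univ _, h⟩)
    · rw [Finset.sum_eq_zero]
      intro m hm
      exfalso
      obtain ⟨h3, h4⟩ := Finset.mem_filter.1 hm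
      rw [Prod.mk.injEq] at h4
      apply hu
      rw [← h4.1]
      obtain ⟨_, _, _, h5⟩ := hdec m h3
      exact h5

/-- **The coefficients at the comb chains.** -/
theorem mu_comb (C : List X → Λ) (F : Finset (List X)) (z : List X → 𝕜)
    (hz0 : ∀ w, w ∉ F → z w = 0) (B : Λ) {f : List X} (hf : 2 ≤ f.length) (hfF : f ∈ F)
    (hlen : ∀ m ∈ F, m.length = f.length) (hnd : ∀ w ∈ F, w.Nodup)
    (hperm : ∀ w ∈ F, ∀ w', w.Perm w' → w' ∈ F)
    (hsep : Sep C B (F : Set (List X))) :
    (mp (fun t => B ⊔ t) (mu C F z)) (comb C B f) =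
      csgn 𝕜 f.length * Finsupp.linearCombination 𝕜 z (brF 𝕜 f) := by
  classical
  have hfne : f ≠ [] := by
    rintro rfl
    simp at hf
  have h1 : ∀ m ∈ F, (mp (fun t => B ⊔ t) (AL 𝕜 (pre C m))) (comb C B f) =
      csgn 𝕜 f.length * (brF 𝕜 f) m := by
    intro m hm
    have h2 := comb_coeff (𝕜 := 𝕜) C B (F : Set (List X))
      (fun m hm m' hm' => (hlen m hm).trans (hlen m' hm').symm) hnd hperm hsep f [] [] m hfne
      (by simpa using hm) (by simpa using hfF) (fun h => by omega)
    exact h2
  rw [mu, map_sum, Finsupp.finset_sum_apply]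
  have h2 : ∀ m ∈ F, (mp (fun t => B ⊔ t) (z m • AL 𝕜 (pre C m))) (comb C B f) =
      csgn 𝕜 f.length * ((brF 𝕜 f) m * z m) := by
    intro m hm
    rw [map_smul, Finsupp.smul_apply, smul_eq_mul, h1 m hm]
    ring
  rw [Finset.sum_congr rfl h2, ← Finset.mul_sum]
  congr 1
  have h3 : ∑ m ∈ F, (brF 𝕜 f) m * z m = ∑ m ∈ F ∪ (brF 𝕜 f).support, (brF 𝕜 f) m * z m := by
    refine Finset.sum_subset Finset.subset_union_left fun m _ hm => ?_
    rw [hz0 m hm, mul_zero]
  have h4 : ∑ m ∈ (brF 𝕜 f).support, (brF 𝕜 f) m * z m =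
      ∑ m ∈ F ∪ (brF 𝕜 f).support, (brF 𝕜 f) m * z m := by
    refine Finset.sum_subset Finset.subset_union_right fun m _ hm => ?_
    rw [Finsupp.notMem_support_iff.1 hm, zero_mul]
  rw [h3, ← h4, Finsupp.linearCombination_apply, Finsupp.sum]
  rfl

end mu

section Br
variable {𝕜 : Type v} [Field 𝕜] {X : Type*}

/-- **The brackets are the forms `ev`.** -/
theorem brF_ev (z : List X → 𝕜) (g : List X) : ∀ u v : List X,
    Finsupp.linearCombination 𝕜 (fun w => z (u ++ w ++ v)) (brF 𝕜 g) = H986.ev z g u v := by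
  induction g with
  | nil => intro u v; rw [H986.ev_nil, brF, map_zero]
  | cons l L ih =>
    intro u v
    by_cases hL : L = []
    · subst hL
      rw [H986.ev_single, brF, Finsupp.linearCombination_single, one_smul]
      congr 1
      simp
    · rw [brF_cons l hL, map_add, map_smul, smul_eq_mul, H986.ev_cons z l hL u v, ← ih, ← ih]
      have h1 : ∀ c : Ch 𝕜 X, Finsupp.linearCombination 𝕜 (fun w => z (u ++ w ++ v)) (cons l c) =
          Finsupp.linearCombination 𝕜 (fun w => z (u ++ [l] ++ w ++ v)) c := by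
        intro c
        refine lin_ext_apply (f := (Finsupp.linearCombination 𝕜 (fun w => z (u ++ w ++ v))).comp
          (cons l)) (g := Finsupp.linearCombination 𝕜 (fun w => z (u ++ [l] ++ w ++ v)))
          (fun w => ?_) c
        simp
      have h2 : ∀ c : Ch 𝕜 X, Finsupp.linearCombination 𝕜 (fun w => z (u ++ w ++ v)) (ap l c) =
          Finsupp.linearCombination 𝕜 (fun w => z (u ++ w ++ l :: v)) c := by
        intro c
        refine lin_ext_apply (f := (Finsupp.linearCombination 𝕜 (fun w => z (u ++ w ++ v))).comp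
          (ap l)) (g := Finsupp.linearCombination 𝕜 (fun w => z (u ++ w ++ l :: v)))
          (fun w => ?_) c
        simp
      rw [h1, h2]

lemma brF_ev' (z : List X → 𝕜) (g : List X) :
    Finsupp.linearCombination 𝕜 z (brF 𝕜 g) = H986.ev z g [] [] := by
  rw [← brF_ev]
  congr 2
  funext w
  simp

end Br

end Vale.Agent.P240.R2.H938
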