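import Vale.Agent.P240.R2.H938.Comb3
import Vale.Agent.P240.R2.AS.Stmts
import Vale.Agent.P240.R2.H275.Bridge

/-!
The chain `mu` for subgroups generated by the elements `e u`: module M3.
-/

set_option linter.all false

namespace Vale.Agent.P240.R2.H938

open Finsupp hiding cons
open Subgroup Vale.Agent.P240 Vale.Agent.P240.K

universe u v w

section groups
variable {𝕜 : Type v} [Field 𝕜] {G : Type u} [Group G] {p : ℕ}

lemma card_sup_zpowers_le [Finite G] [hp : Fact p.Prime] {D B : Subgroup G}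
    (hD : ∀ x ∈ D, ∀ y ∈ D, x * y = y * x) (hB : B ≤ D) {x : G} (hx : x ∈ D) (hxp : x ^ p = 1) :
    Nat.card (B ⊔ zpowers x : Subgroup G) ≤ Nat.card B * p := by
  have hcomm : ∀ a ∈ B, ∀ b ∈ zpowers x, a * b = b * a := fun a ha b hb =>
    hD a (hB ha) b ((zpowers_le.2 hx) hb)
  have h1 : Nat.card (zpowers x) ≤ p := by
    rw [Nat.card_zpowers]
    exact Nat.le_of_dvd hp.out.pos (orderOf_dvd_of_pow_eq_one hxp)
  refine le_trans ?_ (Nat.mul_le_mul_left _ h1)
  rw [← Nat.card_prod]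
  refine Nat.card_le_card_of_surjective (fun z : B × zpowers x =>
    (⟨z.1 * z.2, mul_mem ((le_sup_left : B ≤ B ⊔ zpowers x) z.1.2)
      ((le_sup_right : zpowers x ≤ B ⊔ zpowers x) z.2.2)⟩ : (B ⊔ zpowers x : Subgroup G))) ?_
  rintro ⟨y, hy⟩
  obtain ⟨a, ha, b, hb, hab⟩ := K.mem_sup_comm hcomm hy
  exact ⟨(⟨a, ha⟩, ⟨b, hb⟩), Subtype.ext hab.symm⟩

lemma card_sup_list [Finite G] [hp : Fact p.Prime] {D : Subgroup G}
    (hD : ∀ x ∈ D, ∀ y ∈ D, x * y = y * x) (S : List (Subgroup G)) : ∀ (B : Subgroup G), B ≤ D →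
    (∀ s ∈ S, ∃ x ∈ D, x ^ p = 1 ∧ s = zpowers x) →
    Nat.card (B ⊔ S.foldr (· ⊔ ·) ⊥ : Subgroup G) ≤ Nat.card B * p ^ S.length := by
  induction S with
  | nil => intro B _ _; simp
  | cons s S ih =>
    intro B hB hS
    obtain ⟨x, hx, hxp, hs⟩ := hS s (by simp)
    have h1 := ih (B ⊔ s) (sup_le hB (by rw [hs]; exact zpowers_le.2 hx))
      (fun t ht => hS t (List.mem_cons_of_mem _ ht))
    have h2 := card_sup_zpowers_le (p := p) hD hB hx hxp
    rw [List.foldr_cons, ← sup_assoc, List.length_cons]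
    refine h1.trans ?_
    rw [hs]
    calc Nat.card (B ⊔ zpowers x : Subgroup G) * p ^ S.length ≤ (Nat.card B * p) * p ^ S.length :=
          Nat.mul_le_mul_right _ h2
      _ = Nat.card B * p ^ (S.length + 1) := by ring

lemma sup_erase {Λ : Type*} [SemilatticeSup Λ] [OrderBot Λ] (S : List Λ) : ∀ j, j < S.length →
    S.getD j ⊥ ⊔ (S.eraseIdx j).foldr (· ⊔ ·) ⊥ = S.foldr (· ⊔ ·) ⊥ := by
  induction S with
  | nil => intro j hj; simp at hj
  | cons s S ih =>
    intro j hj
    rcases j with _ | j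
    · simp
    · rw [List.getD_cons_succ, List.eraseIdx_cons_succ, List.foldr_cons, List.foldr_cons,
        ← ih j (by simpa using hj), sup_left_comm]

lemma getD_mem' {Λ : Type*} (S : List Λ) (d : Λ) {j : ℕ} (hj : j < S.length) : S.getD j d ∈ S := by
  rw [List.getD_eq_getElem?_getD, List.getElem?_eq_getElem hj]
  exact List.getElem_mem hj

/-- the chains of the join of independent cyclic groups are strictly decreasing -/
theorem AL_mem [Finite G] [hp : Fact p.Prime] {D : Subgroup G}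
    (hD : ∀ x ∈ D, ∀ y ∈ D, x * y = y * x) (n : ℕ) : ∀ (B : Subgroup G) (S : List (Subgroup G)),
    S.length = n → B ≤ D → (∀ s ∈ S, ∃ x ∈ D, x ^ p = 1 ∧ s = zpowers x) →
    Nat.card B * p ^ n ≤ Nat.card (B ⊔ S.foldr (· ⊔ ·) ⊥ : Subgroup G) →
    mp (fun t => B ⊔ t) (AL 𝕜 S) ∈ Sp 𝕜 (fun l : List (Subgroup G) =>
      l.length = n ∧ l.Pairwise (· > ·) ∧ ∀ t ∈ l, B < t ∧ t ≤ D) := by
  induction n with
  | zero =>
    intro B S hSn _ _ _
    have hS : S = [] := List.length_eq_zero_iff.1 hSn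
    subst hS
    rw [AL, mp_single]
    exact single_mem_Sp (𝕜 := 𝕜) (P := fun l : List (Subgroup G) =>
      l.length = 0 ∧ l.Pairwise (· > ·) ∧ ∀ t ∈ l, B < t ∧ t ≤ D) (by simp) 1
  | succ n ih =>
    intro B S hSn hB hS hcard
    have hSne : S ≠ [] := by
      rintro rfl
      simp at hSn
    rw [AL_bot S hSne, map_sum]
    refine Submodule.sum_mem _ fun j hj => ?_
    rw [Finset.mem_range] at hj
    rw [map_smul, mp_ap, mp_mp]
    refine Submodule.smul_mem _ _ ?_
    set s := S.getD j ⊥ with hs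
    obtain ⟨x, hx, hxp, hsx⟩ := hS s (getD_mem' S ⊥ hj)
    have hB' : B ⊔ s ≤ D := sup_le hB (by rw [hsx]; exact zpowers_le.2 hx)
    have hcB : Nat.card (B ⊔ s : Subgroup G) ≤ Nat.card B * p := by
      rw [hsx]
      exact card_sup_zpowers_le hD hB hx hxp
    have hlen : (S.eraseIdx j).length = n := by
      rw [List.length_eraseIdx_of_lt hj, hSn]
      rfl
    have hSe : ∀ t ∈ S.eraseIdx j, ∃ x ∈ D, x ^ p = 1 ∧ t = zpowers x := fun t ht =>
      hS t (List.mem_of_mem_eraseIdx ht)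
    have hsup : (B ⊔ s) ⊔ (S.eraseIdx j).foldr (· ⊔ ·) ⊥ = B ⊔ S.foldr (· ⊔ ·) ⊥ := by
      rw [sup_assoc, sup_erase S j hj]
    have h1 := ih (B ⊔ s) (S.eraseIdx j) hlen hB' hSe (by
      rw [hsup]
      refine le_trans ?_ hcard
      calc Nat.card (B ⊔ s : Subgroup G) * p ^ n ≤ (Nat.card B * p) * p ^ n :=
            Nat.mul_le_mul_right _ hcB
        _ = Nat.card B * p ^ (n + 1) := by ring)
    have h2 : (fun t : Subgroup G => B ⊔ t) ∘ (fun t => s ⊔ t) = fun t => (B ⊔ s) ⊔ t := by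
      funext t
      exact (sup_assoc _ _ _).symm
    rw [h2]
    have hlt : B < B ⊔ s := by
      refine lt_of_le_of_ne le_sup_left fun h0 => ?_
      have h3 := card_sup_list (p := p) hD (S.eraseIdx j) (B ⊔ s) hB' hSe
      rw [hsup, hlen, ← h0] at h3
      have h4 := hcard.trans h3
      rw [pow_succ, ← mul_assoc] at h4
      have h5 : 0 < Nat.card B * p ^ n := Nat.mul_pos Nat.card_pos (pow_pos hp.out.pos _)
      have h6 := hp.out.two_le
      nlinarith
    refine ap_mem (P := fun l : List (Subgroup G) =>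
      l.length = n ∧ l.Pairwise (· > ·) ∧ ∀ t ∈ l, B ⊔ s < t ∧ t ≤ D) (fun l hl => ?_) h1
    obtain ⟨h3, h4, h5⟩ := hl
    refine ⟨by rw [List.length_append, h3]; rfl, ?_, ?_⟩
    · rw [List.pairwise_append]
      refine ⟨h4, List.pairwise_singleton _ _, fun a ha b hb => ?_⟩
      rw [List.mem_singleton] at hb
      rw [hb]
      exact (h5 a ha).1
    · intro t ht
      rcases List.mem_append.1 ht with ht | ht
      · exact ⟨hlt.trans (h5 t ht).1, (h5 t ht).2⟩
      · rw [List.mem_singleton] at ht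
        rw [ht]
        exact ⟨hlt, hB'⟩

/-- the subgroup of the initial segments -/
def Dm {X : Type*} (e : List X → G) (m : List X) : Subgroup G :=
  closure {y | ∃ u v, m = u ++ v ∧ y = e u}

lemma Dm_comm {X : Type*} {e : List X → G} {m : List X}
    (hc : ∀ u v w : List X, m = u ++ (v ++ w) → e u * e (u ++ v) = e (u ++ v) * e u) :
    ∀ x ∈ Dm e m, ∀ y ∈ Dm e m, x * y = y * x := by
  have h1 : ∀ x ∈ {y | ∃ u v, m = u ++ v ∧ y = e u}, ∀ y ∈ {y | ∃ u v, m = u ++ v ∧ y = e u},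
      x * y = y * x := by
    rintro _ ⟨u, v, h1, rfl⟩ _ ⟨u', v', h2, rfl⟩
    rcases List.append_eq_append_iff.1 (h1.symm.trans h2) with ⟨a, h3, h4⟩ | ⟨a, h3, h4⟩
    · rw [h3]
      exact hc u a v' (by rw [h1, h4])
    · rw [h3]
      exact (hc u' a v (by rw [h2, h4])).symm
  have h2 : Dm e m ≤ centralizer {y | ∃ u v, m = u ++ v ∧ y = e u} := by
    rw [Dm, closure_le]
    intro x hx
    rw [SetLike.mem_coe, mem_centralizer_iff]
    exact fun y hy => h1 y hy x hx
  have h3 : Dm e m ≤ centralizer (Dm e m : Set G) := by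
    conv_lhs => rw [Dm]
    rw [closure_le]
    intro x hx
    rw [SetLike.mem_coe, mem_centralizer_iff]
    exact fun y hy => ((mem_centralizer_iff.1 (h2 hy)) x hx).symm
  intro x hx y hy
  exact (mem_centralizer_iff.1 (h3 hy)) x hx

lemma Dm_pow {X : Type*} {e : List X → G} {m : List X}
    (hc : ∀ x ∈ Dm e m, ∀ y ∈ Dm e m, x * y = y * x)
    (hp : ∀ u v : List X, m = u ++ v → e u ^ p = 1) : ∀ x ∈ Dm e m, x ^ p = 1 := by
  intro x hx
  induction hx using Subgroup.closure_induction with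
  | mem y hy =>
    obtain ⟨u, v, h1, rfl⟩ := hy
    exact hp u v h1
  | one => exact one_pow p
  | mul y z hy hz h1 h2 =>
    have h3 : Commute y z := hc y hy z hz
    rw [h3.mul_pow, h1, h2, one_mul]
  | inv y hy h1 => rw [inv_pow, h1, inv_one]

/-- **The chain `mu`** consists of strictly decreasing chains of elementary abelian groups. -/
theorem mu_mem [Finite G] [hp : Fact p.Prime] {X : Type*} {n : ℕ} (e : List X → G)
    (F : Finset (List X)) (z : List X → 𝕜) (H : Subgroup G)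
    (hH : ∀ u v : List X, u ++ v ∈ F → e u ∈ H)
    (hlen : ∀ m ∈ F, m.length = n)
    (hcom : ∀ u v w : List X, u ++ (v ++ w) ∈ F → e u * e (u ++ v) = e (u ++ v) * e u)
    (hpow : ∀ u v : List X, u ++ v ∈ F → e u ^ p = 1) (hnil : e [] = 1)
    (hfull : ∀ w ∈ F, e w = 1)
    (hcard : ∀ w ∈ F, Nat.card (closure {y | ∃ u v, w = u ++ v ∧ y = e u}) = p ^ (n - 1)) :
    mu (fun w => zpowers (e w)) F z ∈
      Sp 𝕜 (fun l : List (Subgroup G) => st (Ain p H) l ∧ l.length = n - 1) := by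
  rw [mu]
  refine Submodule.sum_mem _ fun m hm => Submodule.smul_mem _ _ ?_
  have hDc := Dm_comm (e := e) (m := m) (fun u v w h => hcom u v w (h ▸ hm))
  have hDp := Dm_pow (p := p) hDc (fun u v h => hpow u v (h ▸ hm))
  have hDH : Dm e m ≤ H := by
    rw [Dm, closure_le]
    rintro _ ⟨u, v, h1, rfl⟩
    exact hH u v (h1 ▸ hm)
  have hlenp : (pre (fun w => zpowers (e w)) m).length = n - 1 := by
    rw [pre_length, hlen m hm]
  have h1 := AL_mem (𝕜 := 𝕜) (p := p) hDc (n - 1) ⊥ (pre (fun w => zpowers (e w)) m) hlenp bot_le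
    (fun s hs => by
      obtain ⟨u, hu, rfl⟩ := List.mem_map.1 hs
      obtain ⟨v, h1, h2, h3⟩ := mem_pfx.1 hu
      exact ⟨e u, subset_closure ⟨u, v, h1, rfl⟩, hpow u v (h1 ▸ hm), rfl⟩) (by
      rw [Subgroup.card_bot, one_mul, bot_sup_eq, ← hcard m hm]
      refine Nat.card_mono (Set.toFinite _) ?_
      have h2 : closure {y | ∃ u v, m = u ++ v ∧ y = e u} ≤
          (pre (fun w => zpowers (e w)) m).foldr (· ⊔ ·) ⊥ := by
        rw [closure_le]
        rintro _ ⟨u, v, h1, rfl⟩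
        rw [SetLike.mem_coe]
        by_cases hu : u = []
        · rw [hu, hnil]
          exact one_mem _
        · by_cases hv : v = []
          · rw [hv, List.append_nil] at h1
            rw [← h1, hfull m hm]
            exact one_mem _
          · have h3 : zpowers (e u) ∈ pre (fun w => zpowers (e w)) m :=
              List.mem_map.2 ⟨u, mem_pfx.2 ⟨v, h1, hu, hv⟩, rfl⟩
            have h4 : ∀ (S : List (Subgroup G)), zpowers (e u) ∈ S →
                zpowers (e u) ≤ S.foldr (· ⊔ ·) ⊥ := by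
              intro S
              induction S with
              | nil => intro h; simp at h
              | cons s S ih =>
                intro h
                rcases List.mem_cons.1 h with h | h
                · rw [List.foldr_cons, ← h]
                  exact le_sup_left
                · exact (ih h).trans le_sup_right
            exact h4 _ h3 (mem_zpowers (e u))
      exact h2)
  have h2 : (fun t : Subgroup G => ⊥ ⊔ t) = id := funext fun t => bot_sup_eq t
  rw [h2] at h1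
  have h3 : mp (id : Subgroup G → Subgroup G) (AL 𝕜 (pre (fun w => zpowers (e w)) m)) =
      AL 𝕜 (pre (fun w => zpowers (e w)) m) := by
    have := lin_ext_apply (f := mp (𝕜 := 𝕜) (id : Subgroup G → Subgroup G)) (g := LinearMap.id)
      (fun l => by simp) (AL 𝕜 (pre (fun w => zpowers (e w)) m))
    simpa using this
  rw [h3] at h1
  refine Sp_mono (fun l hl => ⟨⟨hl.2.1, fun t ht => ?_⟩, hl.1⟩) h1
  obtain ⟨h4, h5⟩ := hl.2.2 t ht
  exact ⟨⟨(bot_lt_iff_ne_bot.1 h4), fun x hx y hy => hDc x (h5 hx) y (h5 hy),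
    fun x hx => hDp x (h5 hx)⟩, h5.trans hDH⟩

/-- the base can be enlarged -/
lemma mp_sup_ne {B M : Subgroup G} (hBM : B ⊓ M = ⊥) (hc : M ≤ centralizer (B : Set G))
    {c : Ch 𝕜 (Subgroup G)} (hcM : c ∈ Sp 𝕜 (fun l : List (Subgroup G) => ∀ t ∈ l, t ≤ M))
    (hne : c ≠ 0) : mp (fun t => B ⊔ t) c ≠ 0 := by
  intro h0
  apply hne
  refine mp_injOn (S := {t : Subgroup G | t ≤ M}) (f := fun t => B ⊔ t) ?_ hcM
    (Submodule.zero_mem _) (by rw [h0, map_zero])
  have key : ∀ t ≤ M, (B ⊔ t) ⊓ M ≤ t := by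
    intro t ht x hx
    obtain ⟨h1, h2⟩ := mem_inf.1 hx
    obtain ⟨a, ha, b, hb, rfl⟩ := K.mem_sup_comm (fun a ha b hb =>
      (mem_centralizer_iff.1 (hc (ht hb))) a ha) h1
    have h3 : a ∈ B ⊓ M := by
      refine mem_inf.2 ⟨ha, ?_⟩
      have h4 := mul_mem h2 (inv_mem (ht hb))
      rwa [mul_inv_cancel_right] at h4
    rw [hBM, mem_bot] at h3
    rw [h3, one_mul]
    exact hb
  have key2 : ∀ t ≤ M, (B ⊔ t) ⊓ M = t := fun t ht =>
    le_antisymm (key t ht) (le_inf le_sup_right ht)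
  intro s hs t ht hst
  have h1 : B ⊔ s = B ⊔ t := hst
  rw [← key2 s hs, ← key2 t ht, h1]

lemma bs_SS {X : Type*} (e : List X → G) (w : List X) :
    bs (fun w => zpowers (e w)) ⊥ w = AS.SS e w := by
  induction w with
  | nil =>
    rw [bs_nil, AS.SS]
    symm
    rw [closure_eq_bot_iff]
    rintro y ⟨x, hx, -⟩
    simp at hx
  | cons x w ih =>
    have h1 : bs (fun w => zpowers (e w)) ⊥ (x :: w) = zpowers (e [x]) ⊔ AS.SS e w := by
      rw [← ih]
      rfl
    rw [h1, AS.SS, AS.SS, zpowers_eq_closure, ← Subgroup.closure_union]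
    congr 1
    ext y
    simp only [Set.mem_union, Set.mem_singleton_iff, Set.mem_setOf_eq, List.mem_cons]
    constructor
    · rintro (h | ⟨x', h, h'⟩)
      · exact ⟨x, Or.inl rfl, h⟩
      · exact ⟨x', Or.inr h, h'⟩
    · rintro ⟨x', rfl | h, h'⟩
      · exact Or.inl h'
      · exact Or.inr ⟨x', h, h'⟩

end groups

section M3

variable {G : Type u} [Group G] {L : Type v} {p n : ℕ} {F : Finset (List L)} {e : List L → G}

/-- the separation property -/
lemma sep_of_comb (h : AS.Comb p n F e) :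
    Sep (fun w => zpowers (e w)) ⊥ (F : Set (List L)) := by
  intro A u v A' l g h1 h2 hu hv
  rw [bs_SS]
  exact h.sep A u v A' l g h1 h2 hu hv

variable {𝕜 : Type w} [Field 𝕜]

/-- the boundary -/
theorem comb_bd [Fintype L] (h : AS.Comb p n F e) (z : List L → 𝕜)
    (hz0 : ∀ w, w ∉ F → z w = 0)
    (hz : ∀ u v : List L, ∑ x : L × L, z (u ++ x.1 :: x.2 :: v) = 0) :
    bd (mu (fun w => zpowers (e w)) F z) = 0 := by
  refine bd_mu (n := n) _ F h.len (fun u a b c d v w h1 h2 => ?_) z hz0 hz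
  show zpowers (e (u ++ a :: b :: v)) = zpowers (e (u ++ c :: d :: v))
  rw [h.plane u a b c d v w h1 h2]

/-- the chain is not zero -/
theorem comb_ne (h : AS.Comb p n F e) (hn : 2 ≤ n) (z : List L → 𝕜)
    (hz0 : ∀ w, w ∉ F → z w = 0) {f : List L} (hf : f ∈ F) (hev : H986.ev z f [] [] ≠ 0) :
    mu (fun w => zpowers (e w)) F z ≠ 0 := by
  intro h0
  have h1 := mu_comb (fun w => zpowers (e w)) F z hz0 ⊥ (f := f) (by rw [h.len f hf]; exact hn) hf
    (fun m hm => (h.len m hm).trans (h.len f hf).symm) h.nodup h.perm (sep_of_comb h)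
  rw [h0, map_zero, brF_ev'] at h1
  exact mul_ne_zero (csgn_ne _) hev h1.symm

/-- the groups in the chains -/
theorem comb_mem [Finite G] [hp : Fact p.Prime] (h : AS.Comb p n F e) (z : List L → 𝕜)
    (H : Subgroup G) (hH : ∀ u v : List L, u ++ v ∈ F → e u ∈ H) :
    mu (fun w => zpowers (e w)) F z ∈
      Sp 𝕜 (fun l : List (Subgroup G) => st (Ain p H) l ∧ l.length = n - 1) :=
  mu_mem e F z H hH h.len h.comm h.pow h.nil h.full h.card

end M3

/-- **Module M3.** -/
theorem stmtM3 : AS.StmtM3.{u, v} := by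
  intro p n hp G _ _ L _ F e hn h z hz f hf hev
  have hz' : (∀ w, w ∉ F → z w = 0) ∧ ∀ u v : List L, ∑ x : L × L, z (u ++ x.1 :: x.2 :: v) = 0 :=
    hz
  rcases Nat.lt_or_ge n 2 with h1 | h2
  · have hn1 : n = 1 := by omega
    subst hn1
    refine ⟨single [] 1, ?_, ?_, ?_⟩
    · intro l hl
      rw [Finsupp.support_single_ne_zero _ one_ne_zero, Finset.mem_singleton] at hl
      subst hl
      exact ⟨rfl, List.Pairwise.nil⟩
    · simp
    · simp
  · have hmem := comb_mem (𝕜 := ℚ) h z ⊤ (fun _ _ _ => mem_top _)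
    have hTC : H275.TC ℚ (ApS p G) (n - 1) := by
      refine ⟨mu (fun w => zpowers (e w)) F z, Sp_mono (fun l hl => ⟨⟨hl.1.1, fun a ha =>
        (hl.1.2 a ha).1⟩, hl.2⟩) hmem, comb_bd h z hz'.1 hz'.2, comb_ne h h2 z hz'.1 hf hev⟩
    have h0 : (Subtype.val '' (Set.univ : Set (Ap p G))) = ApS p G := by
      ext E
      simp [ApS]
    rw [← h0, H275.TC_image (f := (Subtype.val : Ap p G → Subgroup G))
      Subtype.val_injective.injOn (fun x _ y _ => Iff.rfl)] at hTC
    exact H275.TC_official.2 hTC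

end Vale.Agent.P240.R2.H938
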