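import Vale.Agent.P240.R2.H938.Comb4
import Vale.Agent.P240.R2.H945.SemiE
import Vale.Agent.P240.R2.AS.Stmts3

/-!
The chain `mu` as a linear map; the largest groups of its chains; top cycles over any field.
-/

set_option linter.all false

namespace Vale.Agent.P240.R2.H938

open Finsupp hiding cons
open Subgroup Vale.Agent.P240 Vale.Agent.P240.K

universe u v w

section lin
variable {𝕜 : Type w} [Field 𝕜] {Λ : Type*} [SemilatticeSup Λ] [OrderBot Λ] {X : Type*}

/-- `mu` as a linear map -/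
noncomputable def muL (𝕜 : Type w) [Field 𝕜] {Λ : Type*} [SemilatticeSup Λ] [OrderBot Λ]
    {X : Type*} (C : List X → Λ) (F : Finset (List X)) : (List X → 𝕜) →ₗ[𝕜] Ch 𝕜 Λ where
  toFun z := mu C F z
  map_add' z z' := by
    simp only [mu, Pi.add_apply, add_smul, Finset.sum_add_distrib]
  map_smul' c z := by
    simp only [mu, Pi.smul_apply, smul_eq_mul, mul_smul, RingHom.id_apply, Finset.smul_sum]

@[simp] lemma muL_apply (C : List X → Λ) (F : Finset (List X)) (z : List X → 𝕜) :
    muL 𝕜 C F z = mu C F z := rfl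

lemma mu_of_sub (C : List X → Λ) {F F' : Finset (List X)} (hF : F' ⊆ F) {z : List X → 𝕜}
    (hz : ∀ w, w ∉ F' → z w = 0) : mu C F z = mu C F' z := by
  rw [mu, mu]
  symm
  refine Finset.sum_subset hF fun m _ hm => ?_
  rw [hz m hm, zero_smul]

end lin

section groups
variable {G : Type u} [Group G] {X : Type v} {p n : ℕ} {F : Finset (List X)} {e : List X → G}

lemma comb_mono (h : AS.Comb p n F e) {F' : Finset (List X)} (hF : F' ⊆ F)
    (hperm : ∀ w ∈ F', ∀ w', w.Perm w' → w' ∈ F') : AS.Comb p n F' e where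
  len w hw := h.len w (hF hw)
  nodup w hw := h.nodup w (hF hw)
  perm := hperm
  plane u a b c d v w h1 h2 := h.plane u a b c d v w (hF h1) (hF h2)
  comm u v w h1 := h.comm u v w (hF h1)
  pow u v h1 := h.pow u v (hF h1)
  nil := h.nil
  full w hw := h.full w (hF hw)
  card w hw := h.card w (hF hw)
  sep A u v B l g h1 h2 := h.sep A u v B l g (hF h1) (hF h2)

lemma foldr_pre (h : AS.Comb p n F e) {m : List X} (hm : m ∈ F) :
    (pre (fun w => zpowers (e w)) m).foldr (· ⊔ ·) ⊥ = Dm e m := by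
  have key : ∀ (S : List (Subgroup G)) (D : Subgroup G), (∀ s ∈ S, s ≤ D) →
      S.foldr (· ⊔ ·) ⊥ ≤ D := by
    intro S D
    induction S with
    | nil => intro _; exact bot_le
    | cons s S ih =>
      intro hS
      exact sup_le (hS s (by simp)) (ih fun t ht => hS t (List.mem_cons_of_mem _ ht))
  refine le_antisymm (key _ _ fun s hs => ?_) ?_
  · obtain ⟨u, hu, rfl⟩ := List.mem_map.1 hs
    obtain ⟨v, h1, h2, h3⟩ := mem_pfx.1 hu
    exact zpowers_le.2 (subset_closure ⟨u, v, h1, rfl⟩)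
  · rw [Dm, closure_le]
    rintro _ ⟨u, v, h1, rfl⟩
    rw [SetLike.mem_coe]
    by_cases hu : u = []
    · rw [hu, h.nil]
      exact one_mem _
    · by_cases hv : v = []
      · rw [hv, List.append_nil] at h1
        rw [← h1, h.full m hm]
        exact one_mem _
      · have h3 : zpowers (e u) ∈ pre (fun w => zpowers (e w)) m :=
          List.mem_map.2 ⟨u, mem_pfx.2 ⟨v, h1, hu, hv⟩, rfl⟩
        have h4 : ∀ (S : List (Subgroup G)), zpowers (e u) ∈ S →
            zpowers (e u) ≤ S.foldr (· ⊔ ·) ⊥ := by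
          intro S
          induction S with
          | nil => intro h; simp at h
          | cons s S ih =>
            intro h
            rcases List.mem_cons.1 h with h | h
            · rw [List.foldr_cons, ← h]
              exact le_sup_left
            · exact (ih h).trans le_sup_right
        exact h4 _ h3 (mem_zpowers (e u))

variable {𝕜 : Type w} [Field 𝕜]

/-- the largest groups in the chains of `mu` -/
theorem comb_head (h : AS.Comb p n F e) (hn : 2 ≤ n) (z : List X → 𝕜) :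
    mu (fun w => zpowers (e w)) F z ∈ Sp 𝕜 (fun l : List (Subgroup G) =>
      ∃ B ∈ {B : Subgroup G | ∃ w ∈ F, B = Dm e w}, l.head? = some B) := by
  rw [mu]
  refine Submodule.sum_mem _ fun m hm => Submodule.smul_mem _ _ ?_
  have hpne : pre (fun w => zpowers (e w)) m ≠ [] := by
    intro h0
    have h3 := pre_length (fun w => zpowers (e w)) m
    rw [h0, h.len m hm] at h3
    simp at h3
    omega
  refine Sp_mono (fun l hl => ⟨Dm e m, ⟨m, hm, rfl⟩, ?_⟩) (AL_head _ hpne)
  rw [hl, foldr_pre h hm]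

lemma exists_z [Fintype X] (hperm : ∀ w ∈ F, ∀ w', w.Perm w' → w' ∈ F) (h : 0 < AS.t F) :
    ∃ z ∈ AS.SOL F, ∃ f ∈ F, H986.ev z f [] [] ≠ 0 := by
  by_contra hcon
  push Not at hcon
  have : (AS.SOL F).map (AS.bm X) = ⊥ := by
    rw [eq_bot_iff]
    rintro _ ⟨z, hz, rfl⟩
    rw [Submodule.mem_bot]
    funext g
    show H986.ev z g [] [] = 0
    by_cases hg : g ∈ F
    · exact hcon z hz g hg
    · refine H986.ev_eq_zero g [] [] fun w hw => ?_
      refine hz.1 w fun hwF => hg (hperm w hwF g ?_)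
      simpa using hw
  rw [AS.t, this, finrank_bot] at h
  exact lt_irrefl _ h

/-- the cycle, with the largest groups of its chains -/
theorem comb_cycle [Fintype X] [Finite G] [hp : Fact p.Prime] (h : AS.Comb p n F e) (hn : 2 ≤ n)
    (H : Subgroup G) (hH : ∀ u v : List X, u ++ v ∈ F → e u ∈ H) {z : List X → ℚ}
    (hz : z ∈ AS.SOL F) {f : List X} (hf : f ∈ F) (hev : H986.ev z f [] [] ≠ 0) :
    mu (fun w => zpowers (e w)) F z ∈ Sp ℚ (fun l : List (Subgroup G) =>
      (st (Ain p H) l ∧ l.length = n - 1) ∧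
        ∃ B ∈ {B : Subgroup G | ∃ w ∈ F, B = Dm e w}, l.head? = some B) ∧
    bd (mu (fun w => zpowers (e w)) F z) = 0 ∧ mu (fun w => zpowers (e w)) F z ≠ 0 := by
  have hz' : (∀ w, w ∉ F → z w = 0) ∧ ∀ u v : List X, ∑ x : X × X, z (u ++ x.1 :: x.2 :: v) = 0 :=
    hz
  exact ⟨mem_Sp_inf (comb_mem h z H hH) (comb_head h hn z), comb_bd h z hz'.1 hz'.2,
    comb_ne h hn z hz'.1 hf hev⟩

/-- **Top cycles** from the solutions (NL1a). -/
theorem top_of_comb [Fintype X] [Finite G] [hp : Fact p.Prime] (hn : 1 ≤ n)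
    (h : AS.Comb p n F e) (ht : 0 < AS.t F) (𝕜 : Type w) [Field 𝕜] (H : Subgroup G)
    (hH : ∀ u v : List X, u ++ v ∈ F → e u ∈ H) :
    ∃ w ∈ F, ∃ (α : Ch 𝕜 (Subgroup G)) (φ : List (Subgroup G)),
      TopCycle 𝕜 p H (closure {y | ∃ u v, w = u ++ v ∧ y = e u}) α φ := by
  obtain ⟨z, hz, f, hf, hev⟩ := exists_z h.perm ht
  rcases Nat.lt_or_ge n 2 with h1 | h2
  · have hn1 : n = 1 := by omega
    subst hn1
    have hD : closure {y | ∃ u v, f = u ++ v ∧ y = e u} = ⊥ := by
      have h3 := h.card f hf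
      rw [Nat.sub_self, pow_zero] at h3
      exact Subgroup.card_eq_one.1 h3
    refine ⟨f, hf, single [] 1, [], ?_⟩
    rw [hD]
    exact ⟨single_mem_Sp ⟨⟨List.Pairwise.nil, by simp⟩, rfl⟩ _, by simp, by simp,
      Or.inl ⟨rfl, rfl⟩, by simp⟩
  · obtain ⟨h3, h4, h5⟩ := comb_cycle h h2 H hH hz hf hev
    obtain ⟨B, ⟨w, hw, rfl⟩, α, l, h6, -, -⟩ := H945.topCycle_of_rat (p := p) 𝕜
      (T := {B : Subgroup G | ∃ w ∈ F, B = Dm e w}) (m := n - 1) (by
        rintro _ ⟨w, hw, rfl⟩
        exact h.card w hw) h3 h4 h5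
    exact ⟨w, hw, α, l, h6⟩

end groups

/-- **Module SUB.** -/
theorem stmtSUB : AS.StmtSUB.{u, v} := by
  intro p n hp G _ _ L _ F e hn h H hH z hz f hf hev
  have hz' : (∀ w, w ∉ F → z w = 0) ∧ ∀ u v : List L, ∑ x : L × L, z (u ++ x.1 :: x.2 :: v) = 0 :=
    hz
  rcases Nat.lt_or_ge n 2 with h1 | h2
  · have hn1 : n = 1 := by omega
    subst hn1
    refine ⟨single [] 1, ?_, ?_, ?_⟩
    · intro l hl
      rw [Finsupp.support_single_ne_zero _ one_ne_zero, Finset.mem_singleton] at hl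
      subst hl
      exact ⟨rfl, List.Pairwise.nil⟩
    · simp
    · simp
  · have hmem := comb_mem (𝕜 := ℚ) h z H hH
    have hTC : H275.TC ℚ (Ain p H) (n - 1) :=
      ⟨mu (fun w => zpowers (e w)) F z, hmem, comb_bd h z hz'.1 hz'.2, comb_ne h h2 z hz'.1 hf hev⟩
    have h3 : (fun E : Subgroup H => E.map H.subtype) '' (Ain p (⊤ : Subgroup H)) = Ain p H := by
      rw [H275.Ain_map H.subtype_injective, ← MonoidHom.range_eq_map, Subgroup.range_subtype]
    rw [← h3, H275.TC_image (Subgroup.map_injective H.subtype_injective).injOn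
      (fun x _ y _ => map_lt H.subtype_injective)] at hTC
    have h0 : (Subtype.val '' (Set.univ : Set (Ap p H))) = Ain p (⊤ : Subgroup H) := by
      ext E
      simp [Ain, ApS]
    rw [← h0, H275.TC_image (f := (Subtype.val : Ap p H → Subgroup H))
      Subtype.val_injective.injOn (fun x _ y _ => Iff.rfl)] at hTC
    exact H275.TC_official.2 hTC

end Vale.Agent.P240.R2.H938
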