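import Vale.Agent.P240.R2.H938.LocG
import Vale.Agent.P240.R2.H275.Grp

/-!
The property `LocTopF` from a family of subgroups `A` of `L` that are maximal among the elementary
abelian subgroups of `L`, from the elementary abelian groups `P`, `Q` which commute with `A` and are
independent modulo `L ⊔ C(L)`.
-/

set_option linter.all false

namespace Vale.Agent.P240.R2.H938

open Finsupp hiding cons
open Subgroup Vale.Agent.P240.K Vale.Agent.P240.H195 Vale.Agent.P240.R2.H487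

universe u v

section
variable {G : Type u} [Group G] {p : ℕ}

/-- the normaliser of `L` normalises its centraliser -/
lemma conj_cent_mem {L : Subgroup G} {b c : G} (hb : b ∈ normalizer (L : Set G))
    (hc : c ∈ centralizer (L : Set G)) : b * c * b⁻¹ ∈ centralizer (L : Set G) := by
  rw [mem_centralizer_iff] at hc ⊢
  intro l hl
  have h1 : b⁻¹ * l * b ∈ L := by
    apply (mem_normalizer_iff.1 hb (b⁻¹ * l * b)).2
    have h3 : b * (b⁻¹ * l * b) * b⁻¹ = l := by group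
    rwa [h3]
  have h4 := hc _ h1
  calc l * (b * c * b⁻¹) = b * ((b⁻¹ * l * b) * c) * b⁻¹ := by group
    _ = b * (c * (b⁻¹ * l * b)) * b⁻¹ := by rw [h4]
    _ = b * c * b⁻¹ * l := by group

/-- **The property `LocTopF`** from pairs of elementary abelian groups independent modulo
`L ⊔ C(L)`. -/
theorem locTopF_gen [Finite G] [hp : Fact p.Prime] (𝕜 : Type v) [Field 𝕜] {L : Subgroup G}
    {𝒜 : Set (Subgroup G)} {N : ℕ} (hne : 𝒜.Nonempty)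
    (hA : ∀ A ∈ 𝒜, A ≤ L ∧ A ∈ ApS p G ∧ Nat.card A = N)
    (hZ : L ⊓ centralizer (L : Set G) = ⊥)
    (hC : ∀ A ∈ 𝒜, ∀ l ∈ L, l ^ p = 1 → (∀ a ∈ A, l * a = a * l) → l ∈ A)
    (T : ∀ A ∈ 𝒜, ∀ P ∈ ApB p G, ∀ Q ∈ ApB p G, P ≤ normalizer (L : Set G) →
      Q ≤ normalizer (L : Set G) → (∀ a ∈ A, ∀ x ∈ P, a * x = x * a) →
      (∀ a ∈ A, ∀ x ∈ Q, a * x = x * a) → (∀ y ∈ P, ∀ x ∈ Q, y * x = x * y) → A ⊓ P = ⊥ →
      (A ⊔ P) ⊓ Q = ⊥ → (A ⊔ P ⊔ Q) ⊓ (L ⊔ centralizer (L : Set G)) ≤ A →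
      ∃ Q₁ ≤ A ⊔ P ⊔ Q, A ⊔ P ⊔ Q₁ = A ⊔ P ⊔ Q ∧ (A ⊔ P) ⊓ Q₁ = ⊥ ∧
        ∃ A' ∈ 𝒜, ∃ P' ∈ ApB p G, L ⊔ P' = L ⊔ P ∧ P' ⊓ (L ⊔ centralizer (L : Set G)) = ⊥ ∧
          Nat.card P ≤ Nat.card P' ∧ (∀ a ∈ A', ∀ x ∈ P', a * x = x * a) ∧
          A' ⊔ P' ≤ centralizer (Q₁ : Set G) ∧
          ∃ (α : Ch 𝕜 (Subgroup G)) (φ : List (Subgroup G)),
            TopCycle 𝕜 p ((L ⊔ P) ⊓ centralizer (Q₁ : Set G)) (A' ⊔ P') α φ) :
    LocTopF 𝕜 p L := by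
  refine ⟨𝒜, hne, fun A h => ⟨(hA A h).1, (hA A h).2.1⟩, ?_⟩
  intro E hE hEN E₁ hE₁E hAE hE₁C
  obtain ⟨A, hA𝒜, hAE₁⟩ := hAE
  obtain ⟨hAL, hAS, hAN⟩ := hA A hA𝒜
  set M : Subgroup G := L ⊔ centralizer (L : Set G) with hM
  set Z : Subgroup G := E ⊓ centralizer (L : Set G) with hZdef
  have hEab := hE.2.1
  have hEp := hE.2.2
  have hAE := hAE₁.trans hE₁E
  have hLC : ∀ l ∈ L, ∀ z ∈ centralizer (L : Set G), l * z = z * l := fun l hl z hz =>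
    (mem_centralizer_iff.1 hz) l hl
  have hLM : L ≤ M := le_sup_left
  have hCM : centralizer (L : Set G) ≤ M := le_sup_right
  -- the part of `E` in `M`
  have ha : ∀ x ∈ E, x ∈ M → ∃ a ∈ A, ∃ z ∈ Z, x = a * z := by
    intro x hxE hxM
    obtain ⟨l, hl, z, hz, rfl⟩ := H487.mem_sup_comm hLC hxM
    have h1 := hEp _ hxE
    have h2 : (l * z) ^ p = l ^ p * z ^ p := Commute.mul_pow (hLC l hl z hz) p
    rw [h2] at h1
    have h3 : l ^ p ∈ L ⊓ centralizer (L : Set G) := by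
      refine mem_inf.2 ⟨pow_mem hl p, ?_⟩
      rw [eq_inv_of_mul_eq_one_left h1]
      exact inv_mem (pow_mem hz p)
    rw [hZ, mem_bot] at h3
    have h4 : l ∈ A := by
      refine hC A hA𝒜 l hl h3 fun a haA => ?_
      have h5 := hEab _ hxE a (hAE haA)
      have h6 := hLC a (hAL haA) z hz
      have h7 : l * a * z = a * l * z := by
        calc l * a * z = l * (a * z) := mul_assoc _ _ _
          _ = l * (z * a) := by rw [h6]
          _ = (l * z) * a := (mul_assoc _ _ _).symm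
          _ = a * (l * z) := h5
          _ = a * l * z := (mul_assoc _ _ _).symm
      exact mul_right_cancel h7
    refine ⟨l, h4, z, mem_inf.2 ⟨?_, hz⟩, rfl⟩
    have h5 := mul_mem (inv_mem (hAE h4)) hxE
    rwa [inv_mul_cancel_left] at h5
  -- elements of `E₁` in `M`
  have hE₁M : ∀ x ∈ E₁, x ∈ M → x ∈ A := by
    intro x hx hxM
    obtain ⟨a, haA, z, hz, rfl⟩ := ha x (hE₁E hx) hxM
    have h1 : z ∈ E₁ ⊓ centralizer (L : Set G) := by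
      refine mem_inf.2 ⟨?_, hz.2⟩
      have h5 := mul_mem (inv_mem (hAE₁ haA)) hx
      rwa [inv_mul_cancel_left] at h5
    rw [hE₁C, mem_bot] at h1
    rwa [h1, mul_one]
  have hZE : Z ≤ E := inf_le_left
  have hZC : Z ≤ centralizer (L : Set G) := inf_le_right
  -- the complements
  have hE₁B : E₁ ∈ ApB p G := by
    refine Or.inr ⟨fun h0 => hAS.1 ?_, fun x hx y hy => hEab x (hE₁E hx) y (hE₁E hy),
      fun x hx => hEp x (hE₁E hx)⟩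
    rw [eq_bot_iff, ← h0]
    exact hAE₁
  obtain ⟨P, hPE₁, hPA, hPs⟩ := H275.exists_compl hE₁B hAE₁
  obtain ⟨Q, hQE, hQi, hQs⟩ := H275.exists_compl (Or.inr hE : E ∈ ApB p G)
    (sup_le hE₁E hZE : E₁ ⊔ Z ≤ E)
  have hB : ∀ {F : Subgroup G}, F ≤ E → F ∈ ApB p G := by
    intro F hF
    by_cases h0 : F = ⊥
    · exact Or.inl h0
    · exact Or.inr ⟨h0, fun x hx y hy => hEab x (hF hx) y (hF hy), fun x hx => hEp x (hF hx)⟩
  have hPE : P ≤ E := hPE₁.trans hE₁E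
  have hAP : A ⊔ P = E₁ := by rw [sup_comm]; exact hPs
  have hEcomm : ∀ {F F' : Subgroup G}, F ≤ E → F' ≤ E → ∀ x ∈ F, ∀ y ∈ F', x * y = y * x :=
    fun hF hF' x hx y hy => hEab x (hF hx) y (hF' hy)
  have hAPQ : A ⊔ P ⊔ Q ≤ E := sup_le (hAP.trans_le hE₁E) hQE
  have hAPQi : (A ⊔ P) ⊓ Q = ⊥ := by
    rw [hAP, eq_bot_iff, ← hQi]
    exact fun y hy => mem_inf.2 ⟨(mem_inf.1 hy).2, mem_sup_left (mem_inf.1 hy).1⟩
  have hAPQM : (A ⊔ P ⊔ Q) ⊓ (L ⊔ centralizer (L : Set G)) ≤ A := by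
    intro y hy
    obtain ⟨hy1, hy2⟩ := mem_inf.1 hy
    rw [hAP] at hy1
    obtain ⟨e, he, q, hq, rfl⟩ := H487.mem_sup_comm (hEcomm hE₁E hQE) hy1
    obtain ⟨a, haA, z, hz, h1⟩ := ha _ (mul_mem (hE₁E he) (hQE hq)) hy2
    have h2 : q ∈ Q ⊓ (E₁ ⊔ Z) := by
      refine mem_inf.2 ⟨hq, ?_⟩
      have h3 : q = e⁻¹ * (a * z) := by rw [← h1, inv_mul_cancel_left]
      rw [h3]
      exact mul_mem (mem_sup_left (inv_mem he)) (mul_mem (mem_sup_left (hAE₁ haA))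
        (mem_sup_right hz))
    rw [hQi, mem_bot] at h2
    rw [h2, mul_one] at hy2 ⊢
    exact hE₁M e he hy2
  obtain ⟨Q₁, hQ₁, hQ₁s, hQ₁i, A', hA', P', hP', hLP', hP'M, hPP', hA'P', hcenQ, α, φ, hT⟩ :=
    T A hA𝒜 P (hB hPE) Q (hB hQE) (hPE.trans hEN) (hQE.trans hEN) (hEcomm hAE hPE)
      (hEcomm hAE hQE) (hEcomm hPE hQE) (by rw [inf_comm]; exact hPA) hAPQi hAPQM
  obtain ⟨hA'L, hA'S, hA'N⟩ := hA A' hA'
  have hQ₁E : Q₁ ≤ E := hQ₁.trans hAPQ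
  have hBE : Z ⊔ Q₁ ≤ E := sup_le hZE hQ₁E
  have hLE₁ : L ⊔ E₁ = L ⊔ P := by rw [← hAP, ← sup_assoc, sup_eq_left.2 hAL]
  have hLPZ : L ⊔ P ≤ centralizer (Z : Set G) := by
    refine sup_le (fun x hx => ?_) fun x hx => ?_
    · rw [mem_centralizer_iff]
      exact fun z hz => (hLC x hx z (hZC hz)).symm
    · rw [mem_centralizer_iff]
      exact fun z hz => hEab z (hZE hz) x (hPE hx)
  have hle : (L ⊔ P) ⊓ centralizer (Q₁ : Set G) ≤
      (L ⊔ E₁) ⊓ centralizer ((Z ⊔ Q₁ : Subgroup G) : Set G) := by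
    refine le_inf (inf_le_left.trans_eq hLE₁.symm) ?_
    rw [le_centralizer_iff]
    refine sup_le ?_ ?_
    · rw [le_centralizer_iff]
      exact inf_le_left.trans hLPZ
    · rw [le_centralizer_iff]
      exact inf_le_right
  have hE'L : A' ⊔ P' ≤ L ⊔ P := by
    refine sup_le (hA'L.trans le_sup_left) ?_
    rw [← hLP']
    exact le_sup_right
  refine ⟨Z ⊔ Q₁, hBE, ?_, ?_, le_sup_left, A' ⊔ P', (le_inf hE'L hcenQ).trans hle, ?_,
    ⟨A', hA', le_sup_left⟩, ?_, ?_, ?_, α, φ, r5_mono hle hT⟩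
  · -- the sum
    have h1 : E₁ ⊔ (Z ⊔ Q₁) = Q ⊔ (E₁ ⊔ Z) := by
      calc E₁ ⊔ (Z ⊔ Q₁) = (E₁ ⊔ Q₁) ⊔ Z := by rw [sup_comm Z Q₁, sup_assoc]
        _ = (A ⊔ P ⊔ Q₁) ⊔ Z := by rw [hAP]
        _ = (A ⊔ P ⊔ Q) ⊔ Z := by rw [hQ₁s]
        _ = (E₁ ⊔ Q) ⊔ Z := by rw [hAP]
        _ = Q ⊔ (E₁ ⊔ Z) := by rw [sup_comm E₁ Q, sup_assoc]
    rw [h1, hQs]
  · -- the intersection
    rw [eq_bot_iff]
    intro y hy
    obtain ⟨hy1, hy2⟩ := mem_inf.1 hy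
    obtain ⟨z, hz, q, hq, rfl⟩ := H487.mem_sup_comm (hEcomm hZE hQ₁E) hy2
    have h1 : z ∈ A := by
      apply hAPQM
      refine mem_inf.2 ⟨?_, hCM (hZC hz)⟩
      have h2 : z = (z * q) * q⁻¹ := by rw [mul_inv_cancel_right]
      rw [h2]
      exact mul_mem (mem_sup_left (hAP.symm ▸ hy1)) (inv_mem (hQ₁ hq))
    have h2 : z ∈ L ⊓ centralizer (L : Set G) := mem_inf.2 ⟨hAL h1, hZC hz⟩
    rw [hZ, mem_bot] at h2
    rw [h2, one_mul] at hy1 ⊢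
    rw [← hQ₁i]
    exact mem_inf.2 ⟨hAP.symm ▸ hy1, hq⟩
  · -- the elementary abelian group
    rcases hP' with h0 | h0
    · rw [h0, sup_bot_eq]
      exact hA'S
    · exact sup_mem_ApS hA'S h0 hA'P'
  · -- faithfulness
    rw [← sup_assoc, sup_eq_left.2 hZC, eq_bot_iff]
    intro y hy
    obtain ⟨hy1, hy2⟩ := mem_inf.1 hy
    obtain ⟨a, haA, x', hx', rfl⟩ := H487.mem_sup_comm hA'P' hy1
    obtain ⟨c, hc, q, hq, h1⟩ := H487.mem_sup_norm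
      (fun b hb c hc => conj_cent_mem (hEN (hQ₁E hb)) hc) hy2
    have hx'P : x' ∈ L ⊔ P := hLP' ▸ mem_sup_right hx'
    obtain ⟨l, hl, x, hx, h2⟩ := H487.mem_sup_norm
      (fun b hb l hl => (mem_normalizer_iff.1 (hEN (hPE hb)) l).1 hl) hx'P
    have h3 : x * q⁻¹ ∈ A := by
      apply hAPQM
      refine mem_inf.2 ⟨mul_mem (mem_sup_left (mem_sup_right hx)) (inv_mem (hQ₁ hq)), ?_⟩
      have h4 : x * q⁻¹ = (a * l)⁻¹ * c := by
        have h5 : a * (l * x) = c * q := by rw [h2, h1]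
        calc x * q⁻¹ = (a * l)⁻¹ * (a * (l * x)) * q⁻¹ := by group
          _ = (a * l)⁻¹ * (c * q) * q⁻¹ := by rw [h5]
          _ = (a * l)⁻¹ * c := by group
      rw [h4]
      exact mul_mem (inv_mem (hLM (mul_mem (hA'L haA) hl))) (hCM hc)
    have h4 : q ∈ (A ⊔ P) ⊓ Q₁ := by
      refine mem_inf.2 ⟨?_, hq⟩
      have h5 : q = (x * q⁻¹)⁻¹ * x := by group
      rw [h5]
      exact mul_mem (mem_sup_left (inv_mem h3)) (mem_sup_right hx)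
    rw [hQ₁i, mem_bot] at h4
    rw [h4, inv_one, mul_one] at h3
    have h5 : x ∈ P ⊓ A := mem_inf.2 ⟨hx, h3⟩
    rw [hPA, mem_bot] at h5
    rw [h5, mul_one] at h2
    have h6 : x' ∈ P' ⊓ M := mem_inf.2 ⟨hx', hLM (h2 ▸ hl)⟩
    rw [hP'M, mem_bot] at h6
    rw [h6, mul_one] at h1 ⊢
    rw [h4, mul_one] at h1
    rw [← hZ]
    exact mem_inf.2 ⟨hA'L haA, h1 ▸ hc⟩
  · rw [← sup_assoc, sup_eq_left.2 hA'L, hLP', hLE₁]
  · -- the order
    have h3 : A' ⊓ P' = ⊥ := by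
      rw [eq_bot_iff, ← hP'M]
      exact fun y hy => mem_inf.2 ⟨(mem_inf.1 hy).2, hLM (hA'L (mem_inf.1 hy).1)⟩
    calc Nat.card E₁ = Nat.card (A ⊔ P : Subgroup G) := by rw [hAP]
      _ ≤ Nat.card A * Nat.card P := card_sup_le_comm (hEcomm hAE hPE)
      _ ≤ Nat.card A * Nat.card P' := Nat.mul_le_mul_left _ hPP'
      _ = Nat.card A' * Nat.card P' := by rw [hAN, hA'N]
      _ ≤ Nat.card (A' ⊔ P' : Subgroup G) := card_sup_comm h3

end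

end Vale.Agent.P240.R2.H938
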