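import Vale.Agent.P240.R2.H938.LocH

/-!
The property `LocTopF` when the automorphism group has an intermediate subgroup `Q` such that the
elementary abelian groups have at most one generator in `Q / L C(L)` and one in `N(L) / Q`.
-/

set_option linter.all false

namespace Vale.Agent.P240.R2.H938

open Finsupp hiding cons
open Subgroup Vale.Agent.P240.K Vale.Agent.P240.H195 Vale.Agent.P240.R2.H487

universe u v

section
variable {G : Type u} [Group G] {p : ℕ}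

lemma zp_ApB {x : G} (hx : x ^ p = 1) : zpowers x ∈ ApB p G := by
  by_cases h : zpowers x = ⊥
  · exact Or.inl h
  · refine Or.inr ⟨h, ?_, ?_⟩
    · rintro _ ⟨i, rfl⟩ _ ⟨j, rfl⟩
      exact (Commute.refl x).zpow_zpow i j
    · rintro _ ⟨i, rfl⟩
      show (x ^ i) ^ p = 1
      rw [← zpow_natCast, ← zpow_mul, mul_comm, zpow_mul, zpow_natCast, hx, one_zpow]

lemma card_zp_le [hp : Fact p.Prime] {x : G} (hx : x ^ p = 1) : Nat.card (zpowers x) ≤ p := by
  rw [Nat.card_zpowers]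
  exact Nat.le_of_dvd hp.out.pos (orderOf_dvd_of_pow_eq_one hx)

lemma card_zp_eq [hp : Fact p.Prime] {x : G} (hx : x ^ p = 1) (h1 : x ≠ 1) :
    Nat.card (zpowers x) = p := by
  rw [Nat.card_zpowers]
  exact orderOf_eq_prime hx h1

lemma comm_zp {A : Subgroup G} {x : G} (h : ∀ a ∈ A, x * a = a * x) :
    ∀ a ∈ A, ∀ s ∈ zpowers x, a * s = s * a := by
  intro a ha s hs
  have h1 : zpowers x ≤ centralizer ({a} : Set G) := by
    rw [zpowers_le, mem_centralizer_singleton_iff]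
    exact h a ha
  exact (mem_centralizer_singleton_iff.1 (h1 hs)).symm

lemma le_cent_zp {A : Subgroup G} {x : G} (h : ∀ a ∈ A, x * a = a * x) :
    A ≤ centralizer ((zpowers x : Subgroup G) : Set G) := by
  intro a ha
  rw [mem_centralizer_iff]
  exact fun s hs => (comm_zp h a ha s hs).symm

lemma cent_single_le {x : G} :
    centralizer ({x} : Set G) ≤ centralizer ((zpowers x : Subgroup G) : Set G) :=
  le_cent_zp fun a ha => (mem_centralizer_singleton_iff.1 ha).symm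

lemma le_cent_sup {A X Y : Subgroup G} (h1 : A ≤ centralizer (X : Set G))
    (h2 : A ≤ centralizer (Y : Set G)) : A ≤ centralizer ((X ⊔ Y : Subgroup G) : Set G) := by
  rw [le_centralizer_iff] at h1 h2 ⊢
  exact sup_le h1 h2

lemma sup_zp_congr {X : Subgroup G} {x y : G} (h1 : x ∈ X ⊔ zpowers y)
    (h2 : y ∈ X ⊔ zpowers x) : X ⊔ zpowers x = X ⊔ zpowers y :=
  le_antisymm (sup_le le_sup_left (zpowers_le.2 h1)) (sup_le le_sup_left (zpowers_le.2 h2))

lemma sup_zpowers_mul {X : Subgroup G} {x a : G} (ha : a ∈ X) :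
    X ⊔ zpowers (x * a) = X ⊔ zpowers x := by
  refine sup_zp_congr (mul_mem (mem_sup_right (mem_zpowers x)) (mem_sup_left ha)) ?_
  have h : x = (x * a) * a⁻¹ := by rw [mul_inv_cancel_right]
  have h1 : (x * a) * a⁻¹ ∈ X ⊔ zpowers (x * a) :=
    mul_mem (mem_sup_right (mem_zpowers _)) (mem_sup_left (inv_mem ha))
  rwa [← h] at h1

lemma sup_zp_div {X : Subgroup G} {x y : G} (h : x * y⁻¹ ∈ X) :
    X ⊔ zpowers x = X ⊔ zpowers y := by
  refine sup_zp_congr ?_ ?_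
  · have h1 : x = (x * y⁻¹) * y := by group
    have h2 : (x * y⁻¹) * y ∈ X ⊔ zpowers y :=
      mul_mem (mem_sup_left h) (mem_sup_right (mem_zpowers _))
    rwa [← h1] at h2
  · have h1 : y = (x * y⁻¹)⁻¹ * x := by group
    have h2 : (x * y⁻¹)⁻¹ * x ∈ X ⊔ zpowers x :=
      mul_mem (mem_sup_left (inv_mem h)) (mem_sup_right (mem_zpowers _))
    rwa [← h1] at h2

lemma inf_bot_of_sup [Finite G] {X R Q₁ : Subgroup G} (hXR : X ⊓ R = ⊥)
    (hN : X ≤ normalizer (Q₁ : Set G)) (hs : X ⊔ Q₁ = X ⊔ R)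
    (hc : Nat.card Q₁ ≤ Nat.card R) : X ⊓ Q₁ = ⊥ := by
  have h1 := H275.card_sup_mul hN
  have h2 := card_sup_comm hXR
  have h3 : Nat.card X * Nat.card Q₁ ≤ Nat.card X * Nat.card R := Nat.mul_le_mul_left _ hc
  rw [hs] at h1
  have h4 : 0 < Nat.card (X ⊔ R : Subgroup G) := Nat.card_pos
  have h5 : Nat.card (X ⊓ Q₁ : Subgroup G) ≤ 1 := by
    refine Nat.le_of_mul_le_mul_left (?_ : Nat.card (X ⊔ R : Subgroup G) *
      Nat.card (X ⊓ Q₁ : Subgroup G) ≤ Nat.card (X ⊔ R : Subgroup G) * 1) h4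
    rw [mul_one, h1]
    exact h3.trans h2
  exact Subgroup.eq_bot_of_card_le _ h5

/-- `locTopF_gen` with the conditions expressed by orders -/
theorem locTopF_gen' [Finite G] [hp : Fact p.Prime] (𝕜 : Type v) [Field 𝕜] {L : Subgroup G}
    {𝒜 : Set (Subgroup G)} {N : ℕ} (hne : 𝒜.Nonempty)
    (hA : ∀ A ∈ 𝒜, A ≤ L ∧ A ∈ ApS p G ∧ Nat.card A = N)
    (hZ : L ⊓ centralizer (L : Set G) = ⊥)
    (hC : ∀ A ∈ 𝒜, ∀ l ∈ L, l ^ p = 1 → (∀ a ∈ A, l * a = a * l) → l ∈ A)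
    (T : ∀ A ∈ 𝒜, ∀ P ∈ ApB p G, ∀ R ∈ ApB p G, P ≤ normalizer (L : Set G) →
      R ≤ normalizer (L : Set G) → (∀ a ∈ A, ∀ x ∈ P, a * x = x * a) →
      (∀ a ∈ A, ∀ x ∈ R, a * x = x * a) → (∀ y ∈ P, ∀ x ∈ R, y * x = x * y) →
      (A ⊔ P) ⊓ R = ⊥ → (P ⊔ R) ⊓ (L ⊔ centralizer (L : Set G)) = ⊥ →
      ∃ Q₁ : Subgroup G, A ⊔ P ⊔ Q₁ = A ⊔ P ⊔ R ∧ Nat.card Q₁ ≤ Nat.card R ∧
        ∃ A' ∈ 𝒜, ∃ P' ∈ ApB p G, L ⊔ P' = L ⊔ P ∧ Nat.card P' ≤ Nat.card P ∧
          (∀ a ∈ A', ∀ x ∈ P', a * x = x * a) ∧ A' ⊔ P' ≤ centralizer (Q₁ : Set G) ∧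
          ∃ (α : Ch 𝕜 (Subgroup G)) (φ : List (Subgroup G)),
            TopCycle 𝕜 p ((L ⊔ P) ⊓ centralizer (Q₁ : Set G)) (A' ⊔ P') α φ) :
    LocTopF 𝕜 p L := by
  refine locTopF_gen 𝕜 hne hA hZ hC ?_
  intro A hA𝒜 P hP R hR hPN hRN hAP hAR hPR hi hi' hM
  obtain ⟨hAL, hAS, hAN⟩ := hA A hA𝒜
  have hAC : ∀ {Y : Subgroup G}, (∀ a ∈ A, ∀ x ∈ Y, a * x = x * a) →
      A ≤ centralizer (Y : Set G) := by
    intro Y h a ha
    rw [mem_centralizer_iff]
    exact fun x hx => (h a ha x hx).symm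
  have hWM : (P ⊔ R) ⊓ (L ⊔ centralizer (L : Set G)) = ⊥ := by
    rw [eq_bot_iff]
    intro y hy
    obtain ⟨hy1, hy2⟩ := mem_inf.1 hy
    obtain ⟨x, hx, r, hr, rfl⟩ := H487.mem_sup_comm hPR hy1
    have h1 : x * r ∈ A := hM (mem_inf.2 ⟨mul_mem (mem_sup_left (mem_sup_right hx))
      (mem_sup_right hr), hy2⟩)
    have h2 : r ∈ (A ⊔ P) ⊓ R := by
      refine mem_inf.2 ⟨?_, hr⟩
      have h3 : x⁻¹ * (x * r) ∈ A ⊔ P := mul_mem (mem_sup_right (inv_mem hx)) (mem_sup_left h1)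
      rwa [inv_mul_cancel_left] at h3
    rw [hi', mem_bot] at h2
    rw [h2, mul_one] at h1 ⊢
    rw [← hi]
    exact mem_inf.2 ⟨h1, hx⟩
  obtain ⟨Q₁, hs, hc, A', hA', P', hP', hLP', hcP, hcomm, hcen, α, φ, hT⟩ :=
    T A hA𝒜 P hP R hR hPN hRN hAP hAR hPR hi' hWM
  obtain ⟨hA'L, hA'S, hA'N⟩ := hA A' hA'
  have hQ₁ : Q₁ ≤ A ⊔ P ⊔ R := by rw [← hs]; exact le_sup_right
  -- `A ⊔ P` centralises `A ⊔ P ⊔ R`
  have hXA : A ⊔ P ≤ centralizer (A : Set G) := by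
    refine sup_le (hAC hAS.2.1) ?_
    rw [le_centralizer_iff]
    exact hAC hAP
  have hXP : A ⊔ P ≤ centralizer (P : Set G) := by
    refine sup_le (hAC hAP) fun x hx => ?_
    rw [mem_centralizer_iff]
    exact fun y hy => H275.ApB.comm hP y hy x hx
  have hXR : A ⊔ P ≤ centralizer (R : Set G) := by
    refine sup_le (hAC hAR) fun x hx => ?_
    rw [mem_centralizer_iff]
    exact fun y hy => (hPR x hx y hy).symm
  have hXQ : A ⊔ P ≤ normalizer (Q₁ : Set G) := by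
    refine le_trans ?_ (centralizer_le_normalizer _)
    exact (le_cent_sup (le_cent_sup hXA hXP) hXR).trans (centralizer_le hQ₁)
  have hPM : P ⊓ (L ⊔ centralizer (L : Set G)) = ⊥ := by
    rw [eq_bot_iff, ← hWM]
    exact inf_le_inf_right _ le_sup_left
  -- the normaliser of `L` normalises `M`
  have hMn : normalizer (L : Set G) ≤ normalizer ((L ⊔ centralizer (L : Set G) : Subgroup G) :
      Set G) := by
    intro b hb
    have hconj : ∀ b ∈ normalizer (L : Set G), ∀ x ∈ L ⊔ centralizer (L : Set G),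
        b * x * b⁻¹ ∈ L ⊔ centralizer (L : Set G) := by
      intro b hb x hx
      obtain ⟨l, hl, c, hc, rfl⟩ := H487.mem_sup_comm
        (fun l hl c hc => (mem_centralizer_iff.1 hc) l hl) hx
      have h1 : b * (l * c) * b⁻¹ = (b * l * b⁻¹) * (b * c * b⁻¹) := by group
      rw [h1]
      exact mul_mem (mem_sup_left ((mem_normalizer_iff.1 hb l).1 hl))
        (mem_sup_right (conj_cent_mem hb hc))
    rw [mem_normalizer_iff]
    intro x
    refine ⟨hconj b hb x, fun hx => ?_⟩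
    have h1 := hconj b⁻¹ (inv_mem hb) _ hx
    have h2 : b⁻¹ * (b * x * b⁻¹) * b⁻¹⁻¹ = x := by group
    rwa [h2] at h1
  have hP'N : P' ≤ normalizer (L : Set G) := by
    have h1 : P' ≤ L ⊔ P := by rw [← hLP']; exact le_sup_right
    exact h1.trans (sup_le le_normalizer hPN)
  set M : Subgroup G := L ⊔ centralizer (L : Set G) with hMdef
  have hMP : P' ⊔ M = P ⊔ M := by
    rw [hMdef, sup_comm P', sup_comm P, sup_right_comm, hLP', sup_right_comm]
  have h1 := H275.card_sup_mul (hPN.trans hMn)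
  have h2 := H275.card_sup_mul (hP'N.trans hMn)
  rw [hPM, Subgroup.card_bot, mul_one] at h1
  rw [hMP, h1] at h2
  have h3 : Nat.card P * Nat.card (P' ⊓ M : Subgroup G) = Nat.card P' := by
    have h4 : 0 < Nat.card M := Nat.card_pos
    apply Nat.eq_of_mul_eq_mul_right h4
    rw [← h2]
    ring
  have h4 : Nat.card (P' ⊓ M : Subgroup G) ≤ 1 := by
    have h5 : 0 < Nat.card P := Nat.card_pos
    refine Nat.le_of_mul_le_mul_left (?_ : Nat.card P * Nat.card (P' ⊓ M : Subgroup G) ≤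
      Nat.card P * 1) h5
    rw [h3, mul_one]
    exact hcP
  have h5 : P' ⊓ M = ⊥ := Subgroup.eq_bot_of_card_le _ h4
  refine ⟨Q₁, hQ₁, hs, inf_bot_of_sup hi' hXQ hs hc, A', hA', P', hP', hLP', h5, ?_, hcomm, hcen,
    α, φ, hT⟩
  rw [h5, Subgroup.card_bot, mul_one] at h3
  exact h3.le

/-- there is a top cycle -/
abbrev TC (𝕜 : Type v) [Field 𝕜] (p : ℕ) (H E : Subgroup G) : Prop :=
  ∃ (α : Ch 𝕜 (Subgroup G)) (φ : List (Subgroup G)), TopCycle 𝕜 p H E α φ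

/-- **The property `LocTopF`** with an intermediate group `Q`. -/
theorem locTopF_of2 [Finite G] [hp : Fact p.Prime] (𝕜 : Type v) [Field 𝕜] {L Q : Subgroup G}
    {𝒜 : Set (Subgroup G)} {N : ℕ} (hMQ : L ⊔ centralizer (L : Set G) ≤ Q)
    (hQ : Q ≤ normalizer (L : Set G)) (hne : 𝒜.Nonempty)
    (hA : ∀ A ∈ 𝒜, A ≤ L ∧ A ∈ ApS p G ∧ Nat.card A = N)
    (hZ : L ⊓ centralizer (L : Set G) = ⊥)
    (hC : ∀ A ∈ 𝒜, ∀ l ∈ L, l ^ p = 1 → (∀ a ∈ A, l * a = a * l) → l ∈ A)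
    (hF1 : ∀ A ∈ 𝒜, ∀ e ∈ Q, ∀ x ∈ Q, e ^ p = 1 → x ^ p = 1 → e * x = x * e →
      (∀ a ∈ A, e * a = a * e) → (∀ a ∈ A, x * a = a * x) → e ∉ L ⊔ centralizer (L : Set G) →
      ∃ k : ℕ, x * e ^ k ∈ L ⊔ centralizer (L : Set G))
    (hF2 : ∀ A ∈ 𝒜, ∀ t ∈ normalizer (L : Set G), ∀ x ∈ normalizer (L : Set G), t ^ p = 1 →
      x ^ p = 1 → t * x = x * t → (∀ a ∈ A, t * a = a * t) → (∀ a ∈ A, x * a = a * x) →
      t ∉ Q → ∃ k : ℕ, x * t ^ k ∈ Q)
    (T1 : ∃ A' ∈ 𝒜, TC 𝕜 p L A')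
    (Te : ∀ A ∈ 𝒜, ∀ e ∈ Q, e ∉ L ⊔ centralizer (L : Set G) → e ^ p = 1 →
      (∀ a ∈ A, e * a = a * e) → ∃ a ∈ A, ∃ A' ∈ 𝒜, (∀ c ∈ A', (e * a) * c = c * (e * a)) ∧
        TC 𝕜 p (L ⊓ centralizer ({e * a} : Set G)) A')
    (Tt : ∀ A ∈ 𝒜, ∀ t ∈ normalizer (L : Set G), t ∉ Q → t ^ p = 1 →
      (∀ a ∈ A, t * a = a * t) → ∃ a ∈ A, ∃ A' ∈ 𝒜, (∀ c ∈ A', (t * a) * c = c * (t * a)) ∧
        TC 𝕜 p (L ⊓ centralizer ({t * a} : Set G)) A')
    (Tet : ∀ A ∈ 𝒜, ∀ e ∈ Q, e ∉ L ⊔ centralizer (L : Set G) → e ^ p = 1 →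
      (∀ a ∈ A, e * a = a * e) → ∀ t ∈ normalizer (L : Set G), t ∉ Q → t ^ p = 1 →
      (∀ a ∈ A, t * a = a * t) → e * t = t * e → ∃ a ∈ A, ∃ b ∈ A, ∃ k : ℕ, ∃ A' ∈ 𝒜,
        (∀ c ∈ A', (e * a) * c = c * (e * a)) ∧
        (∀ c ∈ A', (t * e ^ k * b) * c = c * (t * e ^ k * b)) ∧
        TC 𝕜 p (L ⊓ centralizer ({e * a} : Set G) ⊓ centralizer ({t * e ^ k * b} : Set G)) A')
    (Se : ∀ A ∈ 𝒜, ∀ e ∈ Q, e ∉ L ⊔ centralizer (L : Set G) → e ^ p = 1 →
      (∀ a ∈ A, e * a = a * e) → ∃ A' ∈ 𝒜, ∃ e', e' * e⁻¹ ∈ L ∧ e' ^ p = 1 ∧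
        (∀ a ∈ A', e' * a = a * e') ∧ TC 𝕜 p (L ⊔ zpowers e) (A' ⊔ zpowers e'))
    (S2 : ∀ A ∈ 𝒜, ∀ e ∈ Q, e ∉ L ⊔ centralizer (L : Set G) → e ^ p = 1 →
      (∀ a ∈ A, e * a = a * e) → ∀ t ∈ normalizer (L : Set G), t ∉ Q → t ^ p = 1 →
      (∀ a ∈ A, t * a = a * t) → e * t = t * e → ∃ a ∈ A, ∃ k : ℕ, ∃ A' ∈ 𝒜, ∃ e',
        e' * e⁻¹ ∈ L ∧ e' ^ p = 1 ∧ (∀ c ∈ A', e' * c = c * e') ∧
        (∀ c ∈ A', (t * e ^ k * a) * c = c * (t * e ^ k * a)) ∧
        (t * e ^ k * a) * e' = e' * (t * e ^ k * a) ∧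
        TC 𝕜 p ((L ⊔ zpowers e) ⊓ centralizer ({t * e ^ k * a} : Set G)) (A' ⊔ zpowers e'))
    (St : ∀ A ∈ 𝒜, ∀ t ∈ normalizer (L : Set G), t ∉ Q → t ^ p = 1 →
      (∀ a ∈ A, t * a = a * t) → ∃ A' ∈ 𝒜, ∃ t', t' * t⁻¹ ∈ L ∧ t' ^ p = 1 ∧
        (∀ a ∈ A', t' * a = a * t') ∧ TC 𝕜 p (L ⊔ zpowers t) (A' ⊔ zpowers t'))
    (Ste : ∀ A ∈ 𝒜, ∀ e ∈ Q, e ∉ L ⊔ centralizer (L : Set G) → e ^ p = 1 →
      (∀ a ∈ A, e * a = a * e) → ∀ t ∈ normalizer (L : Set G), t ∉ Q → t ^ p = 1 →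
      (∀ a ∈ A, t * a = a * t) → e * t = t * e → ∃ a ∈ A, ∃ A' ∈ 𝒜, ∃ t',
        t' * t⁻¹ ∈ L ∧ t' ^ p = 1 ∧ (∀ c ∈ A', t' * c = c * t') ∧
        (∀ c ∈ A', (e * a) * c = c * (e * a)) ∧ (e * a) * t' = t' * (e * a) ∧
        TC 𝕜 p ((L ⊔ zpowers t) ⊓ centralizer ({e * a} : Set G)) (A' ⊔ zpowers t'))
    (Sett : ∀ A ∈ 𝒜, ∀ e ∈ Q, e ∉ L ⊔ centralizer (L : Set G) → e ^ p = 1 →
      (∀ a ∈ A, e * a = a * e) → ∀ t ∈ normalizer (L : Set G), t ∉ Q → t ^ p = 1 →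
      (∀ a ∈ A, t * a = a * t) → e * t = t * e → ∃ A' ∈ 𝒜, ∃ e' t',
        e' * e⁻¹ ∈ L ∧ t' * t⁻¹ ∈ L ⊔ zpowers e ∧ e' ^ p = 1 ∧ t' ^ p = 1 ∧
        (∀ c ∈ A', e' * c = c * e') ∧ (∀ c ∈ A', t' * c = c * t') ∧ e' * t' = t' * e' ∧
        TC 𝕜 p (L ⊔ zpowers e ⊔ zpowers t) (A' ⊔ zpowers e' ⊔ zpowers t')) :
    LocTopF 𝕜 p L := by
  refine locTopF_gen' 𝕜 hne hA hZ hC ?_
  intro A hA𝒜 P hP R hR hPN hRN hAP hAR hPR hi hWM
  obtain ⟨hAL, hAS, hAN⟩ := hA A hA𝒜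
  -- the group `P ⊔ R`
  have hW : P ⊔ R ∈ ApB p G := H275.ApB_sup hP hR hPR
  have hWab := H275.ApB.comm hW
  have hWp := H275.ApB.pow hW
  have hWN : P ⊔ R ≤ normalizer (L : Set G) := sup_le hPN hRN
  have hAW : ∀ w ∈ P ⊔ R, ∀ a ∈ A, w * a = a * w := by
    have h1 : P ⊔ R ≤ centralizer (A : Set G) := by
      refine sup_le (fun x hx => ?_) fun x hx => ?_
      · rw [mem_centralizer_iff]
        exact fun a ha => hAP a ha x hx
      · rw [mem_centralizer_iff]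
        exact fun a ha => hAR a ha x hx
    exact fun w hw a ha => ((mem_centralizer_iff.1 (h1 hw)) a ha).symm
  have hW1 : ∀ w ∈ P ⊔ R, w ∈ L ⊔ centralizer (L : Set G) → w = 1 := by
    intro w hw hwM
    have h1 : w ∈ (P ⊔ R) ⊓ (L ⊔ centralizer (L : Set G)) := mem_inf.2 ⟨hw, hwM⟩
    rwa [hWM, mem_bot] at h1
  have hPW : P ≤ P ⊔ R := le_sup_left
  have hRW : R ≤ P ⊔ R := le_sup_right
  have hR1 : ∀ x ∈ R, x ∈ P → x = 1 := by
    intro x hx hxP
    have h1 : x ∈ (A ⊔ P) ⊓ R := mem_inf.2 ⟨mem_sup_right hxP, hx⟩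
    rwa [hi, mem_bot] at h1
  -- the elements of `Q`
  have hd1 : ∀ e ∈ P ⊔ R, e ∈ Q → e ∉ L ⊔ centralizer (L : Set G) → ∀ x ∈ P ⊔ R, x ∈ Q →
      x ∈ zpowers e := by
    intro e he heQ heM x hx hxQ
    obtain ⟨k, hk⟩ := hF1 A hA𝒜 e heQ x hxQ (hWp e he) (hWp x hx) (hWab e he x hx)
      (hAW e he) (hAW x hx) heM
    have h1 := hW1 _ (mul_mem hx (pow_mem he k)) hk
    rw [eq_inv_of_mul_eq_one_left h1]
    exact inv_mem (pow_mem (mem_zpowers e) k)
  have hd2 : ∀ t ∈ P ⊔ R, t ∉ Q → ∀ x ∈ P ⊔ R, ∃ k : ℕ, x * t ^ k ∈ Q := by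
    intro t ht htQ x hx
    exact hF2 A hA𝒜 t (hWN ht) x (hWN hx) (hWp t ht) (hWp x hx) (hWab t ht x hx)
      (hAW t ht) (hAW x hx) htQ
  have hd3 : ∀ e ∈ P ⊔ R, e ∈ Q → e ∉ L ⊔ centralizer (L : Set G) → ∀ t ∈ P ⊔ R, t ∉ Q →
      P ⊔ R ≤ zpowers e ⊔ zpowers t := by
    intro e he heQ heM t ht htQ x hx
    obtain ⟨k, hk⟩ := hd2 t ht htQ x hx
    have h1 := hd1 e he heQ heM _ (mul_mem hx (pow_mem ht k)) hk
    have h2 : (x * t ^ k) * (t ^ k)⁻¹ ∈ zpowers e ⊔ zpowers t :=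
      mul_mem (mem_sup_left h1) (mem_sup_right (inv_mem (pow_mem (mem_zpowers t) k)))
    rwa [mul_inv_cancel_right] at h2
  -- the structure of the subgroups
  have hne1 : ∀ F : Subgroup G, F ≠ ⊥ → ∃ e ∈ F, e ≠ 1 := by
    intro F hF
    by_contra hcon
    push Not at hcon
    exact hF (by rw [eq_bot_iff]; exact fun y hy => mem_bot.2 (hcon y hy))
  have hs1 : ∀ F ≤ P ⊔ R, F ≤ Q → F = ⊥ ∨ ∃ e ∈ F, e ∈ Q ∧ e ∉ L ⊔ centralizer (L : Set G) ∧
      F = zpowers e := by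
    intro F hF hFQ
    by_cases h0 : F = ⊥
    · exact Or.inl h0
    obtain ⟨e, he, he1⟩ := hne1 F h0
    have heM : e ∉ L ⊔ centralizer (L : Set G) := fun h => he1 (hW1 e (hF he) h)
    exact Or.inr ⟨e, he, hFQ he, heM, le_antisymm
      (fun x hx => hd1 e (hF he) (hFQ he) heM x (hF hx) (hFQ hx)) (zpowers_le.2 he)⟩
  have hs2 : ∀ F ≤ P ⊔ R, F ≤ Q ∨ ∃ t ∈ F, t ∉ Q ∧ F = (F ⊓ Q) ⊔ zpowers t := by
    intro F hF
    by_cases h0 : F ≤ Q
    · exact Or.inl h0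
    obtain ⟨t, ht, htQ⟩ := SetLike.not_le_iff_exists.1 h0
    refine Or.inr ⟨t, ht, htQ, le_antisymm (fun x hx => ?_)
      (sup_le inf_le_left (zpowers_le.2 ht))⟩
    obtain ⟨k, hk⟩ := hd2 t (hF ht) htQ x (hF hx)
    have h2 : (x * t ^ k) * (t ^ k)⁻¹ ∈ (F ⊓ Q) ⊔ zpowers t :=
      mul_mem (mem_sup_left (mem_inf.2 ⟨mul_mem hx (pow_mem ht k), hk⟩))
        (mem_sup_right (inv_mem (pow_mem (mem_zpowers t) k)))
    rwa [mul_inv_cancel_right] at h2
  -- powers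
  have hpa : ∀ w ∈ P ⊔ R, ∀ a ∈ A, (w * a) ^ p = 1 := by
    intro w hw a ha
    have h1 : (w * a) ^ p = w ^ p * a ^ p := Commute.mul_pow (hAW w hw a ha) p
    rw [h1, hWp w hw, hAS.2.2 a ha, one_mul]
  have hcpp : ∀ e ∈ P ⊔ R, e ∈ Q → e ∉ L ⊔ centralizer (L : Set G) → ∀ t ∈ P ⊔ R, t ∉ Q →
      p * p ≤ Nat.card (zpowers e ⊔ zpowers t : Subgroup G) := by
    intro e he heQ heM t ht htQ
    have h1 : zpowers e ⊓ zpowers t = ⊥ := by
      rw [eq_bot_iff]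
      intro y hy
      exact mem_bot.2 (pow_mem_iff (hWp t ht) htQ (mem_inf.1 hy).2
        ((zpowers_le.2 heQ) (mem_inf.1 hy).1))
    have h2 := card_sup_comm h1
    rwa [card_zp_eq (hWp e he) (fun h => heM (h ▸ one_mem _)),
      card_zp_eq (hWp t ht) (fun h => htQ (h ▸ one_mem _))] at h2
  have fin : ∀ Q₁ : Subgroup G, A ⊔ P ⊔ Q₁ = A ⊔ P ⊔ R → Nat.card Q₁ ≤ Nat.card R →
      ∀ A' ∈ 𝒜, ∀ P' H : Subgroup G, P' ∈ ApB p G → L ⊔ P' = L ⊔ P →
      Nat.card P' ≤ Nat.card P → A' ≤ centralizer (P' : Set G) →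
      A' ≤ centralizer (Q₁ : Set G) → P' ≤ centralizer (Q₁ : Set G) → H ≤ L ⊔ P →
      H ≤ centralizer (Q₁ : Set G) → TC 𝕜 p H (A' ⊔ P') →
      ∃ Q₁ : Subgroup G, A ⊔ P ⊔ Q₁ = A ⊔ P ⊔ R ∧ Nat.card Q₁ ≤ Nat.card R ∧
        ∃ A' ∈ 𝒜, ∃ P' ∈ ApB p G, L ⊔ P' = L ⊔ P ∧ Nat.card P' ≤ Nat.card P ∧
          (∀ a ∈ A', ∀ x ∈ P', a * x = x * a) ∧ A' ⊔ P' ≤ centralizer (Q₁ : Set G) ∧
          ∃ (α : Ch 𝕜 (Subgroup G)) (φ : List (Subgroup G)),
            TopCycle 𝕜 p ((L ⊔ P) ⊓ centralizer (Q₁ : Set G)) (A' ⊔ P') α φ := by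
    intro Q₁ h1 h2 A' h3 P' H h4 h5 h6 h7 h8 h9 h10 h11 h12
    obtain ⟨α, φ, hT⟩ := h12
    exact ⟨Q₁, h1, h2, A', h3, P', h4, h5, h6,
      fun a ha x hx => ((mem_centralizer_iff.1 (h7 ha)) x hx).symm, sup_le h8 h9, α, φ,
      r5_mono (le_inf h10 h11) hT⟩
  rcases hs2 P hPW with hPQ | ⟨t, htP, htQ, hPt⟩
  · rcases hs1 P hPW hPQ with hP0 | ⟨e, heP, heQ, heM, hPe⟩
    · -- `P = ⊥`
      have hcb : Nat.card (⊥ : Subgroup G) ≤ Nat.card P := by rw [hP0]
      have hLb : L ⊔ ⊥ = L ⊔ P := by rw [hP0]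
      have hA'b : ∀ A' : Subgroup G, A' ≤ centralizer ((⊥ : Subgroup G) : Set G) := by
        intro A' x hx
        rw [mem_centralizer_iff]
        intro y hy
        rw [mem_bot.1 hy, one_mul, mul_one]
      rcases hs2 R hRW with hRQ | ⟨t, htR, htQ, hRt⟩
      · rcases hs1 R hRW hRQ with hR0 | ⟨e, heR, heQ, heM, hRe⟩
        · obtain ⟨A', hA', hT⟩ := T1
          refine fin ⊥ (by rw [hR0]) (by rw [hR0]) A' hA' ⊥ L (Or.inl rfl) hLb hcb (hA'b A')
            (hA'b A') bot_le le_sup_left (hA'b L) ?_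
          rwa [sup_bot_eq]
        · have heW := hRW heR
          obtain ⟨a, ha, A', hA', hc, hT⟩ := Te A hA𝒜 e heQ heM (hWp e heW) (hAW e heW)
          refine fin (zpowers (e * a)) ?_ ?_ A' hA' ⊥ _ (Or.inl rfl) hLb hcb (hA'b A')
            (le_cent_zp hc) bot_le (inf_le_left.trans le_sup_left)
            (inf_le_right.trans cent_single_le) (by rwa [sup_bot_eq])
          · rw [sup_zpowers_mul (mem_sup_left ha), hRe]
          · rw [hRe, card_zp_eq (hWp e heW) (fun h => heM (h ▸ one_mem _))]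
            exact card_zp_le (hpa e heW a ha)
      · have htW := hRW htR
        rcases hs1 (R ⊓ Q) (inf_le_left.trans hRW) inf_le_right with hR0 | ⟨e, heR, heQ, heM, hRe⟩
        · rw [hR0, bot_sup_eq] at hRt
          obtain ⟨a, ha, A', hA', hc, hT⟩ := Tt A hA𝒜 t (hWN htW) htQ (hWp t htW) (hAW t htW)
          refine fin (zpowers (t * a)) ?_ ?_ A' hA' ⊥ _ (Or.inl rfl) hLb hcb (hA'b A')
            (le_cent_zp hc) bot_le (inf_le_left.trans le_sup_left)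
            (inf_le_right.trans cent_single_le) (by rwa [sup_bot_eq])
          · rw [sup_zpowers_mul (mem_sup_left ha), hRt]
          · rw [hRt, card_zp_eq (hWp t htW) (fun h => htQ (h ▸ one_mem _))]
            exact card_zp_le (hpa t htW a ha)
        · rw [hRe] at hRt
          have heW := hRW (mem_inf.1 heR).1
          obtain ⟨a, ha, b, hb, k, A', hA', hc, hc', hT⟩ := Tet A hA𝒜 e heQ heM (hWp e heW)
            (hAW e heW) t (hWN htW) htQ (hWp t htW) (hAW t htW) (hWab e heW t htW)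
          have hek : t * e ^ k * b = t * (e ^ k * b) := mul_assoc _ _ _
          refine fin (zpowers (e * a) ⊔ zpowers (t * e ^ k * b)) ?_ ?_ A' hA' ⊥ _ (Or.inl rfl)
            hLb hcb (hA'b A') (le_cent_sup (le_cent_zp hc) (le_cent_zp hc')) bot_le
            ((inf_le_left.trans inf_le_left).trans le_sup_left)
            (le_cent_sup ((inf_le_left.trans inf_le_right).trans cent_single_le)
              (inf_le_right.trans cent_single_le)) (by rwa [sup_bot_eq])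
          · rw [hRt, ← sup_assoc, ← sup_assoc, sup_zpowers_mul (mem_sup_left ha), hek,
              sup_zpowers_mul (mul_mem (mem_sup_right (pow_mem (mem_zpowers e) k))
                (mem_sup_left (mem_sup_left hb)))]
          · rw [hRt]
            refine le_trans ?_ (hcpp e heW heQ heM t htW htQ)
            have h1 : ∀ x ∈ zpowers (e * a), ∀ y ∈ zpowers (t * e ^ k * b), x * y = y * x := by
              have h2 : (e * a) * (t * e ^ k * b) = (t * e ^ k * b) * (e * a) := by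
                have e1 := hAW e heW
                have e2 := hAW t htW
                have e3 := hWab e heW t htW
                have e4 : e * (t * e ^ k) = (t * e ^ k) * e :=
                  hWab e heW _ (mul_mem htW (pow_mem heW k))
                have e5 : a * (t * e ^ k) = (t * e ^ k) * a :=
                  (hAW _ (mul_mem htW (pow_mem heW k)) a ha).symm
                have e6 : a * b = b * a := hAS.2.1 a ha b hb
                calc (e * a) * (t * e ^ k * b) = e * (a * (t * e ^ k)) * b := by group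
                  _ = e * ((t * e ^ k) * a) * b := by rw [e5]
                  _ = (e * (t * e ^ k)) * (a * b) := by group
                  _ = ((t * e ^ k) * e) * (b * a) := by rw [e4, e6]
                  _ = (t * e ^ k) * (e * b) * a := by group
                  _ = (t * e ^ k) * (b * e) * a := by rw [e1 b hb]
                  _ = (t * e ^ k * b) * (e * a) := by group
              rintro _ ⟨i, rfl⟩ _ ⟨j, rfl⟩
              exact Commute.zpow_zpow h2 i j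
            refine (card_sup_le_comm h1).trans (Nat.mul_le_mul (card_zp_le (hpa e heW a ha))
              (card_zp_le (hpa _ (mul_mem htW (pow_mem heW k)) b hb)))
    · -- `P = ⟨e⟩`
      have heW := hPW heP
      have hcP : Nat.card P = p := by
        rw [hPe, card_zp_eq (hWp e heW) (fun h => heM (h ▸ one_mem _))]
      have hRQ1 : ∀ x ∈ R, x ∈ Q → x = 1 := fun x hx hxQ =>
        hR1 x hx (hPe.symm ▸ hd1 e heW heQ heM x (hRW hx) hxQ)
      rcases hs2 R hRW with hRQ | ⟨t, htR, htQ, hRt⟩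
      · have hR0 : R = ⊥ := by
          rw [eq_bot_iff]
          exact fun x hx => mem_bot.2 (hRQ1 x hx (hRQ hx))
        obtain ⟨A', hA', e', he', hep, hc, hT⟩ := Se A hA𝒜 e heQ heM (hWp e heW) (hAW e heW)
        have hb : ∀ A' : Subgroup G, A' ≤ centralizer ((⊥ : Subgroup G) : Set G) := by
          intro A' x hx
          rw [mem_centralizer_iff]
          intro y hy
          rw [mem_bot.1 hy, one_mul, mul_one]
        refine fin ⊥ (by rw [hR0]) (by rw [hR0]) A' hA' (zpowers e') _ (zp_ApB hep) ?_ ?_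
          (le_cent_zp hc) (hb _) (hb _) ?_ (hb _) hT
        · rw [hPe, sup_zp_div he']
        · rw [hcP]
          exact card_zp_le hep
        · rw [hPe]
      · have hR0 : R ⊓ Q = ⊥ := by
          rw [eq_bot_iff]
          exact fun x hx => mem_bot.2 (hRQ1 x (mem_inf.1 hx).1 (mem_inf.1 hx).2)
        rw [hR0, bot_sup_eq] at hRt
        have htW := hRW htR
        obtain ⟨a, ha, k, A', hA', e', he', hep, hc, hc', hc'', hT⟩ := S2 A hA𝒜 e heQ heM
          (hWp e heW) (hAW e heW) t (hWN htW) htQ (hWp t htW) (hAW t htW) (hWab e heW t htW)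
        have hek : t * e ^ k * a = t * (e ^ k * a) := mul_assoc _ _ _
        refine fin (zpowers (t * e ^ k * a)) ?_ ?_ A' hA' (zpowers e') _ (zp_ApB hep) ?_ ?_
          (le_cent_zp hc) (le_cent_zp hc') ?_ (inf_le_left.trans ?_)
          (inf_le_right.trans cent_single_le) hT
        · rw [hRt, hek, sup_zpowers_mul (mul_mem (mem_sup_right (pow_mem heP k)) (mem_sup_left ha))]
        · rw [hRt, card_zp_eq (hWp t htW) (fun h => htQ (h ▸ one_mem _))]
          exact card_zp_le (hpa _ (mul_mem htW (pow_mem heW k)) a ha)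
        · rw [hPe, sup_zp_div he']
        · rw [hcP]
          exact card_zp_le hep
        · rw [zpowers_le, mem_centralizer_iff]
          rintro _ ⟨i, rfl⟩
          exact Commute.zpow_left hc'' i
        · rw [hPe]
  · -- `P` is not contained in `Q`
    have htW := hPW htP
    rcases hs1 (P ⊓ Q) (inf_le_left.trans hPW) inf_le_right with hP0 | ⟨e, heP, heQ, heM, hPe⟩
    · rw [hP0, bot_sup_eq] at hPt
      have hcP : Nat.card P = p := by
        rw [hPt, card_zp_eq (hWp t htW) (fun h => htQ (h ▸ one_mem _))]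
      by_cases hR0 : R = ⊥
      · obtain ⟨A', hA', t', ht', htp, hc, hT⟩ := St A hA𝒜 t (hWN htW) htQ (hWp t htW)
          (hAW t htW)
        have hb : ∀ A' : Subgroup G, A' ≤ centralizer ((⊥ : Subgroup G) : Set G) := by
          intro A' x hx
          rw [mem_centralizer_iff]
          intro y hy
          rw [mem_bot.1 hy, one_mul, mul_one]
        refine fin ⊥ (by rw [hR0]) (by rw [hR0]) A' hA' (zpowers t') _ (zp_ApB htp) ?_ ?_
          (le_cent_zp hc) (hb _) (hb _) ?_ (hb _) hT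
        · rw [hPt, sup_zp_div ht']
        · rw [hcP]
          exact card_zp_le htp
        · rw [hPt]
      · obtain ⟨r, hr, hr1⟩ := hne1 R hR0
        obtain ⟨k, hk⟩ := hd2 t htW htQ r (hRW hr)
        have heW : r * t ^ k ∈ P ⊔ R := mul_mem (hRW hr) (pow_mem htW k)
        have heM : r * t ^ k ∉ L ⊔ centralizer (L : Set G) := by
          intro h
          have h1 := eq_inv_of_mul_eq_one_left (hW1 _ heW h)
          exact hr1 (hR1 r hr (h1 ▸ inv_mem (pow_mem htP k)))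
        obtain ⟨a, ha, A', hA', t', ht', htp, hc, hc', hc'', hT⟩ := Ste A hA𝒜 _ hk heM
          (hWp _ heW) (hAW _ heW) t (hWN htW) htQ (hWp t htW) (hAW t htW) (hWab _ heW t htW)
        refine fin (zpowers (r * t ^ k * a)) ?_ ?_ A' hA' (zpowers t') _ (zp_ApB htp) ?_ ?_
          (le_cent_zp hc) (le_cent_zp hc') ?_ (inf_le_left.trans ?_)
          (inf_le_right.trans cent_single_le) hT
        · refine le_antisymm (sup_le le_sup_left (zpowers_le.2 ?_)) (sup_le le_sup_left ?_)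
          · exact mul_mem (mul_mem (mem_sup_right hr) (mem_sup_left (mem_sup_right
              (pow_mem htP k)))) (mem_sup_left (mem_sup_left ha))
          · rw [sup_zpowers_mul (mem_sup_left ha)]
            refine (hRW.trans (hd3 _ heW hk heM t htW htQ)).trans (sup_le le_sup_right ?_)
            rw [zpowers_le]
            exact mem_sup_left (mem_sup_right htP)
        · refine (card_zp_le (hpa _ heW a ha)).trans ?_
          have h1 : Nat.card (zpowers r) = p := card_zp_eq (hWp r (hRW hr)) hr1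
          rw [← h1]
          exact Subgroup.card_le_of_le (zpowers_le.2 hr)
        · rw [hPt, sup_zp_div ht']
        · rw [hcP]
          exact card_zp_le htp
        · rw [zpowers_le, mem_centralizer_iff]
          rintro _ ⟨i, rfl⟩
          exact Commute.zpow_left hc'' i
        · rw [hPt]
    · rw [hPe] at hPt
      have heP' := (mem_inf.1 heP).1
      have heW := hPW heP'
      have hR0 : R = ⊥ := by
        rw [eq_bot_iff]
        intro x hx
        exact mem_bot.2 (hR1 x hx (hPt.symm ▸ hd3 e heW heQ heM t htW htQ (hRW hx)))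
      obtain ⟨A', hA', e', t', he', ht', hep, htp, hc, hc', hc'', hT⟩ := Sett A hA𝒜 e heQ heM
        (hWp e heW) (hAW e heW) t (hWN htW) htQ (hWp t htW) (hAW t htW) (hWab e heW t htW)
      have hb : ∀ A' : Subgroup G, A' ≤ centralizer ((⊥ : Subgroup G) : Set G) := by
        intro A' x hx
        rw [mem_centralizer_iff]
        intro y hy
        rw [mem_bot.1 hy, one_mul, mul_one]
      have hcet : ∀ x ∈ zpowers e', ∀ y ∈ zpowers t', x * y = y * x := by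
        rintro _ ⟨i, rfl⟩ _ ⟨j, rfl⟩
        exact Commute.zpow_zpow hc'' i j
      refine fin ⊥ (by rw [hR0]) (by rw [hR0]) A' hA' (zpowers e' ⊔ zpowers t') _
        (H275.ApB_sup (zp_ApB hep) (zp_ApB htp) hcet) ?_ ?_
        (le_cent_sup (le_cent_zp hc) (le_cent_zp hc')) (hb _) (hb _) ?_ (hb _)
        (by rw [← sup_assoc]; exact hT)
      · rw [hPt, ← sup_assoc, ← sup_assoc, sup_zp_div he', sup_zp_div ht']
      · rw [hPt]
        exact ((card_sup_le_comm hcet).trans (Nat.mul_le_mul (card_zp_le hep)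
          (card_zp_le htp))).trans (hcpp e heW heQ heM t htW htQ)
      · rw [hPt, ← sup_assoc]

end

end Vale.Agent.P240.R2.H938
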