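import Vale.Agent.P240.R2.H938.Comb5

/-!
Module M6: the groups between the group of the elements `e W` and `PGU_n(q)`.
-/

set_option autoImplicit false

namespace Vale.Agent.P240.R2.H938

open Finset Matrix Vale.Agent.P240 Vale.Agent.P240.K Vale.Agent.P240.R2.AS
open Vale.Agent.P240.R2.H986 (ev ev_eq_zero)
open Vale.Agent.P240.R2.H275 (QuillenDim quillenDim_of_rat)
open scoped Classical

universe u v w

lemma qd_of {p : ℕ} {A : Type u} [Group A] (H : Subgroup A) (r : ℕ)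
    (hr : ∀ E : Subgroup A, E ≤ H → (∀ x ∈ E, ∀ y ∈ E, x * y = y * x) → (∀ x ∈ E, x ^ p = 1) →
      Nat.card E ≤ p ^ r)
    (hc : ∃ c : List (Ap p H) →₀ ℚ, IsChain r c ∧ bd c = 0 ∧ c ≠ 0) : QuillenDim ℚ p H := by
  refine ⟨r, fun E => ?_, hc⟩
  have h := hr (E.1.map H.subtype) ?_ ?_ ?_
  · rwa [Subgroup.card_map_of_injective H.subtype_injective] at h
  · rintro _ ⟨y, _, rfl⟩
    exact y.2
  · rintro _ ⟨x, hx, rfl⟩ _ ⟨y, hy, rfl⟩
    rw [← map_mul, ← map_mul, E.2.2.1 x hx y hy]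
  · rintro _ ⟨x, hx, rfl⟩
    rw [← map_pow, E.2.2.2 x hx, map_one]

/-- **Module M6.** -/
theorem stmtM6 (hM2 : StmtM2.{u}) (hM4 : StmtM4.{u}) (hM4c : StmtM4c.{u}) : StmtM6.{u, v} := by
  intro K _ _ _ q hq hK hs p _ hpq n hn hp2 ζ h1 h2 H hH 𝕜 _
  apply quillenDim_of_rat
  have h3 : ζ * star ζ = 1 := by
    rw [hs, ← pow_succ']
    obtain ⟨k, hk⟩ := hpq
    rw [hk, pow_mul, h1, one_pow]
  have hC := hM4c K q hq hK hs p ζ h1 h2 h3 n hn
  haveI : Finite (GU K n) := by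
    haveI : Finite (Matrix (Fin n) (Fin n) K) := inferInstanceAs (Finite (Fin n → Fin n → K))
    infer_instance
  haveI : Finite (PGU K n) := inferInstanceAs (Finite (GU K n ⧸ Subgroup.center (GU K n)))
  refine qd_of H (n - 1) (fun E _ hE1 hE2 =>
    hM4 K q (by omega) hK hs p hpq n hn hp2 E hE1 hE2) ?_
  rcases Nat.lt_or_ge n 2 with hn1 | hn2
  · have hn1' : n = 1 := by omega
    subst hn1'
    refine ⟨Finsupp.single [] 1, ?_, ?_, ?_⟩
    · intro l hl
      rw [Finsupp.support_single_ne_zero _ one_ne_zero, Finset.mem_singleton] at hl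
      subst hl
      exact ⟨rfl, List.Pairwise.nil⟩
    · simp
    · simp
  · have ht : 0 < t (Fr K n) := by
      have h4 := hM2 K q hq hK hs n hn2
      by_contra h0
      have h5 : t (Fr K n) = 0 := by omega
      rw [h5, mul_zero] at h4
      exact Nat.not_lt_zero _ h4
    obtain ⟨z, hz, f, hf, hev⟩ := exists_z hC.perm ht
    exact stmtSUB p n (PGU K n) (Ln K n) (Fr K n) (eW ζ) hn hC H (fun u v huv =>
      hH u (List.pairwise_append.1 ((mem_Fr K).1 huv).2).1) z hz f hf hev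

end Vale.Agent.P240.R2.H938
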