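import Vale.Agent.P240.R2.H38.V5
import Vale.Agent.P240.R2.H938.LocI
import Vale.Agent.P240.R2.H945.SemiN

/-!
Top cycles for homomorphisms `ε` from a subgroup `S` of the unitary group that contains the elements
`ζ` on a word, `1` on the complement; the kernel may be smaller than the group of scalars.
-/

set_option autoImplicit false
set_option linter.all false

namespace Vale.Agent.P240.R2.H938

open Matrix Vale.Agent.P240.R2.AS Vale.Agent.P240.R2.H38 Vale.Agent.P240.K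
open scoped Classical

universe u v w

noncomputable section

section
variable {K : Type u} [Field K] [Fintype K] [StarRing K] {m : ℕ}
variable {S : Subgroup (GU K m)} {p : ℕ} {ζ : K} {G : Type v} [Group G]

/-- the homomorphisms from `S` -/
structure Pack (p : ℕ) (ζ : K) (S : Subgroup (GU K m)) (ε : S →* G) : Prop where
  hm : 2 ≤ m
  mem : ∀ w : List (Ln K m), Orth w → ∃ g : S, mx g = sM ζ 1 w
  comb : Comb p m (Fr K m) (eS S ζ 1 ε)
  ker : ∀ g : S, ε g = 1 → ∃ a : K, mx g = a • (1 : Matrix (Fin m) (Fin m) K)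

lemma sM_one (ζ : K) (w : List (Ln K m)) : sM ζ 1 w = 1 + (ζ - 1) • sm w := by
  rw [sM, one_pow, one_smul]

lemma Pack.mx_sS {ε : S →* G} (hP : Pack p ζ S ε) {w : List (Ln K m)} (h : Orth w) :
    mx (sS S ζ 1 w) = sM ζ 1 w := by
  rw [sS, dif_pos (hP.mem w h)]
  exact (hP.mem w h).choose_spec

lemma Pack.sS_append {ε : S →* G} (hP : Pack p ζ S ε) {v w : List (Ln K m)} (h : Orth (v ++ w)) :
    sS S ζ 1 (v ++ w) = sS S ζ 1 v * sS S ζ 1 w := by
  have h1 := List.pairwise_append.1 h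
  apply mx_inj
  rw [mx_mul, hP.mx_sS h, hP.mx_sS h1.1, hP.mx_sS h1.2.1, sM_append h]

lemma Pack.eS_append {ε : S →* G} (hP : Pack p ζ S ε) {v w : List (Ln K m)} (h : Orth (v ++ w)) :
    eS S ζ 1 ε (v ++ w) = eS S ζ 1 ε v * eS S ζ 1 ε w := by
  rw [eS, hP.sS_append h, map_mul]; rfl

omit [Fintype K] in
lemma conj_sum {g : GU K m} {σ : K ≃+* K} (A B : Matrix (Fin m) (Fin m) K) :
    g.1 * (A + B).map σ * star g.1 = g.1 * A.map σ * star g.1 + g.1 * B.map σ * star g.1 := by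
  have h : (A + B).map σ = A.map σ + B.map σ := by
    ext i j
    exact map_add σ _ _
  rw [h, mul_add, add_mul]

lemma sm_fixG {g : GU K m} {σ : K ≃+* K} {u : List (Ln K m)}
    (h : ∀ P ∈ u, g.1 * P.1.map σ * star g.1 = P.1) : g.1 * (sm u).map σ * star g.1 = sm u := by
  induction u with
  | nil =>
    have h1 : (sm ([] : List (Ln K m))).map σ = 0 := by ext i j; simp [sm]
    rw [h1, mul_zero, zero_mul, sm_nil]
  | cons P u ih =>
    rw [sm_cons, conj_sum, h P (by simp), ih (fun Q hQ => h Q (by simp [hQ]))]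

lemma sM_fixG {g : GU K m} {σ : K ≃+* K} (hσ : σ ζ = ζ) {u : List (Ln K m)}
    (h : ∀ P ∈ u, g.1 * P.1.map σ * star g.1 = P.1) :
    g.1 * (sM ζ 1 u).map σ * star g.1 = sM ζ 1 u := by
  rw [sM_one, conj_sum, map_one_mat, mul_one, gu_star, map_smul_mat, map_sub, hσ, map_one,
    mul_smul_comm, smul_mul_assoc, sm_fixG h]

lemma Pack.comm_lit {ε : S →* G} (hP : Pack p ζ S ε) {t : G} {g : GU K m} {σ : K ≃+* K}
    (ht : ActsS ε t g σ) (hσ : σ ζ = ζ) {u : List (Ln K m)} (hu : Orth u)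
    (h : ∀ P ∈ u, g.1 * P.1.map σ * star g.1 = P.1) :
    t * eS S ζ 1 ε u = eS S ζ 1 ε u * t := by
  have h1 := ht.2 (sS S ζ 1 u) (sS S ζ 1 u) (by rw [hP.mx_sS hu, sM_fixG hσ h])
  rw [mul_inv_eq_iff_eq_mul] at h1
  exact h1

/-- the count for `h ↦ g σ(h) g⁻¹`, with the factor `m` -/
def SCntG (S : Subgroup (GU K m)) (g : GU K m) (σ : K ≃+* K) : Prop :=
  ∃ F : Finset (List (Ln K m)), F ⊆ Fr K m ∧ (∀ w ∈ F, ∀ w', w.Perm w' → w' ∈ F) ∧
    (∀ w ∈ F, ∀ P ∈ w, g.1 * P.1.map σ * star g.1 = P.1) ∧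
    (Fr K m).card * Nat.card {h : S // ∃ a : K, g.1 * (mx h).map σ * star g.1 = a • mx h} <
      m * (Nat.card S * AS.t F)

lemma SCntG.of (hm : 2 ≤ m) {σ : K ≃+* K} (h : SCnt S σ) : SCntG S 1 σ := by
  have e1 : ((1 : GU K m) : Matrix (Fin m) (Fin m) K) = 1 := rfl
  have e2 : ∀ A : Matrix (Fin m) (Fin m) K,
      ((1 : GU K m) : Matrix (Fin m) (Fin m) K) * A *
        star ((1 : GU K m) : Matrix (Fin m) (Fin m) K) = A := by
    intro A
    rw [e1, star_one, one_mul, mul_one]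
  obtain ⟨F, h1, h2, h3, h4⟩ := h
  refine ⟨F, h1, h2, fun w hw P hP => ?_, ?_⟩
  · rw [e2]
    exact h3 w hw P hP
  · have h5 : Nat.card {h : S // ∃ a : K, ((1 : GU K m) : Matrix (Fin m) (Fin m) K) *
        (mx h).map σ * star ((1 : GU K m) : Matrix (Fin m) (Fin m) K) = a • mx h} =
        Nat.card {h : S // ∃ a : K, (mx h).map σ = a • mx h} := by
      congr 1
      congr 1
      funext h
      rw [e2]
    rw [h5]
    exact h4.trans_le (Nat.mul_le_mul_right _ hm)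

lemma Pack.eS_rev {ε : S →* G} (hP : Pack p ζ S ε) {u v : List (Ln K m)} (h : u ++ v ∈ Fr K m) :
    Subgroup.zpowers (eS S ζ 1 ε v.reverse) = Subgroup.zpowers (eS S ζ 1 ε u) := by
  have ho := ((mem_Fr K).1 h).2
  have hv : Orth v := (List.pairwise_append.1 ho).2.1
  have hvr : Orth v.reverse := H938.orth_perm (List.reverse_perm v).symm hv
  have h1 : sS S ζ 1 v.reverse = sS S ζ 1 v := by
    apply mx_inj
    rw [hP.mx_sS hvr, hP.mx_sS hv, sM_one, sM_one]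
    congr 2
    rw [sm, sm]
    exact ((List.reverse_perm v).map _).sum_eq
  have h2 : eS S ζ 1 ε u * eS S ζ 1 ε v = 1 := by
    rw [← hP.eS_append ho]
    exact hP.comb.full _ h
  rw [eS, h1]
  have h3 : ε (sS S ζ 1 v) = (eS S ζ 1 ε u)⁻¹ := (eq_inv_of_mul_eq_one_right h2)
  rw [h3, Subgroup.zpowers_inv]

variable [Finite G] [Fact p.Prime]

/-- the top cycle of a set of frames -/
lemma Pack.t1 (𝕜 : Type w) [Field 𝕜] {ε : S →* G} (hP : Pack p ζ S ε)
    {F : Finset (List (Ln K m))} (hF : F ⊆ Fr K m) (hp : ∀ w ∈ F, ∀ w', w.Perm w' → w' ∈ F)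
    (htF : 0 < AS.t F) (M : Subgroup G) (hM : ∀ u v, u ++ v ∈ F → eS S ζ 1 ε u ∈ M) :
    ∃ w ∈ F, TC 𝕜 p M (De (eS S ζ 1 ε) w) :=
  H945.top_of_comb hP.hm (H945.Comb_mono hP.comb hF hp) htF 𝕜 M hM

/-- the top cycle that commutes with a field automorphism -/
lemma Pack.t2 (𝕜 : Type w) [Field 𝕜] {ε : S →* G} (hP : Pack p ζ S ε) {t : G} {g : GU K m}
    {σ : K ≃+* K}
    (ht : ActsS ε t g σ) (hσ : σ ζ = ζ) {F : Finset (List (Ln K m))} (hF : F ⊆ Fr K m)
    (hp : ∀ w ∈ F, ∀ w', w.Perm w' → w' ∈ F)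
    (hfix : ∀ w ∈ F, ∀ P ∈ w, g.1 * P.1.map σ * star g.1 = P.1)
    (htF : 0 < AS.t F) :
    ∃ w ∈ Fr K m, (∀ a ∈ De (eS S ζ 1 ε) w, t * a = a * t) ∧
      TC 𝕜 p (ε.range ⊓ Subgroup.centralizer ({t} : Set G)) (De (eS S ζ 1 ε) w) := by
  have hcom : ∀ u v : List (Ln K m), u ++ v ∈ F → t * eS S ζ 1 ε u = eS S ζ 1 ε u * t := by
    intro u v h
    refine hP.comm_lit ht hσ (List.pairwise_append.1 ((mem_Fr K).1 (hF h)).2).1 fun P hP => ?_
    exact hfix _ h P (by simp [hP])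
  obtain ⟨w, hw, h1⟩ := hP.t1 𝕜 hF hp htF (ε.range ⊓ Subgroup.centralizer ({t} : Set G))
    (fun u v h => ⟨⟨_, rfl⟩, Subgroup.mem_centralizer_iff.2 (by
        rintro _ rfl
        exact hcom u v h)⟩)
  refine ⟨w, hF hw, fun a ha => ?_, h1⟩
  have h2 : De (eS S ζ 1 ε) w ≤ Subgroup.centralizer ({t} : Set G) := by
    rw [De, Subgroup.closure_le]
    rintro _ ⟨u, v, rfl, rfl⟩
    exact Subgroup.mem_centralizer_iff.2 (by
        rintro _ rfl
        exact hcom u v hw)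
  exact Subgroup.mem_centralizer_iff.1 (h2 ha) t rfl

/-- the top cycle with a conjugate of a field automorphism -/
lemma Pack.t3 (𝕜 : Type w) [Field 𝕜] {ε : S →* G} (hP : Pack p ζ S ε) {t : G} {g₀ : GU K m}
    {σ : K ≃+* K} (ht : ActsS ε t g₀ σ) (hfr : ∀ h ∈ S, g₀ * gmap σ ht.1 h * g₀⁻¹ ∈ S)
    (hσ : σ ζ = ζ) (htp : t ^ p = 1) (htL : t ∉ ε.range) (hcnt : SCntG S g₀ σ) :
    ∃ w ∈ Fr K m, ∃ y, y * t⁻¹ ∈ ε.range ∧ y ^ p = 1 ∧
      (∀ a ∈ De (eS S ζ 1 ε) w, y * a = a * y) ∧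
      TC 𝕜 p (ε.range ⊔ Subgroup.zpowers t) (De (eS S ζ 1 ε) w ⊔ Subgroup.zpowers y) := by
  obtain ⟨F, hF, hp, hfix, hcount⟩ := hcnt
  have hc := hP.comb
  haveI : Finite (Matrix (Fin m) (Fin m) K) := inferInstanceAs (Finite (Fin m → Fin m → K))
  haveI : Finite (GU K m) := Subtype.finite
  haveI : Finite S := Subtype.finite
  have hact : ∀ h : S, t * ε h * t⁻¹ = ε ⟨g₀ * gmap σ ht.1 h.1 * g₀⁻¹, hfr h.1 h.2⟩ := by
    intro h
    exact ht.2 h _ rfl
  have htn : t ∈ Subgroup.normalizer (ε.range : Set G) := by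
    have h1 : ∀ x ∈ ε.range, t * x * t⁻¹ ∈ ε.range := by
      rintro _ ⟨h, rfl⟩
      rw [hact]
      exact ⟨_, rfl⟩
    have h2 : ∀ k : ℕ, ∀ x ∈ ε.range, t ^ k * x * (t ^ k)⁻¹ ∈ ε.range := by
      intro k
      induction k with
      | zero => intro x hx; simpa using hx
      | succ k ih =>
        intro x hx
        have h3 : t ^ (k + 1) * x * (t ^ (k + 1))⁻¹ = t * (t ^ k * x * (t ^ k)⁻¹) * t⁻¹ := by
          rw [pow_succ']; group
        rw [h3]
        exact h1 _ (ih x hx)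
    rw [Subgroup.mem_normalizer_iff]
    intro x
    refine ⟨h1 x, fun hx => ?_⟩
    have h3 := h2 (orderOf t - 1) _ hx
    have h4 : t ^ (orderOf t - 1) = t⁻¹ := by
      rw [eq_inv_iff_mul_eq_one, ← pow_succ, Nat.sub_add_cancel (orderOf_pos t), pow_orderOf_eq_one]
    rw [h4] at h3
    have h5 : t⁻¹ * (t * x * t⁻¹) * t⁻¹⁻¹ = x := by group
    rwa [h5] at h3
  let f : S → G := fun h => ε h * t * (ε h)⁻¹
  haveI : Finite (Set.range f) := Set.finite_range f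
  set Y : Finset G := (Set.finite_range f).toFinset with hY
  have hmem : ∀ y, y ∈ Y ↔ ∃ h : S, ε h * t * (ε h)⁻¹ = y := by
    intro y
    rw [hY, Set.Finite.mem_toFinset]
    exact Iff.rfl
  have hr' : ∀ y : G, ∃ h : S, y ∈ Y → ε h * t * (ε h)⁻¹ = y := by
    intro y
    by_cases h : y ∈ Y
    · obtain ⟨h', hh⟩ := (hmem y).1 h
      exact ⟨h', fun _ => hh⟩
    · exact ⟨1, fun h' => absurd h' h⟩
  choose r hr1 using hr'
  have hεL : ∀ h : S, ε h ∈ ε.range := fun h => ⟨h, rfl⟩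
  let Fy : G → Finset (List (Ln K m)) := fun y => H687.mapW (lnU (r y).1) (lnU_inj _) F
  have hsub : ∀ y, Fy y ⊆ Fr K m := by
    intro y w hw
    obtain ⟨w', hw', rfl⟩ := H687.mem_mapW.1 hw
    exact (mem_Fr_map _).2 (hF hw')
  have hperm : ∀ y, ∀ w ∈ Fy y, ∀ w', w.Perm w' → w' ∈ Fy y := fun y => H687.mapW_perm hp
  have hfixc : ∀ y ∈ Y, ∀ u v : List (Ln K m), u ++ v ∈ Fy y →
      eS S ζ 1 ε u * y = y * eS S ζ 1 ε u := by
    intro y hy u v huv
    obtain ⟨w', hw', h1⟩ := H687.mem_mapW.1 huv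
    obtain ⟨a, b, rfl, rfl, rfl⟩ := List.map_eq_append_iff.1 h1
    have hoa : Orth a := (List.pairwise_append.1 ((mem_Fr K).1 (hF hw')).2).1
    have h2 := hP.comm_lit ht hσ hoa (fun P hP => hfix _ hw' P (by simp [hP]))
    have h3 : eS S ζ 1 ε (a.map (lnU (r y).1)) = ε (r y) * eS S ζ 1 ε a * (ε (r y))⁻¹ := by
      have h4 : sS S ζ 1 (a.map (lnU (r y).1)) = r y * sS S ζ 1 a * (r y)⁻¹ := by
        apply mx_inj
        rw [hP.mx_sS ((Orth_map _).2 hoa), mx_mul, mx_mul, mx_inv, hP.mx_sS hoa, sM_map]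
        rfl
      rw [eS, h4, map_mul, map_mul, map_inv]
      rfl
    have h4 := hr1 y hy
    rw [h3]
    have key : ∀ g e y : G, g * t * g⁻¹ = y → t * e = e * t →
        (g * e * g⁻¹) * y = y * (g * e * g⁻¹) := by
      rintro g e _ rfl h
      calc (g * e * g⁻¹) * (g * t * g⁻¹) = g * (e * t) * g⁻¹ := by group
        _ = g * (t * e) * g⁻¹ := by rw [h]
        _ = _ := by group
    exact key _ _ _ h4 h2
  have hyt : ∀ y ∈ Y, y * t⁻¹ ∈ ε.range := by
    intro y hy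
    obtain ⟨h, rfl⟩ := (hmem y).1 hy
    have h1 : t * (ε h)⁻¹ * t⁻¹ ∈ ε.range :=
      (Subgroup.mem_normalizer_iff.1 htn _).1 (Subgroup.inv_mem _ (hεL h))
    have h2 : ε h * t * (ε h)⁻¹ * t⁻¹ = ε h * (t * (ε h)⁻¹ * t⁻¹) := by group
    rw [h2]
    exact Subgroup.mul_mem _ (hεL h) h1
  have hyp : ∀ y ∈ Y, y ^ p = 1 := by
    intro y hy
    obtain ⟨h, rfl⟩ := (hmem y).1 hy
    rw [conj_pow, htp, mul_one, mul_inv_cancel]
  have hd : H945.SemiData p (Fr K m) (eS S ζ 1 ε) ε.range (ε.range ⊔ Subgroup.zpowers t) Y Fy := by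
    refine ⟨fun u v _ => hεL _, le_sup_left, hyp, ?_, ?_, ?_, fun y _ => hsub y, fun y _ => hperm y,
      fun y hy u v huv => hfixc y hy u v huv⟩
    · intro y hy
      have h1 := hyt y hy
      have h2 : y = (y * t⁻¹) * t := by group
      rw [h2]
      exact Subgroup.mul_mem _ (Subgroup.mem_sup_left h1)
        (Subgroup.mem_sup_right (Subgroup.mem_zpowers t))
    · intro y hy h1
      apply htL
      obtain ⟨h, rfl⟩ := (hmem y).1 hy
      have h2 := Subgroup.mul_mem _ (Subgroup.mul_mem _ (Subgroup.inv_mem _ (hεL h)) h1) (hεL h)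
      have h3 : (ε h)⁻¹ * (ε h * t * (ε h)⁻¹) * ε h = t := by group
      rwa [h3] at h2
    · intro y hy y' hy'
      have h1 := hyt y hy
      have h2 := hyt y' hy'
      have h3 : y⁻¹ * y' = t⁻¹ * ((y * t⁻¹)⁻¹ * (y' * t⁻¹)) * t := by group
      rw [h3]
      have h4 := (Subgroup.mem_normalizer_iff.1 (Subgroup.inv_mem _ htn)
        ((y * t⁻¹)⁻¹ * (y' * t⁻¹))).1 (Subgroup.mul_mem _ (Subgroup.inv_mem _ h1) h2)
      rwa [inv_inv] at h4
  have hcard : (Fr K m).card < m * ∑ y ∈ Y, AS.t (Fy y) := by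
    have h1 : ∀ y ∈ Y, AS.t (Fy y) = AS.t F := fun y _ => H687.t_map _ F
    rw [Finset.sum_congr rfl h1, Finset.sum_const, smul_eq_mul]
    have h2 := H687.card_le_range_mul f
      {h : S | ∃ a : K, g₀.1 * (mx h).map σ * star g₀.1 = a • mx h} (by
      intro g g' hgg
      have hgg' : ε g * t * (ε g)⁻¹ = ε g' * t * (ε g')⁻¹ := hgg
      have h3 : t * ε (g⁻¹ * g') * t⁻¹ = ε (g⁻¹ * g') := by
        rw [map_mul, map_inv]
        calc t * ((ε g)⁻¹ * ε g') * t⁻¹ = (ε g)⁻¹ * (ε g * t * (ε g)⁻¹) * ε g' * t⁻¹ := by group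
          _ = (ε g)⁻¹ * (ε g' * t * (ε g')⁻¹) * ε g' * t⁻¹ := by rw [hgg']
          _ = _ := by group
      rw [hact] at h3
      set x : S := g⁻¹ * g' with hx
      have h4 : ε ((⟨g₀ * gmap σ ht.1 x.1 * g₀⁻¹, hfr x.1 x.2⟩ : S) * x⁻¹) = 1 := by
        rw [map_mul, map_inv, h3, mul_inv_cancel]
      obtain ⟨a, ha⟩ := hP.ker _ h4
      refine ⟨a, ?_⟩
      rw [mx_mul, mx_inv] at ha
      have h5 : mx (⟨g₀ * gmap σ ht.1 x.1 * g₀⁻¹, hfr x.1 x.2⟩ : S) =
        g₀.1 * (mx x).map σ * star g₀.1 := rfl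
      rw [h5] at ha
      calc g₀.1 * (mx x).map σ * star g₀.1
          = g₀.1 * (mx x).map σ * star g₀.1 * (star (mx x) * mx x) := by rw [star_mx, mul_one]
        _ = (g₀.1 * (mx x).map σ * star g₀.1 * star (mx x)) * mx x := by simp only [mul_assoc]
        _ = _ := by rw [ha, smul_mul_assoc, one_mul])
    have h3 : Nat.card (Set.range f) = Y.card := by
      rw [hY, Nat.card_coe_set_eq, Set.ncard_eq_toFinset_card _ (Set.finite_range f)]
    rw [h3] at h2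
    have h4 : (Fr K m).card *
        Nat.card {h : S // ∃ a : K, g₀.1 * (mx h).map σ * star g₀.1 = a • mx h} <
        (m * (Y.card * AS.t F)) *
          Nat.card {h : S // ∃ a : K, g₀.1 * (mx h).map σ * star g₀.1 = a • mx h} := by
      refine hcount.trans_le ?_
      calc m * (Nat.card S * AS.t F)
          ≤ m * ((Y.card * Nat.card {h : S // ∃ a : K, g₀.1 * (mx h).map σ * star g₀.1 =
              a • mx h}) * AS.t F) :=
            Nat.mul_le_mul_left _ (Nat.mul_le_mul_right _ h2)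
        _ = _ := by ring
    exact lt_of_mul_lt_mul_right h4 (Nat.zero_le _)
  obtain ⟨y, hy, w, hw, α, φ, h1, -⟩ := H945.top_of_semi_n hP.hm hc
    (fun u v h => hP.eS_rev h) (fun u v w h => hP.eS_append (by
      have h5 := ((mem_Fr K).1 h).2
      rw [← List.append_assoc] at h5
      exact (List.pairwise_append.1 h5).1)) hd hcard 𝕜
  refine ⟨w, hsub y hw, y, hyt y hy, hyp y hy, fun a ha => ?_, α, φ, ?_⟩
  · have h2 : De (eS S ζ 1 ε) w ≤ Subgroup.centralizer ({y} : Set G) := by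
      rw [De, Subgroup.closure_le]
      rintro _ ⟨u, v, rfl, rfl⟩
      exact Subgroup.mem_centralizer_iff.2 (by
        rintro _ rfl
        exact (hfixc _ hy u v hw).symm)
    exact Subgroup.mem_centralizer_iff.1 (h2 ha) y rfl
  · rw [sup_comm (De (eS S ζ 1 ε) w) (Subgroup.zpowers y)]
    exact h1

end

end

end Vale.Agent.P240.R2.H938
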