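import Vale.Agent.P240.R2.H938.W9

/-!
The assembly, second part, and the theorem.
-/

set_option autoImplicit false
set_option linter.all false

namespace Vale.Agent.P240.R2.H938

open Matrix Vale.Agent.P240.R2.H38 Vale.Agent.P240.K Vale.Agent.P240.R2.H487
open Vale.Agent.P240.R2.AS hiding SU
open Vale.Agent.P240.R2.H402 (RR RR_one RR_add RR_smul det_RR)
open scoped Classical

universe u v w

noncomputable section

section
variable {K : Type u} [Field K] [Fintype K] [StarRing K] {m : ℕ}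
variable {p : ℕ} {ζ : K} {G : Type v} [Group G] {L : Subgroup G} {ε : SU K (m + 1) →* G}

lemma act_pow' {n : ℕ} {ε : SU K n →* G} {y : G} {s : GU K n}
    (hy : ∀ x, y * ε x * y⁻¹ = ε (cjU s x)) (k : ℕ) (x : SU K n) :
    y ^ k * ε x * (y ^ k)⁻¹ = ε (cjU (s ^ k) x) := by
  induction k generalizing x with
  | zero => rw [pow_zero, pow_zero, cjU_one]; group
  | succ k ih =>
    have h1 : y ^ (k + 1) * ε x * (y ^ (k + 1))⁻¹ = y ^ k * (y * ε x * y⁻¹) * (y ^ k)⁻¹ := by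
      rw [pow_succ]; group
    rw [h1, hy, ih, cjU_cjU, ← pow_succ]

/-- the literal form in package II -/
lemma lit2 [Fact p.Prime] (hN : NumD K p (m + 1) ζ) (hII : HII m p K ζ) {t e₁ : G}
    {g : GU K (m + 1)} {σ : K ≃+* K} {a : Fin (m + 1) → K} (ht : ActsS ε t g σ)
    (hg : g.1 = diagonal a) (hσζ : σ ζ = ζ) (hσp : (σ : RingAut K) ^ p = 1)
    (hσ : σ ≠ RingEquiv.refl K) (ha : ∀ i, a i * star (a i) = 1)
    (hprod : ∀ i j, ∏ k ∈ Finset.range p, (σ^[k]) (a i) = ∏ k ∈ Finset.range p, (σ^[k]) (a j))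
    {ζ' : K} {s : GU K (m + 1)} (h1 : ζ' ≠ 1) (h2 : ζ' ^ p = 1)
    (hs : s.1 = diagonal (fun i => if i = Fin.last m then ζ' else 1))
    (hact : ∀ x, e₁ * ε x * e₁⁻¹ = ε (cjU s x)) :
    σ ζ' = ζ' ∧ ∃ (k : ℕ) (u d : GU K (m + 1)) (hd : ActsS (ε.comp (cjU u)) (t * e₁ ^ k) d σ),
      d * gmap σ hd.1 (u⁻¹ * s * u) = (u⁻¹ * s * u) * d ∧ SCntG (SZ K (m + 1) p) d σ := by
  have hp : p.Prime := Fact.out
  haveI : NeZero p := ⟨hp.ne_zero⟩
  have hprim : IsPrimitiveRoot ζ p := by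
    rw [← orderOf_eq_prime hN.pow hN.ne]
    exact IsPrimitiveRoot.orderOf ζ
  have hσζ' : σ ζ' = ζ' := by
    obtain ⟨j, -, hj⟩ := hprim.eq_pow_of_pow_eq_one h2
    rw [← hj, map_pow, hσζ]
  obtain ⟨k, u, d, b, hu, hcnt⟩ := hII σ ht.1 hσp hσ hσζ a ha hprod ζ' h1 h2
  refine ⟨hσζ', k, u, d, ?_⟩
  have hn0 : 0 < m + 1 := Nat.succ_pos m
  have hsσ : gmap σ ht.1 s = s := by
    apply Subtype.ext
    show s.1.map σ = s.1
    rw [hs, diagonal_map (map_zero σ)]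
    congr 1
    funext i
    show σ (if i = Fin.last m then ζ' else 1) = _
    split_ifs
    · exact hσζ'
    · exact map_one σ
  have hsk : gmap σ ht.1 (s ^ k) = s ^ k := by
    apply Subtype.ext
    show (s.1 ^ k).map σ = s.1 ^ k
    have h3 : s.1.map σ = s.1 := congrArg Subtype.val hsσ
    have h4 : ∀ j : ℕ, (s.1 ^ j).map σ = s.1 ^ j := by
      intro j
      induction j with
      | zero => rw [pow_zero, map_one_mat]
      | succ j ih => rw [pow_succ, map_mul_mat, ih, h3]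
    exact h4 k
  have hD : (g * gmap σ ht.1 (s ^ k)).1 =
      diagonal (fun i => a i * (if i = Fin.last m then ζ' ^ k else 1)) := by
    rw [hsk, gu_mul, hg]
    show diagonal a * s.1 ^ k = _
    rw [hs, diagonal_pow, diagonal_mul_diagonal]
    congr 1
    funext i
    show a i * (if i = Fin.last m then ζ' else 1) ^ k = _
    split_ifs
    · rfl
    · rw [one_pow]
  have h3 := acts_tw (acts_mul_refl ht (act_pow' hact k)) u
  have h4 : (u⁻¹ * (g * gmap σ ht.1 (s ^ k)) * gmap σ ht.1 u : GU K (m + 1)).1 = b • d.1 := by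
    rw [gu_mul, gu_mul, gu_inv, gmap_coe, hD, mul_assoc, hu, mul_smul_comm, ← mul_assoc, star_gu,
      one_mul]
  have hd := h3.smul hn0 (a := b) h4
  refine ⟨hd, ?_, hcnt⟩
  have hb : b ≠ 0 := by
    intro h0
    rw [h0, zero_smul] at h4
    have h5 := gu_star (u⁻¹ * (g * gmap σ ht.1 (s ^ k)) * gmap σ ht.1 u : GU K (m + 1))
    rw [h4, zero_mul] at h5
    have h6 := congrFun (congrFun h5 ⟨0, hn0⟩) ⟨0, hn0⟩
    rw [one_apply_eq, Matrix.zero_apply] at h6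
    exact zero_ne_one h6
  -- the matrix equation
  set D : GU K (m + 1) := g * gmap σ ht.1 (s ^ k) with hDdef
  have hDs : D * s = s * D := by
    apply Subtype.ext
    show D.1 * s.1 = s.1 * D.1
    rw [hD, hs, diagonal_mul_diagonal, diagonal_mul_diagonal]
    congr 1
    funext i
    ring
  have h5 : D.1 * (gmap σ ht.1 u).1 = b • (u.1 * d.1) := by
    rw [hD]
    exact hu
  have h6 : gmap σ hd.1 (u⁻¹ * s * u) = (gmap σ ht.1 u)⁻¹ * s * gmap σ ht.1 u := by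
    have h7 : gmap σ ht.1 (u⁻¹ * s * u) = (gmap σ ht.1 u)⁻¹ * gmap σ ht.1 s * gmap σ ht.1 u := by
      apply Subtype.ext
      show (star u.1 * s.1 * u.1).map σ = star (u.1.map σ) * s.1.map σ * u.1.map σ
      rw [map_mul_mat, map_mul_mat, map_star_mat ht.1]
    have h8 : gmap σ hd.1 (u⁻¹ * s * u) = gmap σ ht.1 (u⁻¹ * s * u) := rfl
    rw [h8, h7, hsσ]
  rw [h6]
  have h7 : ∀ x y : GU K (m + 1), b • (u.1 * x.1) = b • (u.1 * y.1) → x = y := by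
    intro x y hxy
    apply Subtype.ext
    have h8 := smul_right_injective _ hb hxy
    have h9 := congrArg (fun A => star u.1 * A) h8
    simp only [← mul_assoc, star_gu, one_mul] at h9
    exact h9
  apply h7
  show b • (u.1 * (d.1 * (star (gmap σ ht.1 u).1 * s.1 * (gmap σ ht.1 u).1))) =
    b • (u.1 * (star u.1 * s.1 * u.1 * d.1))
  calc b • (u.1 * (d.1 * (star (gmap σ ht.1 u).1 * s.1 * (gmap σ ht.1 u).1)))
      = (b • (u.1 * d.1)) * (star (gmap σ ht.1 u).1 * s.1 * (gmap σ ht.1 u).1) := by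
        simp only [smul_mul_assoc, mul_assoc]
    _ = D.1 * ((gmap σ ht.1 u).1 * star (gmap σ ht.1 u).1) * s.1 * (gmap σ ht.1 u).1 := by
        rw [← h5]; simp only [mul_assoc]
    _ = (D.1 * s.1) * (gmap σ ht.1 u).1 := by rw [gu_star, mul_one]
    _ = (s.1 * D.1) * (gmap σ ht.1 u).1 := by
        have h8 : D.1 * s.1 = s.1 * D.1 := congrArg Subtype.val hDs
        rw [h8]
    _ = s.1 * (b • (u.1 * d.1)) := by rw [mul_assoc, h5]
    _ = b • ((u.1 * star u.1) * s.1 * u.1 * d.1) := by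
        rw [gu_star, one_mul, mul_smul_comm, mul_assoc]
    _ = _ := by simp only [mul_assoc]

variable [Finite G] [Fact p.Prime]

/-- (Se) -/
lemma TESe (𝕜 : Type w) [Field 𝕜] (hN : NumD K p (m + 1) ζ) (hε : SHom p L ε)
    (C4 : StmtC4.{u, v}) (ht2 : 0 < AS.t (Fr K (m + 1))) {e : G} (he : e ∈ Qd ε)
    (heM : e ∉ L ⊔ Subgroup.centralizer (L : Set G)) (hep : e ^ p = 1)
    (hec : ∀ a ∈ Au p ε 1, e * a = a * e) :
    ∃ (v : GU K (m + 1)) (e' : G), e' * e⁻¹ ∈ L ∧ e' ^ p = 1 ∧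
      (∀ c ∈ Au p ε v, e' * c = c * e') ∧
      TC 𝕜 p (L ⊔ Subgroup.zpowers e) (Au p ε v ⊔ Subgroup.zpowers e') := by
  obtain ⟨a', ha', ζ', s, k1, k2, k3, k4, k5, k6, k7⟩ := exists_e hN hε C4 he heM hep hec
  obtain ⟨v, e', h1, h2, h3, h4⟩ := coreII1 𝕜 (P2_of hN hε k1 k2 k3 k7 k5 k6 1) (Dg_of k2 k3) ht2
  rw [Au_comp] at h3 h4
  have haL := Au_le ε hε.range _ ha'
  refine ⟨_, e', ?_, h2, h3, ?_⟩
  · have h5 : e' * e⁻¹ = (e' * (e * a')⁻¹) * a' := by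
      rw [hec a' ha']
      group
    rw [h5]
    exact mul_mem h1 haL
  · rwa [sup_zpowers_mul haL] at h4

/-- (S2) -/
lemma TES2 (𝕜 : Type w) [Field 𝕜] (hN : NumD K p (m + 1) ζ) (hε : SHom p L ε)
    (C1 : StmtC1.{u, v}) (C4 : StmtC4.{u, v}) (hII : HII m p K ζ) {e : G} (he : e ∈ Qd ε)
    (heM : e ∉ L ⊔ Subgroup.centralizer (L : Set G)) (hep : e ^ p = 1)
    (hec : ∀ a ∈ Au p ε 1, e * a = a * e) {t : G} (ht : t ∈ Subgroup.normalizer (L : Set G))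
    (htQ : t ∉ Qd ε) (htp : t ^ p = 1) (htc : ∀ a ∈ Au p ε 1, t * a = a * t)
    (het : e * t = t * e) :
    ∃ a ∈ Au p ε 1, ∃ (k : ℕ) (v : GU K (m + 1)) (e' : G), e' * e⁻¹ ∈ L ∧ e' ^ p = 1 ∧
      (∀ c ∈ Au p ε v, e' * c = c * e') ∧
      (∀ c ∈ Au p ε v, (t * e ^ k * a) * c = c * (t * e ^ k * a)) ∧
      (t * e ^ k * a) * e' = e' * (t * e ^ k * a) ∧
      TC 𝕜 p ((L ⊔ Subgroup.zpowers e) ⊓ Subgroup.centralizer ({t * e ^ k * a} : Set G))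
        (Au p ε v ⊔ Subgroup.zpowers e') := by
  obtain ⟨g, σ, a, h1, h2, h3, h4, h5, h6, h7⟩ := exists_t hN hε C1 ht htQ htp htc
  obtain ⟨a', ha', ζ', s, k1, k2, k3, k4, k5, k6, k7⟩ := exists_e hN hε C4 he heM hep hec
  obtain ⟨hσ', k, u, d, hd, hds, hcnt⟩ := lit2 hN hII h1 h2 h3 h4 h5 h6 h7 k1 k2 k3 k4
  have hte : Commute t (e * a') :=
    Commute.mul_right (show Commute t e from het.symm) (show Commute t a' from htc a' ha')
  have hte1 : t * (e * a') ^ k * (e * a') = e * a' * (t * (e * a') ^ k) :=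
    ((hte.mul_left ((Commute.refl (e * a')).pow_left k)).eq)
  obtain ⟨v, e', j1, j2, j3, j4, j5, j6⟩ := coreII2 𝕜 (P2_of hN hε k1 k2 k3 k7 k5 k6 u)
    (Dg_of k2 k3) hd hσ' hte1 hds hcnt
  rw [Au_comp] at j3 j4 j6
  have haL := Au_le ε hε.range _ ha'
  have hk : t * e ^ k * a' ^ k = t * (e * a') ^ k := by
    have h8 : Commute e a' := hec a' ha'
    rw [h8.mul_pow, mul_assoc]
  refine ⟨a' ^ k, pow_mem ha' k, k, _, e', ?_, j2, j3, ?_, ?_, ?_⟩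
  · have h5 : e' * e⁻¹ = (e' * (e * a')⁻¹) * a' := by
      rw [hec a' ha']
      group
    rw [h5]
    exact mul_mem j1 haL
  · rw [hk]; exact j4
  · rw [hk]; exact j5
  · rw [hk]
    rwa [sup_zpowers_mul haL] at j6

/-- (Sett) -/
lemma TESett (𝕜 : Type w) [Field 𝕜] (hN : NumD K p (m + 1) ζ) (hε : SHom p L ε)
    (C1 : StmtC1.{u, v}) (C4 : StmtC4.{u, v}) (hII : HII m p K ζ) {e : G} (he : e ∈ Qd ε)
    (heM : e ∉ L ⊔ Subgroup.centralizer (L : Set G)) (hep : e ^ p = 1)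
    (hec : ∀ a ∈ Au p ε 1, e * a = a * e) {t : G} (ht : t ∈ Subgroup.normalizer (L : Set G))
    (htQ : t ∉ Qd ε) (htp : t ^ p = 1) (htc : ∀ a ∈ Au p ε 1, t * a = a * t)
    (het : e * t = t * e) :
    ∃ (v : GU K (m + 1)) (e' t' : G), e' * e⁻¹ ∈ L ∧ t' * t⁻¹ ∈ L ⊔ Subgroup.zpowers e ∧
      e' ^ p = 1 ∧ t' ^ p = 1 ∧ (∀ c ∈ Au p ε v, e' * c = c * e') ∧
      (∀ c ∈ Au p ε v, t' * c = c * t') ∧ e' * t' = t' * e' ∧
      TC 𝕜 p (L ⊔ Subgroup.zpowers e ⊔ Subgroup.zpowers t)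
        (Au p ε v ⊔ Subgroup.zpowers e' ⊔ Subgroup.zpowers t') := by
  obtain ⟨g, σ, a, h1, h2, h3, h4, h5, h6, h7⟩ := exists_t hN hε C1 ht htQ htp htc
  obtain ⟨a', ha', ζ', s, k1, k2, k3, k4, k5, k6, k7⟩ := exists_e hN hε C4 he heM hep hec
  obtain ⟨hσ', k, u, d, hd, hds, hcnt⟩ := lit2 hN hII h1 h2 h3 h4 h5 h6 h7 k1 k2 k3 k4
  have haL := Au_le ε hε.range _ ha'
  have hte : Commute t (e * a') :=
    Commute.mul_right (show Commute t e from het.symm) (show Commute t a' from htc a' ha')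
  have hte1 : t * (e * a') ^ k * (e * a') = e * a' * (t * (e * a') ^ k) :=
    ((hte.mul_left ((Commute.refl (e * a')).pow_left k)).eq)
  have htk : (t * (e * a') ^ k) ^ p = 1 := by
    rw [(hte.pow_right k).mul_pow, htp, one_mul, ← pow_mul, mul_comm, pow_mul, k5, one_pow]
  have hsup : L ⊔ Subgroup.zpowers (e * a') = L ⊔ Subgroup.zpowers e := sup_zpowers_mul haL
  have hek : (e * a') ^ k ∈ L ⊔ Subgroup.zpowers e := by
    rw [← hsup]
    exact Subgroup.mem_sup_right (pow_mem (Subgroup.mem_zpowers _) k)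
  have hQ : L ⊔ Subgroup.zpowers e ≤ QD ε :=
    sup_le (le_sup_left.trans (le_QD hε.range)) (by rw [Subgroup.zpowers_le]; exact he)
  have hnot : t * (e * a') ^ k ∉ L ⊔ Subgroup.zpowers (e * a') := by
    intro h
    rw [hsup] at h
    apply htQ
    have h8 : t = (t * (e * a') ^ k) * ((e * a') ^ k)⁻¹ := by rw [mul_inv_cancel_right]
    have h9 := hQ (mul_mem h (inv_mem hek))
    rw [← h8] at h9
    exact h9
  obtain ⟨v, e', y, j1, j2, j3, j4, j5, j6, j7, j8⟩ := coreII3 𝕜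
    (P2_of hN hε k1 k2 k3 k7 k5 k6 u) (Dg_of k2 k3) hd hσ' hte1 hds htk hnot hcnt
  rw [Au_comp] at j5 j6 j8
  rw [hsup] at j3 j8
  refine ⟨_, e', y, ?_, ?_, j2, j4, j5, j6, j7, ?_⟩
  · have h5 : e' * e⁻¹ = (e' * (e * a')⁻¹) * a' := by
      rw [hec a' ha']
      group
    rw [h5]
    exact mul_mem j1 haL
  · have h8 : y * t⁻¹ = (y * (t * (e * a') ^ k)⁻¹) * (e * a') ^ k := by
      rw [(hte.pow_right k).eq]
      group
    rw [h8]
    exact mul_mem j3 hek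
  · rwa [sup_zpowers_mul hek] at j8

/-- **The theorem.** -/
theorem locTopF_of_C (𝕜 : Type w) [Field 𝕜] (C1 : StmtC1.{u, v}) (C2 : StmtC2.{u, v})
    (C3 : StmtC3.{u, v}) (C4 : StmtC4.{u, v}) (hN : NumD K p (m + 1) ζ)
    (hI : HI m p K ζ) (hII : HII m p K ζ) (ht1 : 0 < AS.t (Fr K m))
    (ht2 : 0 < AS.t (Fr K (m + 1))) (hε : SHom p L ε) : LocTopF 𝕜 p L := by
  have hu : ∀ u : GU K (m + 1), Au p (ε.comp (cjU u)) 1 = Au p ε u := fun u => by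
    rw [Au_comp, mul_one]
  have hmem : ∀ u v : GU K (m + 1), Au p (ε.comp (cjU u)) v ∈ {A | ∃ u, A = Au p ε u} :=
    fun u v => ⟨u * v, Au_comp ε u v⟩
  refine locTopF_of2 𝕜 (Q := QD ε) (𝒜 := {A | ∃ u, A = Au p ε u}) (N := p ^ (m - 1))
    (le_QD hε.range) (fun x hx => H38.Qd_norm hε.range hx) ⟨_, 1, rfl⟩ ?_ (C2 hN hε).1 ?_ ?_ ?_
    ?_ ?_ ?_ ?_ ?_ ?_ ?_ ?_ ?_
  · rintro _ ⟨u, rfl⟩
    exact ⟨Au_le ε hε.range u, (Au_ApS hN hε u).1, (Au_ApS hN hε u).2⟩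
  · rintro _ ⟨u, rfl⟩ l hl hlp hlc
    rw [← hu u] at hlc ⊢
    exact (C2 hN (hε.tw u)).2 l hl hlp hlc
  · rintro _ ⟨u, rfl⟩ e he x hx hep hxp hex hec hxc heM
    rw [← hu u] at hec hxc
    exact (C3 hN (hε.tw u)).1 e ((Qd_tw u).2 he) x ((Qd_tw u).2 hx) hep hxp hex hec hxc heM
  · rintro _ ⟨u, rfl⟩ t ht x hx htp hxp htx htc hxc htQ
    rw [← hu u] at htc hxc
    obtain ⟨k, hk⟩ := (C3 hN (hε.tw u)).2 t ht x hx htp hxp htx htc hxc
      (fun h => htQ ((Qd_tw u).1 h))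
    exact ⟨k, (Qd_tw u).1 hk⟩
  · obtain ⟨v, h⟩ := TE1 𝕜 hN hε ht1
    exact ⟨_, ⟨v, rfl⟩, h⟩
  · rintro _ ⟨u, rfl⟩ e he heM hep hec
    rw [← hu u] at hec ⊢
    obtain ⟨a, ha, v, h1, h2⟩ := TEe 𝕜 hN (hε.tw u) C4 ht1 ((Qd_tw u).2 he) heM hep hec
    exact ⟨a, ha, _, hmem u v, h1, h2⟩
  · rintro _ ⟨u, rfl⟩ t ht htQ htp htc
    rw [← hu u] at htc ⊢
    obtain ⟨v, h1, h2⟩ := TEt 𝕜 hN (hε.tw u) C1 hI ht (fun h => htQ ((Qd_tw u).1 h)) htp htc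
    refine ⟨1, one_mem _, _, hmem u v, ?_, ?_⟩
    · rw [mul_one]; exact h1
    · rw [mul_one]; exact h2
  · rintro _ ⟨u, rfl⟩ e he heM hep hec t ht htQ htp htc het
    rw [← hu u] at hec htc ⊢
    obtain ⟨a, ha, v, h1, h2, h3⟩ := TEet 𝕜 hN (hε.tw u) C1 C4 hI ((Qd_tw u).2 he) heM hep hec ht
      (fun h => htQ ((Qd_tw u).1 h)) htp htc
    refine ⟨a, ha, 1, one_mem _, 0, _, hmem u v, h1, ?_, ?_⟩
    · rw [pow_zero, mul_one, mul_one]; exact h2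
    · rw [pow_zero, mul_one, mul_one]; exact h3
  · rintro _ ⟨u, rfl⟩ e he heM hep hec
    rw [← hu u] at hec
    obtain ⟨v, e', h1, h2, h3, h4⟩ := TESe 𝕜 hN (hε.tw u) C4 ht2 ((Qd_tw u).2 he) heM hep hec
    exact ⟨_, hmem u v, e', h1, h2, h3, h4⟩
  · rintro _ ⟨u, rfl⟩ e he heM hep hec t ht htQ htp htc het
    rw [← hu u] at hec htc ⊢
    obtain ⟨a, ha, k, v, e', h1, h2, h3, h4, h5, h6⟩ := TES2 𝕜 hN (hε.tw u) C1 C4 hII
      ((Qd_tw u).2 he) heM hep hec ht (fun h => htQ ((Qd_tw u).1 h)) htp htc het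
    exact ⟨a, ha, k, _, hmem u v, e', h1, h2, h3, h4, h5, h6⟩
  · rintro _ ⟨u, rfl⟩ t ht htQ htp htc
    rw [← hu u] at htc
    obtain ⟨v, y, h1, h2, h3, h4⟩ := TESt 𝕜 hN (hε.tw u) C1 hI ht
      (fun h => htQ ((Qd_tw u).1 h)) htp htc
    exact ⟨_, hmem u v, y, h1, h2, h3, h4⟩
  · rintro _ ⟨u, rfl⟩ e he heM hep hec t ht htQ htp htc het
    rw [← hu u] at hec htc ⊢
    obtain ⟨a, ha, v, y, h1, h2, h3, h4, h5, h6⟩ := TESte 𝕜 hN (hε.tw u) C1 C4 hI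
      ((Qd_tw u).2 he) heM hep hec ht (fun h => htQ ((Qd_tw u).1 h)) htp htc het
    exact ⟨a, ha, _, hmem u v, y, h1, h2, h3, h4, h5, h6⟩
  · rintro _ ⟨u, rfl⟩ e he heM hep hec t ht htQ htp htc het
    rw [← hu u] at hec htc
    obtain ⟨v, e', t', h1, h2, h3, h4, h5, h6, h7, h8⟩ := TESett 𝕜 hN (hε.tw u) C1 C4 hII
      ((Qd_tw u).2 he) heM hep hec ht (fun h => htQ ((Qd_tw u).1 h)) htp htc het
    exact ⟨_, hmem u v, e', t', h1, h2, h3, h4, h5, h6, h7, h8⟩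

end

end

end Vale.Agent.P240.R2.H938
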