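import Vale.Agent.P240.R2.H938.W10
import Vale.Agent.P240.R2.H275.EF
import Vale.Agent.P240.R2.H613.EI
import Vale.Agent.P240.R2.H164.Scnt
import Vale.Agent.P240.R2.H38.W2
import Vale.Agent.P240.R2.H487.TF

/-!
`LocTopF` for `PSU_n(q)`, `p` odd, `p ∣ q + 1`, `q` odd.
-/

set_option autoImplicit false
set_option linter.all false

namespace Vale.Agent.P240.R2.H938

open Matrix Vale.Agent.P240.R2.H38 Vale.Agent.P240.K Vale.Agent.P240.R2.H487
open Vale.Agent.P240.R2.AS hiding SU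
open scoped Classical

universe u v w

noncomputable section

section
variable {K : Type u} [Field K] [Fintype K] [StarRing K] {m : ℕ}
variable {p : ℕ} {ζ : K} {G : Type v} [Group G] [Finite G] {L : Subgroup G}
  {ε : SU K (m + 1) →* G}

/-- **`LocTopF`**, from the literal form and the counts. -/
theorem locTopF_D [Fact p.Prime] (𝕜 : Type w) [Field 𝕜] (hN : NumD K p (m + 1) ζ)
    (hI : HI m p K ζ) (hII : HII m p K ζ) (t1 : 0 < AS.t (Fr K m))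
    (t2 : 0 < AS.t (Fr K (m + 1))) (hε : SHom p L ε) : LocTopF 𝕜 p L :=
  locTopF_of_C 𝕜 H38.stmtC1 H38.stmtC2 H38.stmtC3 H275.stmtC4 hN hI hII t1 t2 hε

end

section
variable {K : Type u} [Field K] [Fintype K] [StarRing K] {m n q : ℕ} {p : ℕ}

/-- package I, `p` odd -/
theorem hI_odd (hm : 3 ≤ m) (hq : 3 ≤ q) (hK : Nat.card K = q ^ 2) (hs : ∀ x : K, star x = x ^ q)
    (hp : p.Prime) (hp2 : p ≠ 2) (hpq : p ∣ q + 1) (h38 : ¬ (p = 3 ∧ q = 8)) (ζ : K) :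
    HI m p K ζ := fun σ hσ hσp hσ1 _ a ha hprod =>
  ⟨H38.h90_odd hK hs hp hp2 σ hσ hσp hσ1 a ha hprod,
    SCntG.of (by omega) (H164.scnt_odd hq hK hs hp hp2 hpq h38 hm ⊤ le_top σ hσ hσp hσ1)⟩

/-- package II, `p` odd -/
theorem hII_odd (hm : 3 ≤ m) (hq : 3 ≤ q) (hK : Nat.card K = q ^ 2) (hs : ∀ x : K, star x = x ^ q)
    (hp : p.Prime) (hp2 : p ≠ 2) (hpq : p ∣ q + 1) (h38 : ¬ (p = 3 ∧ q = 8)) (ζ : K) :
    HII m p K ζ := by
  intro σ hσ hσp hσ1 _ a ha hprod ζ' _ _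
  obtain ⟨v, b, hv⟩ := H38.h90_odd hK hs hp hp2 σ hσ hσp hσ1 a ha hprod
  refine ⟨0, v, 1, b, ?_, SCntG.of (by omega) (H164.scnt_odd hq hK hs hp hp2 hpq h38 (by omega)
    (SZ K (m + 1) p) SU_le_SZ σ hσ hσp hσ1)⟩
  have e1 : (fun i => a i * (if i = Fin.last m then ζ' ^ 0 else 1)) = a := by
    funext i
    rw [pow_zero, ite_self, mul_one]
  have e2 : v.1 * ((1 : GU K (m + 1)) : Matrix (Fin (m + 1)) (Fin (m + 1)) K) = v.1 := mul_one v.1
  rw [e1, e2]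
  exact hv

/-- an element of order `p` and norm one -/
theorem exists_zeta (hK : Nat.card K = q ^ 2) (hs : ∀ x : K, star x = x ^ q) (hp : p.Prime)
    (hpq : p ∣ q + 1) : ∃ ζ : K, ζ ^ p = 1 ∧ ζ ≠ 1 ∧ ζ * star ζ = 1 := by
  have hq := H401.one_lt_q (q := q) hK
  haveI : Fact p.Prime := ⟨hp⟩
  have h1 : p ∣ Nat.card Kˣ := by
    rw [Nat.card_units, hK]
    refine hpq.trans ⟨q - 1, ?_⟩
    obtain ⟨m, rfl⟩ : ∃ m, q = m + 2 := ⟨q - 2, by omega⟩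
    have e1 : m + 2 - 1 = m + 1 := by omega
    rw [e1]
    have e2 : (m + 2) ^ 2 = (m + 2 + 1) * (m + 1) + 1 := by ring
    omega
  obtain ⟨x, hx⟩ := exists_prime_orderOf_dvd_card' p h1
  refine ⟨(x : K), ?_, ?_, ?_⟩
  · rw [← Units.val_pow_eq_pow_val, ← hx, pow_orderOf_eq_one, Units.val_one]
  · intro h
    have h2 : x = 1 := Units.ext h
    rw [h2, orderOf_one] at hx
    exact hp.one_lt.ne hx
  · rw [hs, ← pow_succ']
    obtain ⟨k, hk⟩ := hpq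
    rw [hk, ← hx, pow_mul, ← Units.val_pow_eq_pow_val, pow_orderOf_eq_one, Units.val_one, one_pow]

/-- `p` divides `n` when `p * gcd (n, q + 1)` does not divide `q + 1` -/
lemma dvd_of_not (hp : p.Prime) (hpq : p ∣ q + 1) (hno : ¬ p * n.gcd (q + 1) ∣ q + 1) : p ∣ n := by
  by_contra h
  apply hno
  refine Nat.Coprime.mul_dvd_of_dvd_of_dvd ?_ hpq (Nat.gcd_dvd_right _ _)
  rw [Nat.Prime.coprime_iff_not_dvd hp]
  exact fun h1 => h (h1.trans (Nat.gcd_dvd_left _ _))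

end

section
variable {K : Type} [Field K] [Fintype K] [StarRing K] {n q : ℕ} {p : ℕ}
variable {G : Type v} [Group G] [Finite G] {L : Subgroup G}

/-- **`LocTopF` for `PSU_n(q)`**, `p` odd, `q` odd, `n ≥ 5`, `(q + 1) / gcd (n, q + 1)` prime to `p`. -/
theorem locTopF_PSU_D [Fact p.Prime] (𝕜 : Type w) [Field 𝕜] (hn : 5 ≤ n) (hq : 3 < q)
    (hK : Nat.card K = q ^ 2) (hs : ∀ x : K, star x = x ^ q) (h2 : (2 : K) ≠ 0) (hp2 : p ≠ 2)
    (hpq : p ∣ q + 1) (h38 : ¬ (p = 3 ∧ q = 8)) (hno : ¬ p * n.gcd (q + 1) ∣ q + 1)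
    (e : Nonempty (L ≃* PSU K n)) : LocTopF 𝕜 p L := by
  have hp : p.Prime := Fact.out
  obtain ⟨e⟩ := e
  obtain ⟨m, rfl⟩ : ∃ m, n = m + 1 := ⟨n - 1, by omega⟩
  obtain ⟨ε, hε⟩ := H613.EI.sHom_of hq hK hs h2 (by omega) L e.symm p
  obtain ⟨ζ, h1, h3, h4⟩ := exists_zeta hK hs hp hpq
  have hN := H613.EI.numD_of hn (by omega) hK hs hp (dvd_of_not hp hpq hno) hno h1 h3 h4
  exact locTopF_D 𝕜 hN (hI_odd (by omega) (by omega) hK hs hp hp2 hpq h38 ζ)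
    (hII_odd (by omega) (by omega) hK hs hp hp2 hpq h38 ζ) (H38.t_pos (by omega) (by omega) hK hs)
    (H38.t_pos (by omega) (by omega) hK hs) hε

/-- **`LocTopF` for `PSU_n(q)`**, `p` odd, `q > 3` odd, `p ∣ q + 1`, `n ≥ 3`, without the case
`n = p = 3`, `9 ∤ q + 1`. -/
theorem locTopF_PSU_odd [Fact p.Prime] (𝕜 : Type w) [Field 𝕜] (hn : 3 ≤ n) (hq : 3 < q)
    (hqo : Odd q) (hK : Nat.card K = q ^ 2) (hs : ∀ x : K, star x = x ^ q) (hp2 : p ≠ 2)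
    (hpq : p ∣ q + 1) (h33 : ¬ (n = 3 ∧ p = 3 ∧ ¬ 9 ∣ q + 1))
    (e : Nonempty (L ≃* PSU K n)) : LocTopF 𝕜 p L := by
  have hp : p.Prime := Fact.out
  have h38 : ¬ (p = 3 ∧ q = 8) := by
    rintro ⟨-, rfl⟩
    exact absurd hqo (by decide)
  by_cases hno : p * n.gcd (q + 1) ∣ q + 1
  · exact H38.locTopF_PSU 𝕜 hn (by omega) hK hs hno h38 (fun h => absurd h hp2) e
  · have h2 : (2 : K) ≠ 0 := by
      intro h
      have h4 : ((Nat.card K : ℕ) : K) = 0 := by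
        rw [Nat.card_eq_fintype_card]; exact Nat.cast_card_eq_zero K
      rw [hK, Nat.cast_pow] at h4
      have h5 : (q : K) = 0 := (pow_eq_zero_iff two_ne_zero).1 h4
      obtain ⟨m, hm⟩ := hqo
      rw [hm, Nat.cast_add, Nat.cast_mul, Nat.cast_ofNat, Nat.cast_one, h, zero_mul, zero_add] at h5
      exact one_ne_zero h5
    have hpn := dvd_of_not hp hpq hno
    have hn5 : 5 ≤ n := by
      by_contra hlt
      have hp3 : 3 ≤ p := by
        have := hp.two_le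
        omega
      have hn34 : n = 3 ∨ n = 4 := by omega
      rcases hn34 with rfl | rfl
      · have hp33 : p = 3 := le_antisymm (Nat.le_of_dvd (by norm_num) hpn) hp3
        subst hp33
        refine h33 ⟨rfl, rfl, fun h9 => hno ?_⟩
        rw [Nat.gcd_eq_left hpq]
        exact h9
      · have h6 : p = 3 ∨ p = 4 := by
          have := Nat.le_of_dvd (by norm_num) hpn
          omega
        rcases h6 with rfl | rfl
        · exact absurd hpn (by decide)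
        · exact absurd hp (by decide)
    exact locTopF_PSU_D 𝕜 hn5 hq hK hs h2 hp2 hpq h38 hno e

end

/-- `L` is isomorphic to `PSU_n(q)`, where `n ≥ 3`, `q > 3` is odd, `p` is odd, `p ∣ q + 1`, and not
`n = p = 3`, `9 ∤ q + 1`. -/
def PSUFacO (p : ℕ) (L : Type u) [Group L] : Prop :=
  ∃ (n q : ℕ) (K : Type) (_ : Field K) (_ : Fintype K) (_ : StarRing K), Nat.card K = q ^ 2 ∧
    (∀ x : K, star x = x ^ q) ∧ 3 ≤ n ∧ 3 < q ∧ Odd q ∧ p ≠ 2 ∧ p ∣ q + 1 ∧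
    ¬ (n = 3 ∧ p = 3 ∧ ¬ 9 ∣ q + 1) ∧ Nonempty (L ≃* ↥(PSU K n))

theorem PSUFacO.topFac (𝕜 : Type v) [Field 𝕜] {p : ℕ} [Fact p.Prime] {L : Type u} [Group L]
    (h : PSUFacO p L) : TopFac 𝕜 p L := by
  obtain ⟨n, q, K, hF1, hF2, hF3, hK, hs, hn, hq, hqo, hp2, hpq, h33, ⟨e⟩⟩ := h
  intro G _ _ M ⟨f⟩
  exact locTopF_PSU_odd 𝕜 hn hq hqo hK hs hp2 hpq h33 ⟨f.symm.trans e⟩

end

end Vale.Agent.P240.R2.H938
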