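import Vale.Agent.P240.R2.H938.W1

/-!
`PSU_n(q)` when the diagonal elements of order `p` are not all inner: definitions and the list of
statements on coordinates.
-/

set_option autoImplicit false
set_option linter.all false

namespace Vale.Agent.P240.R2.H938

open Matrix Vale.Agent.P240.R2.AS Vale.Agent.P240.R2.H38 Vale.Agent.P240.K
open scoped Classical

universe u v w

noncomputable section

section
variable {K : Type u} [Field K] [Fintype K] [StarRing K] {n : ℕ}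

omit [Fintype K] in
lemma det_conj (u : GU K n) (A : Matrix (Fin n) (Fin n) K) :
    (u.1 * A * star u.1).det = A.det := by
  have h := congrArg det (gu_star u)
  rw [det_mul, det_one] at h
  rw [det_mul, det_mul, mul_right_comm, h, one_mul]

/-- conjugation by a unitary matrix on `SU` -/
def cjU (u : GU K n) : SU K n →* SU K n where
  toFun h := ⟨u * h.1 * u⁻¹, by
    have h1 : (u.1 * h.1.1 * star u.1).det = 1 := by rw [det_conj]; exact h.2
    exact h1⟩
  map_one' := by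
    apply Subtype.ext
    show u * 1 * u⁻¹ = 1
    rw [mul_one, mul_inv_cancel]
  map_mul' a b := by
    apply Subtype.ext
    show u * (a.1 * b.1) * u⁻¹ = (u * a.1 * u⁻¹) * (u * b.1 * u⁻¹)
    group

omit [Fintype K] in
lemma mx_cjU (u : GU K n) (h : SU K n) : mx (cjU u h) = u.1 * mx h * star u.1 := rfl

variable (K) in
/-- the diagonal matrices with entries of order `p`, in a subgroup `S` -/
def TD (p : ℕ) (S : Subgroup (GU K n)) : Subgroup S where
  carrier := {g | ∃ d : Fin n → K, (∀ i, d i ^ p = 1) ∧ mx g = diagonal d}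
  mul_mem' := by
    rintro a b ⟨d, h1, h2⟩ ⟨d', h1', h2'⟩
    exact ⟨fun i => d i * d' i, fun i => by rw [mul_pow, h1, h1', one_mul],
      by rw [mx_mul, h2, h2', diagonal_mul_diagonal]⟩
  one_mem' := ⟨fun _ => 1, fun i => one_pow _, by rw [mx_one, diagonal_one]⟩
  inv_mem' := by
    rintro a ⟨d, h1, h2⟩
    refine ⟨star d, fun i => ?_, ?_⟩
    · rw [Pi.star_apply, ← star_pow, h1, star_one]
    · rw [mx_inv, h2, star_eq_conjTranspose, diagonal_conjTranspose]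

omit [Fintype K] in
lemma mem_TD {p : ℕ} {S : Subgroup (GU K n)} {g : S} :
    g ∈ TD K p S ↔ ∃ d : Fin n → K, (∀ i, d i ^ p = 1) ∧ mx g = diagonal d := Iff.rfl

variable {G : Type v} [Group G]

/-- the elementary abelian subgroup of `L` in the coordinates `u` -/
def Au (p : ℕ) (ε : SU K n →* G) (u : GU K n) : Subgroup G := (TD K p (SU K n)).map (ε.comp (cjU u))

/-- `L` is the image of `SU` modulo scalars; elements of order `p` of the normalizer that commute with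
`Au` act semilinearly -/
structure SHom (p : ℕ) (L : Subgroup G) (ε : SU K n →* G) : Prop where
  range : ε.range = L
  ker : ∀ g : SU K n, ε g = 1 ↔ ∃ a : K, mx g = a • (1 : Matrix (Fin n) (Fin n) K)
  sem : ∀ u : GU K n, ∀ x ∈ Subgroup.normalizer (L : Set G), x ^ p = 1 →
    (∀ y ∈ Au p ε u, x * y = y * x) → ∃ g σ, ActsS ε x g σ

/-- the numbers: `ζ` of order `p`, all scalars of determinant in `⟨ζ⟩` have determinant `1` -/
structure NumD (K : Type u) [Field K] [Fintype K] [StarRing K] (p n : ℕ) (ζ : K) : Prop where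
  hn : 5 ≤ n
  pow : ζ ^ p = 1
  ne : ζ ≠ 1
  st : ζ * star ζ = 1
  dvd : p ∣ n
  no : ∀ b : K, b * star b = 1 → ∀ k : ℕ, b ^ n * ζ ^ k = 1 → ζ ^ k = 1
  uniq : ∀ (u : GU K n) (σ : K ≃+* K), (∀ a, σ (star a) = star (σ a)) →
    (∃ d : Fin n → K, u.1 = diagonal d) →
    (∀ k : SU K n, ∃ a : K, u.1 * (mx k).map σ * star u.1 = a • mx k) →
    (∀ x, σ x = x) ∧ ∃ a : K, u.1 = a • (1 : Matrix (Fin n) (Fin n) K)

/-- the elements that act as unitary matrices -/
def Qd (ε : SU K n →* G) : Set G := {x | ∃ g : GU K n, ∀ h : SU K n, x * ε h * x⁻¹ = ε (cjU g h)}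

/-- (C1) -/
def StmtC1 : Prop :=
  ∀ {K : Type u} [Field K] [Fintype K] [StarRing K] {n p : ℕ} {ζ : K} {G : Type v} [Group G]
    [Finite G] [Fact p.Prime], NumD K p n ζ → ∀ {L : Subgroup G} {ε : SU K n →* G}, SHom p L ε →
    ∀ x ∈ Subgroup.normalizer (L : Set G), x ^ p = 1 → (∀ y ∈ Au p ε 1, x * y = y * x) →
    ∃ (g : GU K n) (σ : K ≃+* K) (a : Fin n → K), ActsS ε x g σ ∧ g.1 = diagonal a ∧ σ ζ = ζ ∧
      (σ : RingAut K) ^ p = 1 ∧ (∀ i, a i * star (a i) = 1) ∧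
      (∀ i j, ∏ k ∈ Finset.range p, (σ^[k]) (a i) = ∏ k ∈ Finset.range p, (σ^[k]) (a j))

/-- (C2) -/
def StmtC2 : Prop :=
  ∀ {K : Type u} [Field K] [Fintype K] [StarRing K] {n p : ℕ} {ζ : K} {G : Type v} [Group G]
    [Finite G] [Fact p.Prime], NumD K p n ζ → ∀ {L : Subgroup G} {ε : SU K n →* G}, SHom p L ε →
    L ⊓ Subgroup.centralizer (L : Set G) = ⊥ ∧
    ∀ l ∈ L, l ^ p = 1 → (∀ y ∈ Au p ε 1, l * y = y * l) → l ∈ Au p ε 1

/-- (C3) -/
def StmtC3 : Prop :=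
  ∀ {K : Type u} [Field K] [Fintype K] [StarRing K] {n p : ℕ} {ζ : K} {G : Type v} [Group G]
    [Finite G] [Fact p.Prime], NumD K p n ζ → ∀ {L : Subgroup G} {ε : SU K n →* G}, SHom p L ε →
    (∀ e ∈ Qd ε, ∀ x ∈ Qd ε, e ^ p = 1 → x ^ p = 1 → e * x = x * e →
      (∀ a ∈ Au p ε 1, e * a = a * e) → (∀ a ∈ Au p ε 1, x * a = a * x) →
      e ∉ L ⊔ Subgroup.centralizer (L : Set G) →
      ∃ k : ℕ, x * e ^ k ∈ L ⊔ Subgroup.centralizer (L : Set G)) ∧
    (∀ t ∈ Subgroup.normalizer (L : Set G), ∀ x ∈ Subgroup.normalizer (L : Set G), t ^ p = 1 →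
      x ^ p = 1 → t * x = x * t → (∀ a ∈ Au p ε 1, t * a = a * t) →
      (∀ a ∈ Au p ε 1, x * a = a * x) → t ∉ Qd ε → ∃ k : ℕ, x * t ^ k ∈ Qd ε)

/-- (C4) -/
def StmtC4 : Prop :=
  ∀ {K : Type u} [Field K] [Fintype K] [StarRing K] {m p : ℕ} {ζ : K} {G : Type v} [Group G]
    [Finite G] [Fact p.Prime], NumD K p (m + 1) ζ → ∀ {L : Subgroup G} {ε : SU K (m + 1) →* G},
    SHom p L ε → ∀ e ∈ Qd ε, e ∉ L ⊔ Subgroup.centralizer (L : Set G) → e ^ p = 1 →
    (∀ a ∈ Au p ε 1, e * a = a * e) →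
    ∃ a ∈ Au p ε 1, ∃ ζ' : K, ζ' ≠ 1 ∧ ζ' ^ p = 1 ∧ ∃ g : GU K (m + 1),
      g.1 = diagonal (fun i => if i = Fin.last m then ζ' else 1) ∧
      ActsS ε (e * a) g (RingEquiv.refl K)

/-- Hilbert 90 for diagonal matrices, with a diagonal change of coordinates (401's `hilb_odd`) -/
def H90D (n : ℕ) (p : ℕ) (K : Type u) [Field K] [StarRing K] : Prop :=
  ∀ σ : K ≃+* K, (∀ a, σ (star a) = star (σ a)) → (σ : RingAut K) ^ p = 1 → σ ≠ RingEquiv.refl K →
    ∀ a : Fin n → K, (∀ i, a i * star (a i) = 1) →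
      (∀ i j, ∏ k ∈ Finset.range p, (σ^[k]) (a i) = ∏ k ∈ Finset.range p, (σ^[k]) (a j)) →
      ∃ (c : K) (b : Fin n → K), c * star c = 1 ∧ (∀ i, b i * star (b i) = 1) ∧
        ∀ i, a i = c * (b i / σ (b i))

/-- (C5) -/
def StmtC5 : Prop :=
  ∀ {K : Type u} [Field K] [Fintype K] [StarRing K] {n p : ℕ} {ζ : K} {G : Type v} [Group G]
    [Finite G] [Fact p.Prime], NumD K p n ζ → H90D n p K → ∀ {L : Subgroup G} {ε : SU K n →* G},
    SHom p L ε → ∀ t ∈ Subgroup.normalizer (L : Set G), t ∉ Qd ε → t ^ p = 1 →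
    (∀ a ∈ Au p ε 1, t * a = a * t) →
    ∃ (u : GU K n) (d : Fin n → K) (σ : K ≃+* K), u.1 = diagonal d ∧
      (∀ a, σ (star a) = star (σ a)) ∧ (σ : RingAut K) ^ p = 1 ∧ σ ≠ RingEquiv.refl K ∧ σ ζ = ζ ∧
      ActsS (ε.comp (cjU u)) t 1 σ

end

end

end Vale.Agent.P240.R2.H938
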