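import Vale.Agent.P240.R2.H938.W2

/-!
The elementary abelian groups of the frames, in coordinates; transport of the combinatorial hypotheses.
-/

set_option autoImplicit false
set_option linter.all false

namespace Vale.Agent.P240.R2.H938

open Matrix Vale.Agent.P240.R2.AS Vale.Agent.P240.R2.H38 Vale.Agent.P240.K
open scoped Classical

universe u v w

noncomputable section

section
variable {K : Type u} [Field K] [Fintype K] [StarRing K] {m : ℕ}
variable {S : Subgroup (GU K m)} {p : ℕ} {ζ : K} {G : Type v} [Group G]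

/-- conjugation by a unitary matrix on a stable subgroup -/
def cjH (hconj : ∀ u : GU K m, ∀ g ∈ S, u * g * u⁻¹ ∈ S) (u : GU K m) : S →* S where
  toFun h := ⟨u * h.1 * u⁻¹, hconj u h.1 h.2⟩
  map_one' := by
    apply Subtype.ext
    show u * 1 * u⁻¹ = 1
    rw [mul_one, mul_inv_cancel]
  map_mul' a b := by
    apply Subtype.ext
    show u * (a.1 * b.1) * u⁻¹ = (u * a.1 * u⁻¹) * (u * b.1 * u⁻¹)
    group

lemma mx_cjH (hconj : ∀ u : GU K m, ∀ g ∈ S, u * g * u⁻¹ ∈ S) (u : GU K m) (h : S) :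
    mx (cjH hconj u h) = u.1 * mx h * star u.1 := rfl

lemma Pack.letter_mem {ε : S →* G} (hP : Pack p ζ S ε) {w : List (Ln K m)} (h : Orth w) {P : Ln K m}
    (hPw : P ∈ w) : eS S ζ 1 ε [P] ∈ De (eS S ζ 1 ε) w := by
  obtain ⟨u, v, rfl⟩ := List.append_of_mem hPw
  have h1 : u ++ P :: v = (u ++ [P]) ++ v := by simp
  have h2 : Orth (u ++ [P]) := by
    rw [h1] at h
    exact (List.pairwise_append.1 h).1
  have h3 : eS S ζ 1 ε [P] = (eS S ζ 1 ε u)⁻¹ * eS S ζ 1 ε (u ++ [P]) := by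
    rw [hP.eS_append h2]; group
  rw [h3]
  refine Subgroup.mul_mem _ (Subgroup.inv_mem _ (Subgroup.subset_closure ⟨u, P :: v, rfl, rfl⟩))
    (Subgroup.subset_closure ⟨u ++ [P], v, h1, rfl⟩)

lemma Pack.word_mem {ε : S →* G} (hP : Pack p ζ S ε) {w : List (Ln K m)} (h : Orth w)
    {H : Subgroup G} (hH : ∀ P ∈ w, eS S ζ 1 ε [P] ∈ H) : eS S ζ 1 ε w ∈ H := by
  induction w with
  | nil =>
    have h1 : sS S ζ 1 ([] : List (Ln K m)) = 1 := by
      apply mx_inj
      rw [hP.mx_sS h, sM_nil, mx_one]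
    rw [eS, h1, map_one]
    exact H.one_mem
  | cons P w ih =>
    have h1 : P :: w = [P] ++ w := rfl
    rw [h1, hP.eS_append (by rw [← h1]; exact h)]
    exact H.mul_mem (hH P (by simp)) (ih (List.pairwise_cons.1 h).2 fun Q hQ => hH Q (by simp [hQ]))

/-- the group of a frame is generated by the letters -/
lemma Pack.De_eq {ε : S →* G} (hP : Pack p ζ S ε) {w : List (Ln K m)} (h : Orth w) :
    De (eS S ζ 1 ε) w = Subgroup.closure {y | ∃ P ∈ w, y = eS S ζ 1 ε [P]} := by
  apply le_antisymm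
  · rw [De, Subgroup.closure_le]
    rintro _ ⟨u, v, rfl, rfl⟩
    exact hP.word_mem (List.pairwise_append.1 h).1 fun P hPu =>
      Subgroup.subset_closure ⟨P, by simp [hPu], rfl⟩
  · rw [Subgroup.closure_le]
    rintro _ ⟨P, hPw, rfl⟩
    exact hP.letter_mem h hPw

lemma Pack.mx_E1_pow {ε : S →* G} (hP : Pack p ζ S ε) (i : Fin m) (k : ℕ) :
    mx (sS S ζ 1 [E1 i] ^ k) = diagonal (fun j => if j = i then ζ ^ k else 1) := by
  induction k with
  | zero => simp [mx_one]
  | succ k ihm =>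
    rw [pow_succ, mx_mul, ihm, hP.mx_sS (List.pairwise_singleton _ _), sM_E1, one_smul,
      diagonal_mul_diagonal]
    congr 1
    funext j
    by_cases hj : j = i
    · simp [hj, pow_succ]
    · simp [hj]

lemma Pack.exists_diag {ε : S →* G} (hP : Pack p ζ S ε) (k : Fin m → ℕ) (T : Finset (Fin m)) :
    ∃ s ∈ Subgroup.closure {y : S | ∃ i, y = sS S ζ 1 [E1 i]},
      mx s = diagonal (fun j => if j ∈ T then ζ ^ k j else 1) := by
  induction T using Finset.induction_on with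
  | empty =>
    refine ⟨1, Subgroup.one_mem _, ?_⟩
    rw [mx_one, ← diagonal_one]
    congr 1
  | insert i T hi ih =>
    obtain ⟨s, hs, hb⟩ := ih
    have h0 : sS S ζ 1 [E1 i] ∈ Subgroup.closure {y : S | ∃ i, y = sS S ζ 1 [E1 i]} :=
      Subgroup.subset_closure ⟨i, rfl⟩
    refine ⟨sS S ζ 1 [E1 i] ^ k i * s, Subgroup.mul_mem _ (Subgroup.pow_mem _ h0 _) hs, ?_⟩
    rw [mx_mul, hP.mx_E1_pow, hb, diagonal_mul_diagonal]
    congr 1
    funext j
    by_cases hj : j = i
    · subst hj; simp [hi]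
    · simp [hj]

/-- the group of the standard frame -/
lemma Pack.De_w0 [Fact p.Prime] {ε : S →* G} (hP : Pack p ζ S ε) (hζ : ζ ^ p = 1) (h1 : ζ ≠ 1) :
    De (eS S ζ 1 ε) (w0 K m) = (TD K p S).map ε := by
  have hp : p.Prime := Fact.out
  haveI : NeZero p := ⟨hp.ne_zero⟩
  rw [hP.De_eq E1_orth]
  apply le_antisymm
  · rw [Subgroup.closure_le]
    rintro _ ⟨P, hPw, rfl⟩
    rw [w0, List.mem_ofFn] at hPw
    obtain ⟨i, rfl⟩ := hPw
    refine ⟨sS S ζ 1 [E1 i], ⟨fun j => if j = i then ζ else 1, fun j => ?_, ?_⟩, rfl⟩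
    · by_cases hj : j = i
      · simp [hj, hζ]
      · simp [hj]
    · have := hP.mx_E1_pow i 1
      rwa [pow_one, pow_one] at this
  · rintro _ ⟨g, ⟨d, hd, hg⟩, rfl⟩
    have hprim : IsPrimitiveRoot ζ p := by
      rw [← orderOf_eq_prime hζ h1]
      exact IsPrimitiveRoot.orderOf ζ
    have h3 : ∀ i, ∃ k : ℕ, d i = ζ ^ k := by
      intro i
      obtain ⟨k, -, hk⟩ := hprim.eq_pow_of_pow_eq_one (hd i)
      exact ⟨k, hk.symm⟩
    choose k hk using h3
    obtain ⟨s, hs, hb⟩ := hP.exists_diag k Finset.univ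
    simp only [Finset.mem_univ, if_true] at hb
    have h4 : g = s := by
      apply mx_inj
      rw [hg, hb]
      congr 1
      funext i
      exact hk i
    rw [h4]
    have h5 : Subgroup.closure {y : S | ∃ i, y = sS S ζ 1 [E1 i]} ≤
        (Subgroup.closure {y | ∃ P ∈ w0 K m, y = eS S ζ 1 ε [P]}).comap ε := by
      rw [Subgroup.closure_le]
      rintro _ ⟨i, rfl⟩
      exact Subgroup.subset_closure ⟨E1 i, E1_mem i, rfl⟩
    exact h5 hs

/-- the group of any frame -/
lemma Pack.De_map (hconj : ∀ u : GU K m, ∀ g ∈ S, u * g * u⁻¹ ∈ S) [Fact p.Prime] {ε : S →* G}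
    (hP : Pack p ζ S ε) (hζ : ζ ^ p = 1) (h1 : ζ ≠ 1) (v : GU K m) :
    De (eS S ζ 1 ε) ((w0 K m).map (lnU v)) = (TD K p S).map (ε.comp (cjH hconj v)) := by
  have hcj : ∀ {w : List (Ln K m)}, Orth w →
      sS S ζ 1 (w.map (lnU v)) = cjH hconj v (sS S ζ 1 w) := by
    intro w hw
    apply mx_inj
    rw [hP.mx_sS ((Orth_map _).2 hw), mx_cjH, hP.mx_sS hw, sM_map]
  have h2 : Subgroup.closure {y | ∃ P ∈ (w0 K m).map (lnU v), y = eS S ζ 1 ε [P]} =
      Subgroup.closure {y | ∃ P ∈ w0 K m, y = eS S ζ 1 (ε.comp (cjH hconj v)) [P]} := by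
    congr 1
    ext y
    constructor
    · rintro ⟨P, hPw, rfl⟩
      obtain ⟨Q, hQ, rfl⟩ := List.mem_map.1 hPw
      refine ⟨Q, hQ, ?_⟩
      have h3 := hcj (w := [Q]) (List.pairwise_singleton _ _)
      have h4 : [lnU v Q] = [Q].map (lnU v) := rfl
      rw [eS, eS, h4, h3]
      rfl
    · rintro ⟨Q, hQ, rfl⟩
      refine ⟨lnU v Q, List.mem_map_of_mem hQ, ?_⟩
      have h3 := hcj (w := [Q]) (List.pairwise_singleton _ _)
      have h4 : [lnU v Q] = [Q].map (lnU v) := rfl
      rw [eS, eS, h4, h3]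
      rfl
  rw [hP.De_eq ((Orth_map _).2 E1_orth), h2]
  -- the closure of the letters, for the conjugated homomorphism
  have hp : p.Prime := Fact.out
  haveI : NeZero p := ⟨hp.ne_zero⟩
  apply le_antisymm
  · rw [Subgroup.closure_le]
    rintro _ ⟨P, hPw, rfl⟩
    rw [w0, List.mem_ofFn] at hPw
    obtain ⟨i, rfl⟩ := hPw
    refine ⟨sS S ζ 1 [E1 i], ⟨fun j => if j = i then ζ else 1, fun j => ?_, ?_⟩, rfl⟩
    · by_cases hj : j = i
      · simp [hj, hζ]
      · simp [hj]
    · have := hP.mx_E1_pow i 1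
      rwa [pow_one, pow_one] at this
  · rintro _ ⟨g, ⟨d, hd, hg⟩, rfl⟩
    have hprim : IsPrimitiveRoot ζ p := by
      rw [← orderOf_eq_prime hζ h1]
      exact IsPrimitiveRoot.orderOf ζ
    have h3 : ∀ i, ∃ k : ℕ, d i = ζ ^ k := by
      intro i
      obtain ⟨k, -, hk⟩ := hprim.eq_pow_of_pow_eq_one (hd i)
      exact ⟨k, hk.symm⟩
    choose k hk using h3
    obtain ⟨s, hs, hb⟩ := hP.exists_diag k Finset.univ
    simp only [Finset.mem_univ, if_true] at hb
    have h4 : g = s := by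
      apply mx_inj
      rw [hg, hb]
      congr 1
      funext i
      exact hk i
    rw [h4]
    have h5 : Subgroup.closure {y : S | ∃ i, y = sS S ζ 1 [E1 i]} ≤
        (Subgroup.closure {y | ∃ P ∈ w0 K m, y = eS S ζ 1 (ε.comp (cjH hconj v)) [P]}).comap
          (ε.comp (cjH hconj v)) := by
      rw [Subgroup.closure_le]
      rintro _ ⟨i, rfl⟩
      exact Subgroup.subset_closure ⟨E1 i, E1_mem i, rfl⟩
    exact h5 hs

end

section comb
variable {K : Type u} [Field K] [Fintype K] [StarRing K] {m n p : ℕ} {G : Type v} [Group G]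

/-- transport of the combinatorial hypotheses from `PGU` to `G` -/
lemma comb_lift [Fact p.Prime] {ζ : K} (hne : ζ ≠ 1) (hst : ζ * star ζ = 1)
    {S : Subgroup (GU K n)} {ε : S →* G}
    (hker : ∀ g : S, ε g = 1 ↔ ∃ a : K, mx g = a • (1 : Matrix (Fin n) (Fin n) K))
    (s : List (Ln K m) → S) (hc : Comb p m (Fr K m) (fun w => (QuotientGroup.mk (s w).1 : PGU K n))) :
    Comb p m (Fr K m) (fun w => ε (s w)) := by
  let π : S →* PGU K n := (QuotientGroup.mk' (Subgroup.center (GU K n))).comp S.subtype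
  have hπ : ∀ g : S, π g = 1 ↔ ∃ a : K, mx g = a • (1 : Matrix (Fin n) (Fin n) K) := by
    intro g
    have h1 : π g = 1 ↔ g.1 ∈ Subgroup.center (GU K n) := QuotientGroup.eq_one_iff g.1
    rw [h1, H296.mem_center_iff hne hst]
    exact Iff.rfl
  have hk : ε.ker ≤ π.ker := by
    intro g hg
    rw [MonoidHom.mem_ker] at hg ⊢
    exact (hπ g).2 ((hker g).1 hg)
  let f : S ⧸ ε.ker →* PGU K n := QuotientGroup.lift ε.ker π hk
  have hf : Function.Injective f := by
    rw [injective_iff_map_eq_one]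
    intro a
    obtain ⟨g, rfl⟩ := QuotientGroup.mk_surjective a
    intro h1
    have h2 : π g = 1 := h1
    exact (QuotientGroup.eq_one_iff g).2 ((hker g).2 ((hπ g).1 h2))
  have h1 : Comb p m (Fr K m) (fun w => (QuotientGroup.mk (s w) : S ⧸ ε.ker)) :=
    comb_of f hf (fun w hw => rfl) hc
  exact comb_map h1 (QuotientGroup.kerLift ε) (QuotientGroup.kerLift_injective ε)

end comb

end

end Vale.Agent.P240.R2.H938
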