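import Vale.Agent.P240.R2.H938.W3
import Vale.Agent.P240.R2.H402.A2

/-!
Package I: the unitary group of the orthogonal complement of the last coordinate line.
-/

set_option autoImplicit false
set_option linter.all false

namespace Vale.Agent.P240.R2.H938

open Matrix Vale.Agent.P240.R2.H38 Vale.Agent.P240.K
open Vale.Agent.P240.R2.AS hiding SU
open Vale.Agent.P240.R2.H402 (RR RR_one RR_add RR_smul det_RR Jm Jm_iso eJ EJ EJ_val RR_val up)
open scoped Classical

universe u v w

noncomputable section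

section RR
variable {K : Type u} [Field K] [Fintype K] [StarRing K] {m : ℕ}

omit [Fintype K] in
lemma RR_mul (A B : Matrix (Fin m) (Fin m) K) (c d : K) : RR A c * RR B d = RR (A * B) (c * d) := by
  have h : (Matrix.of fun _ _ : Fin 1 => (c : K)) * (Matrix.of fun _ _ : Fin 1 => (d : K)) =
      Matrix.of fun _ _ : Fin 1 => (c * d : K) := by
    ext i j
    simp [mul_apply]
  rw [RR, RR, RR, reindex_apply, reindex_apply, reindex_apply, submatrix_mul_equiv,
    fromBlocks_multiply, h]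
  simp

omit [Fintype K] in
lemma RR_star (A : Matrix (Fin m) (Fin m) K) (c : K) : star (RR A c) = RR (star A) (star c) := by
  have h : (Matrix.of fun _ _ : Fin 1 => (c : K))ᴴ = Matrix.of fun _ _ : Fin 1 => (star c : K) := by
    ext i j
    simp
  rw [RR, RR, star_eq_conjTranspose, reindex_apply, reindex_apply, conjTranspose_submatrix,
    fromBlocks_conjTranspose, h]
  simp [star_eq_conjTranspose]

omit [Fintype K] [StarRing K] in
lemma RR_map (σ : K ≃+* K) (A : Matrix (Fin m) (Fin m) K) (c : K) :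
    (RR A c).map σ = RR (A.map σ) (σ c) := by
  have h : (Matrix.of fun _ _ : Fin 1 => (c : K)).map σ = Matrix.of fun _ _ : Fin 1 => (σ c : K) := by
    ext i j
    simp
  rw [RR, RR, reindex_apply, reindex_apply, ← submatrix_map, fromBlocks_map, h]
  simp

omit [Fintype K] [StarRing K] in
lemma RR_inj {A B : Matrix (Fin m) (Fin m) K} {c d : K} (h : RR A c = RR B d) : A = B ∧ c = d := by
  rw [RR, RR] at h
  have h1 := (Matrix.reindex finSumFinEquiv finSumFinEquiv).injective h
  rw [fromBlocks_inj] at h1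
  exact ⟨h1.1, congrFun (congrFun h1.2.2.2 0) 0⟩

lemma RR_smul_one (a : K) : a • (1 : Matrix (Fin (m + 1)) (Fin (m + 1)) K) = RR (a • 1) a := by
  have h := RR_smul (1 : Matrix (Fin m) (Fin m) K) 1 a
  rw [RR_one, mul_one] at h
  exact h.symm

omit [Fintype K] [StarRing K] in
lemma RR_diagonal (d : Fin m → K) (c : K) : RR (diagonal d) c =
    diagonal (fun i => Sum.elim d (fun _ => c) (finSumFinEquiv.symm i)) := by
  have h : (Matrix.of fun _ _ : Fin 1 => (c : K)) = diagonal (fun _ : Fin 1 => c) := by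
    ext i j
    rw [Subsingleton.elim i j, diagonal_apply_eq]
    rfl
  rw [RR, h, fromBlocks_diagonal, reindex_apply, submatrix_diagonal_equiv]
  rfl

/-- block matrices in the unitary group -/
def rr (v : GU K m) (c : K) (hc : c * star c = 1) : GU K (m + 1) :=
  ⟨RR v.1 c, by
    rw [Matrix.mem_unitaryGroup_iff, RR_star, RR_mul, gu_star, hc, RR_one]⟩

lemma rr_coe (v : GU K m) (c : K) (hc : c * star c = 1) : (rr v c hc).1 = RR v.1 c := rfl

omit [Fintype K] in
lemma det_norm (v : GU K m) : v.1.det * star v.1.det = 1 := by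
  have h := congrArg det (gu_star v)
  rw [det_mul, det_one, star_eq_conjTranspose, det_conjTranspose] at h
  exact h

/-- the embedding of the unitary group in `SU` -/
def jj : (⊤ : Subgroup (GU K m)) →* SU K (m + 1) where
  toFun g := ⟨rr g.1 (star g.1.1.det) (by rw [star_star, mul_comm]; exact det_norm g.1), by
    show (RR g.1.1 (star g.1.1.det)).det = 1
    rw [det_RR]
    exact det_norm g.1⟩
  map_one' := by
    apply Subtype.ext
    apply Subtype.ext
    show RR (1 : Matrix (Fin m) (Fin m) K) (star (1 : Matrix (Fin m) (Fin m) K).det) = 1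
    rw [det_one, star_one, RR_one]
  map_mul' a b := by
    apply Subtype.ext
    apply Subtype.ext
    show RR (a.1.1 * b.1.1) (star (a.1.1 * b.1.1).det) =
      RR a.1.1 (star a.1.1.det) * RR b.1.1 (star b.1.1.det)
    rw [RR_mul, det_mul, star_mul']

lemma mx_jj (g : (⊤ : Subgroup (GU K m))) : mx (jj g) = RR (mx g) (star (mx g).det) := rfl

end RR

section
variable {K : Type u} [Field K] [Fintype K] [StarRing K] {m : ℕ}
variable {p : ℕ} {ζ : K} {G : Type v} [Group G]

lemma top_mem (hst : ζ * star ζ = 1) {w : List (Ln K m)} (h : Orth w) :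
    ∃ g : (⊤ : Subgroup (GU K m)), mx g = sM ζ 1 w := by
  refine ⟨⟨eU ζ (sm w), trivial⟩, ?_⟩
  rw [sM_one]
  exact H687.eU_val (H687.isPr_sm h) hst

lemma det_sM {w : List (Ln K m)} (h : Orth w) : (sM ζ 1 w).det = ζ ^ w.length := by
  rw [sM_one]
  exact H402.det_word ζ h

/-- **Package I.** -/
theorem pack_top [hp : Fact p.Prime] (hζp : ζ ^ p = 1) (hζ1 : ζ ≠ 1) (hζ : ζ * star ζ = 1)
    (hm : 2 ≤ m) (hpm : p ∣ m + 1) {ε : SU K (m + 1) →* G}
    (hker : ∀ g : SU K (m + 1), ε g = 1 ↔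
      ∃ a : K, mx g = a • (1 : Matrix (Fin (m + 1)) (Fin (m + 1)) K)) :
    Pack p ζ (⊤ : Subgroup (GU K m)) (ε.comp jj) := by
  have hζ0 : ζ ≠ 0 := left_ne_zero_of_mul_eq_one hζ
  have hst : star ζ = ζ⁻¹ := eq_inv_of_mul_eq_one_right hζ
  have hη : ζ⁻¹ * star ζ⁻¹ = 1 := by
    rw [star_inv₀, ← _root_.mul_inv_rev, mul_comm (star ζ) ζ, hζ, inv_one]
  have hηp : ζ⁻¹ ^ p = 1 := by rw [inv_pow, hζp, inv_one]
  have hfull : (ζ⁻¹) ^ m = ζ := by
    obtain ⟨k, hk⟩ := hpm
    have h1 : (ζ⁻¹) ^ (m + 1) = 1 := by rw [hk, pow_mul, hηp, one_pow]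
    rw [pow_succ] at h1
    have h2 : (ζ⁻¹) ^ m * ζ⁻¹ * ζ = ζ := by rw [h1, one_mul]
    rwa [mul_assoc, inv_mul_cancel₀ hζ0, mul_one] at h2
  have hsS : ∀ {w : List (Ln K m)}, Orth w →
      mx (sS (⊤ : Subgroup (GU K m)) ζ 1 w) = sM ζ 1 w := by
    intro w h
    rw [sS, dif_pos (top_mem hζ h)]
    exact (top_mem hζ h).choose_spec
  refine ⟨hm, fun w h => top_mem hζ h, ?_, ?_⟩
  · refine comb_lift hζ1 hζ hker (fun w => jj (sS (⊤ : Subgroup (GU K m)) ζ 1 w)) ?_
    refine H402.comb_gen (J := Jm K m) (η := ζ⁻¹) Jm_iso hζ hη hζ1 (fun w hw => ?_) hζp hηp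
      (by omega) (by rw [hfull])
    refine congrArg QuotientGroup.mk (Subtype.ext ?_)
    show mx (jj (sS (⊤ : Subgroup (GU K m)) ζ 1 w)) = _
    rw [mx_jj, hsS hw, det_sM hw, EJ_val Jm_iso hζ hη hw, sM_one, RR_val, star_pow, hst]
    congr 3
    simp [up]
  · intro g hg
    obtain ⟨a, ha⟩ := (hker (jj g)).1 hg
    rw [mx_jj, RR_smul_one] at ha
    exact ⟨a, (RR_inj ha).1⟩

/-- the action on the embedded group -/
lemma acts_jj {ε : SU K (m + 1) →* G} {t : G} {g : GU K (m + 1)} {v : GU K m} {c : K}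
    (hc : c * star c = 1) (hg : g.1 = RR v.1 c) {σ : K ≃+* K} (ht : ActsS ε t g σ) :
    ActsS (ε.comp jj) t v σ := by
  refine ⟨ht.1, fun h h' hh => ht.2 (jj h) (jj h') ?_⟩
  have hdet : (mx h').det = σ (mx h).det := by
    rw [hh, det_conj]
    exact (RingEquiv.map_det σ (mx h)).symm
  rw [mx_jj, mx_jj, hdet, hg, RR_map, RR_star, RR_mul, RR_mul, ← hh]
  congr 1
  rw [ht.1, mul_right_comm, hc, one_mul]

end

end

end Vale.Agent.P240.R2.H938
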