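import Vale.Agent.P240.R2.H938.W4

/-!
The elementary abelian groups of package I.
-/

set_option autoImplicit false
set_option linter.all false

namespace Vale.Agent.P240.R2.H938

open Matrix Vale.Agent.P240.R2.H38 Vale.Agent.P240.K
open Vale.Agent.P240.R2.AS hiding SU
open Vale.Agent.P240.R2.H402 (RR RR_one RR_add RR_smul det_RR)
open scoped Classical

universe u v w

noncomputable section

section
variable {K : Type u} [Field K] [Fintype K] [StarRing K] {m n : ℕ}
variable {p : ℕ} {ζ : K} {G : Type v} [Group G]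

/-- diagonal unitary matrices -/
def dgU (d : Fin n → K) (hd : ∀ i, d i * star (d i) = 1) : GU K n :=
  ⟨diagonal d, by
    rw [Matrix.mem_unitaryGroup_iff, star_eq_conjTranspose, diagonal_conjTranspose,
      diagonal_mul_diagonal, ← diagonal_one]
    congr 1
    funext i
    exact hd i⟩

lemma dgU_coe (d : Fin n → K) (hd : ∀ i, d i * star (d i) = 1) : (dgU d hd).1 = diagonal d := rfl

lemma norm_of_diag {u : GU K n} {d : Fin n → K} (h : u.1 = diagonal d) (i : Fin n) :
    d i * star (d i) = 1 := by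
  have h3 := gu_star u
  rw [h, star_eq_conjTranspose, diagonal_conjTranspose, diagonal_mul_diagonal, ← diagonal_one] at h3
  exact congrFun (diagonal_injective h3) i

lemma top_conj : ∀ u : GU K m, ∀ g ∈ (⊤ : Subgroup (GU K m)), u * g * u⁻¹ ∈ (⊤ : Subgroup (GU K m)) :=
  fun _ _ _ => trivial

lemma jj_cjH (v : GU K m) (g : (⊤ : Subgroup (GU K m))) :
    jj (cjH top_conj v g) = cjU (rr v 1 (by simp)) (jj g) := by
  apply Subtype.ext
  apply Subtype.ext
  show mx (jj (cjH top_conj v g)) = mx (cjU (rr v 1 (by simp)) (jj g))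
  rw [mx_jj, mx_cjH, mx_cjU, mx_jj, rr_coe, RR_star, RR_mul, RR_mul, det_conj, star_one, one_mul,
    mul_one]

lemma map_TD_top : (TD K p (⊤ : Subgroup (GU K m))).map jj = TD K p (SU K (m + 1)) := by
  apply le_antisymm
  · rintro _ ⟨g, ⟨d, h1, h2⟩, rfl⟩
    refine ⟨fun i => Sum.elim d (fun _ => star (∏ i, d i)) (finSumFinEquiv.symm i), fun i => ?_, ?_⟩
    · obtain ⟨j, rfl⟩ := finSumFinEquiv.surjective i
      simp only [Equiv.symm_apply_apply]
      rcases j with j | j
      · exact h1 j
      · show star (∏ i, d i) ^ p = 1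
        rw [← star_pow, ← Finset.prod_pow, Finset.prod_congr rfl fun i _ => h1 i,
          Finset.prod_const_one, star_one]
    · rw [mx_jj, h2, det_diagonal, RR_diagonal]
  · rintro g ⟨d', h1, h2⟩
    have hn : ∀ i, d' i * star (d' i) = 1 := norm_of_diag (u := g.1) h2
    set d : Fin m → K := fun i => d' (finSumFinEquiv (Sum.inl i)) with hd
    set c : K := d' (finSumFinEquiv (Sum.inr 0)) with hc
    have hd' : diagonal d' = RR (diagonal d) c := by
      rw [RR_diagonal]
      congr 1
      funext i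
      obtain ⟨j, rfl⟩ := finSumFinEquiv.surjective i
      rw [Equiv.symm_apply_apply]
      rcases j with j | j
      · rfl
      · rw [Subsingleton.elim j 0]
        rfl
    have hdet : (∏ i, d i) * c = 1 := by
      have h3 : (mx g).det = 1 := g.2
      rw [h2, hd', det_RR, det_diagonal] at h3
      exact h3
    have hcn : c * star c = 1 := hn _
    have hc2 : c = star (∏ i, d i) := by
      have h4 : star (∏ i, d i) * star c = 1 := by rw [← star_mul', hdet, star_one]
      have h5 : star c ≠ 0 := right_ne_zero_of_mul_eq_one h4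
      apply mul_right_cancel₀ h5
      rw [hcn, h4]
    refine ⟨⟨dgU d (fun i => hn _), trivial⟩, ⟨d, fun i => h1 _, rfl⟩, ?_⟩
    apply mx_inj
    rw [mx_jj, h2, hd', hc2]
    have h6 : mx (⟨dgU d (fun i => hn _), trivial⟩ : (⊤ : Subgroup (GU K m))) = diagonal d := rfl
    rw [h6, det_diagonal]

/-- the group of a frame of the complement -/
lemma Au_jj (ε : SU K (m + 1) →* G) (v : GU K m) :
    (TD K p (⊤ : Subgroup (GU K m))).map ((ε.comp jj).comp (cjH top_conj v)) =
      Au p ε (rr v 1 (by simp)) := by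
  have h : (ε.comp jj).comp (cjH top_conj v) = (ε.comp (cjU (rr v 1 (by simp)))).comp jj := by
    ext g
    show ε (jj (cjH top_conj v g)) = ε (cjU (rr v 1 (by simp)) (jj g))
    rw [jj_cjH]
  rw [h, Au, ← map_TD_top, Subgroup.map_map]

/-- changes of coordinates compose -/
lemma cjU_cjU (u u' : GU K n) (h : SU K n) : cjU u (cjU u' h) = cjU (u * u') h := by
  apply Subtype.ext
  show u * (u' * h.1 * u'⁻¹) * u⁻¹ = (u * u') * h.1 * (u * u')⁻¹
  group

lemma comp_cjU (ε : SU K n →* G) (u u' : GU K n) :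
    (ε.comp (cjU u)).comp (cjU u') = ε.comp (cjU (u * u')) := by
  ext h
  show ε (cjU u (cjU u' h)) = ε (cjU (u * u') h)
  rw [cjU_cjU]

lemma Au_comp (ε : SU K n →* G) (u u' : GU K n) : Au p (ε.comp (cjU u)) u' = Au p ε (u * u') := by
  rw [Au, Au, comp_cjU]

lemma cjU_one (h : SU K n) : cjU (1 : GU K n) h = h := by
  apply Subtype.ext
  show 1 * h.1 * 1⁻¹ = h.1
  group

lemma comp_cjU_one (ε : SU K n →* G) : ε.comp (cjU 1) = ε := by
  ext h
  show ε (cjU 1 h) = ε h
  rw [cjU_one]

/-- diagonal changes of coordinates do not change the group -/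
lemma Au_diag (ε : SU K n →* G) {u : GU K n} {d : Fin n → K} (hu : u.1 = diagonal d) (u' : GU K n) :
    Au p ε (u' * u) = Au p ε u' := by
  have h : ∀ g ∈ TD K p (SU K n), cjU u g = g := by
    rintro g ⟨d', h1, h2⟩
    apply mx_inj
    rw [mx_cjU, h2, hu, diagonal_mul_diagonal, star_eq_conjTranspose, diagonal_conjTranspose,
      diagonal_mul_diagonal]
    congr 1
    funext i
    have := norm_of_diag hu i
    calc d i * d' i * star d i = (d i * star (d i)) * d' i := by
          rw [Pi.star_apply]; ring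
      _ = d' i := by rw [this, one_mul]
  have h2 : ∀ g ∈ TD K p (SU K n), cjU (u' * u) g = cjU u' g := by
    intro g hg
    rw [← cjU_cjU, h g hg]
  ext y
  constructor
  · rintro ⟨g, hg, rfl⟩
    exact ⟨g, hg, by show ε (cjU u' g) = ε (cjU (u' * u) g); rw [h2 g hg]⟩
  · rintro ⟨g, hg, rfl⟩
    exact ⟨g, hg, by show ε (cjU (u' * u) g) = ε (cjU u' g); rw [h2 g hg]⟩

end

end

end Vale.Agent.P240.R2.H938
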