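import Vale.Agent.P240.R2.H938.W6
import Vale.Agent.P240.R2.H275.C45
import Vale.Agent.P240.R2.H38.V6

/-!
The top cycles of the two packages.
-/

set_option autoImplicit false
set_option linter.all false

namespace Vale.Agent.P240.R2.H938

open Matrix Vale.Agent.P240.R2.H38 Vale.Agent.P240.K
open Vale.Agent.P240.R2.AS hiding SU
open Vale.Agent.P240.R2.H402 (RR RR_one RR_add RR_smul det_RR)
open scoped Classical

universe u v w

noncomputable section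

section
variable {K : Type u} [Field K] [Fintype K] [StarRing K] {n : ℕ}
variable {p : ℕ} {ζ : K} {G : Type v} [Group G]

/-- change of coordinates -/
lemma acts_tw {ε : SU K n →* G} {x : G} {g : GU K n} {σ : K ≃+* K} (h : ActsS ε x g σ)
    (u : GU K n) : ActsS (ε.comp (cjU u)) x (u⁻¹ * g * gmap σ h.1 u) σ := by
  refine ⟨h.1, fun a b hab => ?_⟩
  refine h.2 (cjU u a) (cjU u b) ?_
  rw [mx_cjU, mx_cjU, hab, gu_mul, gu_mul, gu_inv, gmap_coe, map_mul_mat, map_mul_mat,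
    map_star_mat h.1, star_mul, star_mul, star_star]
  calc u.1 * (star u.1 * g.1 * u.1.map σ * (mx a).map σ * (star (u.1.map σ) * (star g.1 * u.1))) *
        star u.1
      = (u.1 * star u.1) * g.1 * u.1.map σ * (mx a).map σ * star (u.1.map σ) * star g.1 *
        (u.1 * star u.1) := by
        simp only [mul_assoc]
    _ = _ := by
        rw [gu_star, one_mul, mul_one]
        simp only [mul_assoc]

lemma SHom.tw {L : Subgroup G} {ε : SU K n →* G} (h : SHom p L ε) (u : GU K n) :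
    SHom p L (ε.comp (cjU u)) := by
  refine ⟨?_, fun g => ?_, fun u' x hx hxp hc => ?_⟩
  · rw [← h.range]
    ext y
    constructor
    · rintro ⟨g, rfl⟩
      exact ⟨cjU u g, rfl⟩
    · rintro ⟨g, rfl⟩
      refine ⟨cjU u⁻¹ g, ?_⟩
      show ε (cjU u (cjU u⁻¹ g)) = ε g
      rw [cjU_cjU, mul_inv_cancel, cjU_one]
  · rw [MonoidHom.comp_apply, h.ker]
    constructor
    · rintro ⟨a, ha⟩
      rw [mx_cjU, ← conj_smul_one u] at ha
      exact ⟨a, conj_inj u ha⟩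
    · rintro ⟨a, ha⟩
      exact ⟨a, by rw [mx_cjU, ha, conj_smul_one]⟩
  · rw [Au_comp] at hc
    obtain ⟨g, σ, hg⟩ := h.sem (u * u') x hx hxp hc
    exact ⟨_, _, acts_tw hg u⟩

lemma Qd_tw {ε : SU K n →* G} (u : GU K n) {x : G} : x ∈ Qd (ε.comp (cjU u)) ↔ x ∈ Qd ε := by
  constructor
  · rintro ⟨g, hg⟩
    refine ⟨u * g * u⁻¹, fun h => ?_⟩
    have h1 := hg (cjU u⁻¹ h)
    have h2 : ∀ y : SU K n, (ε.comp (cjU u)) y = ε (cjU u y) := fun y => rfl
    rw [h2, h2, cjU_cjU, cjU_cjU, cjU_cjU, mul_inv_cancel, cjU_one] at h1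
    rw [h1, mul_assoc u g u⁻¹]
  · rintro ⟨g, hg⟩
    refine ⟨u⁻¹ * g * u, fun h => ?_⟩
    have h2 : ∀ y : SU K n, (ε.comp (cjU u)) y = ε (cjU u y) := fun y => rfl
    have h3 : u * (u⁻¹ * g * u) = g * u := by rw [mul_assoc, mul_inv_cancel_left]
    rw [h2, h2, hg, cjU_cjU, cjU_cjU, h3]

/-- elements that act as a matrix -/
lemma acts_refl {ε : SU K n →* G} {x : G} {g : GU K n} (h : ActsS ε x g (RingEquiv.refl K))
    (y : SU K n) : x * ε y * x⁻¹ = ε (cjU g y) :=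
  h.2 y (cjU g y) (by
    have h1 : (mx y).map (RingEquiv.refl K) = mx y := by ext i j; simp
    rw [mx_cjU, h1])

/-- the group `Q` -/
def QD (ε : SU K n →* G) : Subgroup G where
  carrier := Qd ε
  mul_mem' := by
    rintro a b ⟨g, hg⟩ ⟨g', hg'⟩
    refine ⟨g * g', fun h => ?_⟩
    have h1 : a * b * ε h * (a * b)⁻¹ = a * (b * ε h * b⁻¹) * a⁻¹ := by group
    rw [h1, hg', hg, cjU_cjU]
  one_mem' := ⟨1, fun h => by rw [cjU_one]; group⟩
  inv_mem' := by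
    rintro a ⟨g, hg⟩
    refine ⟨g⁻¹, fun h => ?_⟩
    have h1 := hg (cjU g⁻¹ h)
    rw [cjU_cjU, mul_inv_cancel, cjU_one] at h1
    rw [← h1]
    group

lemma mem_QD {ε : SU K n →* G} {x : G} : x ∈ QD ε ↔ x ∈ Qd ε := Iff.rfl

lemma le_QD {L : Subgroup G} {ε : SU K n →* G} (h : ε.range = L) :
    L ⊔ Subgroup.centralizer (L : Set G) ≤ QD ε := by
  refine sup_le (fun x hx => ?_) fun x hx => ?_
  · rw [← h] at hx
    obtain ⟨m, rfl⟩ := hx
    refine ⟨m.1, fun y => ?_⟩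
    rw [← map_inv, ← map_mul, ← map_mul]
    rfl
  · refine ⟨1, fun y => ?_⟩
    have h1 := Subgroup.mem_centralizer_iff.1 hx (ε y) (by
      rw [SetLike.mem_coe, ← h]; exact ⟨y, rfl⟩)
    rw [cjU_one, ← h1]
    group

lemma Au_le (ε : SU K n →* G) {L : Subgroup G} (h : ε.range = L) (u : GU K n) : Au p ε u ≤ L := by
  rintro _ ⟨y, -, rfl⟩
  rw [← h]
  exact ⟨_, rfl⟩

end

section
variable {K : Type u} [Field K] [Fintype K] [StarRing K] {m : ℕ}
variable {p : ℕ} {ζ : K} {G : Type v} [Group G] {L : Subgroup G} {ε : SU K (m + 1) →* G}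

lemma NumD.pack (hN : NumD K p (m + 1) ζ) (hε : SHom p L ε) [Fact p.Prime] :
    Pack p ζ (⊤ : Subgroup (GU K m)) (ε.comp jj) :=
  pack_top hN.pow hN.ne hN.st (by have := hN.hn; omega) hN.dvd hε.ker

/-- the group of a frame of the complement is one of the groups `Au` -/
lemma De_Au (hN : NumD K p (m + 1) ζ) (hε : SHom p L ε) [Fact p.Prime] {w : List (Ln K m)}
    (hw : w ∈ Fr K m) : ∃ v : GU K (m + 1),
      De (eS (⊤ : Subgroup (GU K m)) ζ 1 (ε.comp jj)) w = Au p ε v ∧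
        Au p ε v ≤ (ε.comp jj).range := by
  obtain ⟨v, rfl⟩ := exists_lnU hw
  refine ⟨rr v 1 (by simp), ?_, ?_⟩
  · rw [(hN.pack hε).De_map top_conj hN.pow hN.ne v, Au_jj]
  · rw [← Au_jj]
    rintro _ ⟨y, -, rfl⟩
    exact ⟨_, rfl⟩

lemma Au_ApS (hN : NumD K p (m + 1) ζ) (hε : SHom p L ε) [Fact p.Prime] (u : GU K (m + 1)) :
    Au p ε u ∈ ApS p G ∧ Nat.card (Au p ε u) = p ^ (m - 1) := by
  have hε' := hε.tw u
  have hP := hN.pack hε'
  have hm : 2 ≤ m := by have := hN.hn; omega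
  have h1 : De (eS (⊤ : Subgroup (GU K m)) ζ 1 ((ε.comp (cjU u)).comp jj)) (w0 K m) =
      Au p ε u := by
    rw [hP.De_w0 hN.pow hN.ne, ← Subgroup.map_map, map_TD_top]
    rfl
  rw [← h1]
  exact ⟨De_ApS hP.comb hm w0_mem, hP.comb.card _ w0_mem⟩

variable [Finite G] [Fact p.Prime]

/-- package I, no outer element -/
lemma coreI1 (𝕜 : Type w) [Field 𝕜] (hN : NumD K p (m + 1) ζ) (hε : SHom p L ε)
    (ht : 0 < AS.t (Fr K m)) :
    ∃ v : GU K (m + 1), Au p ε v ≤ (ε.comp jj).range ∧ TC 𝕜 p (ε.comp jj).range (Au p ε v) := by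
  have hP := hN.pack hε
  obtain ⟨w, hw, h1⟩ := hP.t1 𝕜 (F := Fr K m) (Finset.Subset.refl _) hP.comb.perm ht
    (ε.comp jj).range (fun u v _ => ⟨_, rfl⟩)
  obtain ⟨v, h2, h3⟩ := De_Au hN hε hw
  rw [h2] at h1
  exact ⟨v, h3, h1⟩

/-- package I, centralizer of a field automorphism -/
lemma coreI2 (𝕜 : Type w) [Field 𝕜] (hN : NumD K p (m + 1) ζ) (hε : SHom p L ε) {t : G}
    {g₀ : GU K m} {σ : K ≃+* K} (hact : ActsS (ε.comp jj) t g₀ σ) (hσ : σ ζ = ζ)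
    (hcnt : SCntG (⊤ : Subgroup (GU K m)) g₀ σ) :
    ∃ v : GU K (m + 1), Au p ε v ≤ (ε.comp jj).range ∧ (∀ a ∈ Au p ε v, t * a = a * t) ∧
      TC 𝕜 p ((ε.comp jj).range ⊓ Subgroup.centralizer ({t} : Set G)) (Au p ε v) := by
  have hP := hN.pack hε
  obtain ⟨F, hF, hp, hfix, hcount⟩ := hcnt
  have htF : 0 < AS.t F := by
    by_contra h0
    have h1 : AS.t F = 0 := by omega
    rw [h1, mul_zero, mul_zero] at hcount
    exact Nat.not_lt_zero _ hcount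
  obtain ⟨w, hw, h0, h1⟩ := hP.t2 𝕜 hact hσ hF hp hfix htF
  obtain ⟨v, h2, h3⟩ := De_Au hN hε hw
  rw [h2] at h0 h1
  exact ⟨v, h3, h0, h1⟩

/-- package I, with a field automorphism -/
lemma coreI3 (𝕜 : Type w) [Field 𝕜] (hN : NumD K p (m + 1) ζ) (hε : SHom p L ε) {t : G}
    {g₀ : GU K m} {σ : K ≃+* K} (hact : ActsS (ε.comp jj) t g₀ σ) (hσ : σ ζ = ζ) (htp : t ^ p = 1)
    (htL : t ∉ L) (hcnt : SCntG (⊤ : Subgroup (GU K m)) g₀ σ) :
    ∃ (v : GU K (m + 1)) (y : G), Au p ε v ≤ (ε.comp jj).range ∧ y * t⁻¹ ∈ (ε.comp jj).range ∧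
      y ^ p = 1 ∧ (∀ a ∈ Au p ε v, y * a = a * y) ∧
      TC 𝕜 p ((ε.comp jj).range ⊔ Subgroup.zpowers t) (Au p ε v ⊔ Subgroup.zpowers y) := by
  have hP := hN.pack hε
  have hle : (ε.comp jj).range ≤ L := by
    rw [← hε.range]
    rintro _ ⟨x, rfl⟩
    exact ⟨_, rfl⟩
  obtain ⟨w, hw, y, h0, h1, h2, h3⟩ := hP.t3 𝕜 hact (fun _ _ => trivial) hσ htp
    (fun h => htL (hle h)) hcnt
  obtain ⟨v, h4, h5⟩ := De_Au hN hε hw
  rw [h4] at h2 h3
  exact ⟨v, y, h5, h0, h1, h2, h3⟩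

omit [Finite G] [Fact p.Prime] in
/-- elements that act as `diag(1, .., 1, c)` commute with package I -/
lemma cent_jj {e₁ : G} {s : GU K (m + 1)} {c : K} (hc : c * star c = 1) (hs : s.1 = RR 1 c)
    (h : ∀ x : SU K (m + 1), e₁ * ε x * e₁⁻¹ = ε (cjU s x)) :
    ∀ x ∈ (ε.comp jj).range, e₁ * x = x * e₁ := by
  rintro _ ⟨g, rfl⟩
  have h1 := h (jj g)
  have h2 : cjU s (jj g) = jj g := by
    apply mx_inj
    rw [mx_cjU, mx_jj, hs, RR_mul, RR_star, RR_mul, star_one, one_mul, mul_one, mul_right_comm, hc,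
      one_mul]
  rw [h2, mul_inv_eq_iff_eq_mul] at h1
  exact h1

end

end

end Vale.Agent.P240.R2.H938
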