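import Vale.Agent.P240.R2.H938.W7

/-!
The top cycles of package II.
-/

set_option autoImplicit false
set_option linter.all false

namespace Vale.Agent.P240.R2.H938

open Matrix Vale.Agent.P240.R2.H38 Vale.Agent.P240.K
open Vale.Agent.P240.R2.AS hiding SU
open Vale.Agent.P240.R2.H402 (RR RR_one RR_add RR_smul det_RR)
open scoped Classical

universe u v w

noncomputable section

section
variable {K : Type u} [Field K] [Fintype K] [StarRing K] {n : ℕ}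
variable {p : ℕ} {ζ : K} {G : Type v} [Group G] {L : Subgroup G} {ε : SU K n →* G} {s : GU K n}
  {e₁ : G}

variable [hp : Fact p.Prime]

/-- a diagonal matrix with the determinant of `s` -/
structure Dg (p : ℕ) (ζ : K) (s₀ : GU K n) : Prop where
  diag : ∃ d : Fin n → K, s₀.1 = diagonal d
  det : s₀.1.det = ζ
  pow : s₀ ^ p = 1

/-- the outer element of a frame -/
def P2.ev (h : P2 p ζ L ε s e₁) {s₀ : GU K n} (h₀ : Dg p ζ s₀) (v : GU K n) : G :=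
  h.hom (cjH SZ_conj v ⟨s₀, mem_SZ h₀.det h.pow⟩)

lemma P2.ev_pow (h : P2 p ζ L ε s e₁) {s₀ : GU K n} (h₀ : Dg p ζ s₀) (v : GU K n) :
    h.ev h₀ v ^ p = 1 := by
  have h1 : (⟨s₀, mem_SZ h₀.det h.pow⟩ : SZ K n p) ^ p = 1 := Subtype.ext h₀.pow
  rw [P2.ev, ← map_pow, ← map_pow, h1, map_one, map_one]

lemma P2.ev_mem (h : P2 p ζ L ε s e₁) {s₀ : GU K n} (h₀ : Dg p ζ s₀) (v : GU K n) :
    h.ev h₀ v * e₁⁻¹ ∈ L := by
  have h1 : v * s₀ * v⁻¹ * s⁻¹ ∈ SU K n := by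
    show (v.1 * s₀.1 * star v.1 * star s.1).det = 1
    rw [det_mul, det_conj, star_eq_conjTranspose, det_conjTranspose, h.det, h₀.det, h.st]
  have h2 : h.ev h₀ v * e₁⁻¹ = h.hom ⟨v * s₀ * v⁻¹ * s⁻¹, SU_le_SZ h1⟩ := by
    have h3 : e₁⁻¹ = (h.hom ⟨s, h.s_mem⟩)⁻¹ := congrArg Inv.inv h.hom_s.symm
    have h4 : h.ev h₀ v * (h.hom ⟨s, h.s_mem⟩)⁻¹ =
        h.hom (cjH SZ_conj v ⟨s₀, mem_SZ h₀.det h.pow⟩ * ⟨s, h.s_mem⟩⁻¹) := by
      rw [map_mul, map_inv]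
      rfl
    exact (congrArg (fun z => h.ev h₀ v * z) h3).trans h4
  rw [h2]
  have h4 : h.hom ⟨v * s₀ * v⁻¹ * s⁻¹, SU_le_SZ h1⟩ = ε ⟨v * s₀ * v⁻¹ * s⁻¹, h1⟩ :=
    h.hom_SU ⟨v * s₀ * v⁻¹ * s⁻¹, h1⟩
  have h5 : ε ⟨v * s₀ * v⁻¹ * s⁻¹, h1⟩ ∈ ε.range := ⟨_, rfl⟩
  rw [h.range] at h5
  rw [h4]
  exact h5

variable [Finite G]

/-- the group of a frame -/
lemma P2.De_ev (h : P2 p ζ L ε s e₁) {s₀ : GU K n} (h₀ : Dg p ζ s₀)
    {w : List (Ln K n)} (hw : w ∈ Fr K n) : ∃ v : GU K n,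
      De (eS (SZ K n p) ζ 1 h.hom) w = Au p ε v ⊔ Subgroup.zpowers (h.ev h₀ v) ∧
      (∀ a ∈ Au p ε v, h.ev h₀ v * a = a * h.ev h₀ v) := by
  obtain ⟨v, rfl⟩ := exists_lnU hw
  obtain ⟨d, hs⟩ := h₀.diag
  have h1 : De (eS (SZ K n p) ζ 1 h.hom) ((w0 K n).map (lnU v)) =
      Au p ε v ⊔ Subgroup.zpowers (h.ev h₀ v) := by
    rw [h.pack.De_map SZ_conj h.pow h.ne v, h.au hs h₀.det h₀.pow]
    rfl
  refine ⟨v, h1, fun a ha => ?_⟩
  have h2 := De_ApS h.pack.comb h.hn hw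
  rw [h1] at h2
  exact h2.2.1 _ (Subgroup.mem_sup_right (Subgroup.mem_zpowers _)) a (Subgroup.mem_sup_left ha)

/-- package II, no further element -/
lemma coreII1 (𝕜 : Type w) [Field 𝕜] (h : P2 p ζ L ε s e₁) {s₀ : GU K n} (h₀ : Dg p ζ s₀)
    (ht : 0 < AS.t (Fr K n)) :
    ∃ (v : GU K n) (e' : G), e' * e₁⁻¹ ∈ L ∧ e' ^ p = 1 ∧ (∀ a ∈ Au p ε v, e' * a = a * e') ∧
      TC 𝕜 p (L ⊔ Subgroup.zpowers e₁) (Au p ε v ⊔ Subgroup.zpowers e') := by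
  obtain ⟨w, hw, h1⟩ := h.pack.t1 𝕜 (F := Fr K n) (Finset.Subset.refl _) h.pack.comb.perm ht
    h.hom.range (fun u v _ => ⟨_, rfl⟩)
  obtain ⟨v, h2, h3⟩ := h.De_ev h₀ hw
  rw [h2, h.range_hom] at h1
  exact ⟨v, h.ev h₀ v, h.ev_mem h₀ v, h.ev_pow h₀ v, h3, h1⟩

/-- package II, centralizer of a field automorphism -/
lemma coreII2 (𝕜 : Type w) [Field 𝕜] (h : P2 p ζ L ε s e₁) {s₀ : GU K n} (h₀ : Dg p ζ s₀)
    {t : G} {g₀ : GU K n} {σ : K ≃+* K} (ht : ActsS ε t g₀ σ) (hσ : σ ζ = ζ)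
    (hte : t * e₁ = e₁ * t) (hgs : g₀ * gmap σ ht.1 s = s * g₀) (hcnt : SCntG (SZ K n p) g₀ σ) :
    ∃ (v : GU K n) (e' : G), e' * e₁⁻¹ ∈ L ∧ e' ^ p = 1 ∧ (∀ a ∈ Au p ε v, e' * a = a * e') ∧
      (∀ a ∈ Au p ε v, t * a = a * t) ∧ t * e' = e' * t ∧
      TC 𝕜 p ((L ⊔ Subgroup.zpowers e₁) ⊓ Subgroup.centralizer ({t} : Set G))
        (Au p ε v ⊔ Subgroup.zpowers e') := by
  obtain ⟨F, hF, hpm, hfix, hcount⟩ := hcnt
  have htF : 0 < AS.t F := by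
    by_contra h0
    have h1 : AS.t F = 0 := by omega
    rw [h1, mul_zero, mul_zero] at hcount
    exact Nat.not_lt_zero _ hcount
  obtain ⟨w, hw, h0, h1⟩ := h.pack.t2 𝕜 (h.acts ht hσ hte hgs) hσ hF hpm hfix htF
  obtain ⟨v, h2, h3⟩ := h.De_ev h₀ hw
  rw [h2] at h0 h1
  rw [h.range_hom] at h1
  exact ⟨v, h.ev h₀ v, h.ev_mem h₀ v, h.ev_pow h₀ v, h3,
    fun a ha => h0 a (Subgroup.mem_sup_left ha),
    h0 _ (Subgroup.mem_sup_right (Subgroup.mem_zpowers _)), h1⟩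

/-- package II, with a field automorphism -/
lemma coreII3 (𝕜 : Type w) [Field 𝕜] (h : P2 p ζ L ε s e₁) {s₀ : GU K n} (h₀ : Dg p ζ s₀)
    {t : G} {g₀ : GU K n} {σ : K ≃+* K} (ht : ActsS ε t g₀ σ) (hσ : σ ζ = ζ)
    (hte : t * e₁ = e₁ * t) (hgs : g₀ * gmap σ ht.1 s = s * g₀) (htp : t ^ p = 1)
    (htL : t ∉ L ⊔ Subgroup.zpowers e₁) (hcnt : SCntG (SZ K n p) g₀ σ) :
    ∃ (v : GU K n) (e' y : G), e' * e₁⁻¹ ∈ L ∧ e' ^ p = 1 ∧ y * t⁻¹ ∈ L ⊔ Subgroup.zpowers e₁ ∧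
      y ^ p = 1 ∧ (∀ a ∈ Au p ε v, e' * a = a * e') ∧ (∀ a ∈ Au p ε v, y * a = a * y) ∧
      e' * y = y * e' ∧ TC 𝕜 p (L ⊔ Subgroup.zpowers e₁ ⊔ Subgroup.zpowers t)
        (Au p ε v ⊔ Subgroup.zpowers e' ⊔ Subgroup.zpowers y) := by
  have hfr : ∀ x ∈ SZ K n p, g₀ * gmap σ ht.1 x * g₀⁻¹ ∈ SZ K n p := fun x hx =>
    SZ_conj g₀ _ (SZ_gmap σ ht.1 x hx)
  obtain ⟨w, hw, y, h0, h1, h2, h3⟩ := h.pack.t3 𝕜 (h.acts ht hσ hte hgs) hfr hσ htp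
    (by rw [h.range_hom]; exact htL) hcnt
  obtain ⟨v, h4, h5⟩ := h.De_ev h₀ hw
  rw [h4] at h2 h3
  rw [h.range_hom] at h0 h3
  exact ⟨v, h.ev h₀ v, y, h.ev_mem h₀ v, h.ev_pow h₀ v, h0, h1, h5,
    fun a ha => h2 a (Subgroup.mem_sup_left ha),
    (h2 _ (Subgroup.mem_sup_right (Subgroup.mem_zpowers _))).symm, h3⟩

end

section
variable {K : Type u} [Field K] [Fintype K] [StarRing K] {m : ℕ}
variable {p : ℕ} {ζ : K} {G : Type v} [Group G] {L : Subgroup G} {ε : SU K (m + 1) →* G}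

omit [Fintype K] [StarRing K] in
lemma last_RR (c : K) : (diagonal (fun i => if i = Fin.last m then c else 1) :
    Matrix (Fin (m + 1)) (Fin (m + 1)) K) = RR 1 c := by
  rw [← diagonal_one, RR_diagonal]
  congr 1
  funext i
  obtain ⟨j, rfl⟩ := finSumFinEquiv.surjective i
  rw [Equiv.symm_apply_apply]
  rcases j with j | j
  · have h : finSumFinEquiv (Sum.inl j : Fin m ⊕ Fin 1) ≠ Fin.last m := by
      rw [finSumFinEquiv_apply_left]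
      intro h
      have := congrArg Fin.val h
      simp at this
      omega
    rw [if_neg h]
    rfl
  · have h : finSumFinEquiv (Sum.inr j : Fin m ⊕ Fin 1) = Fin.last m := by
      rw [finSumFinEquiv_apply_right, Subsingleton.elim j 0]
      rfl
    rw [if_pos h]
    rfl

/-- the matrix `diag(1, .., 1, ζ')` -/
lemma Dg_of [hp : Fact p.Prime] {ζ' : K} {s : GU K (m + 1)} (h2 : ζ' ^ p = 1)
    (hs : s.1 = diagonal (fun i => if i = Fin.last m then ζ' else 1)) : Dg p ζ' s := by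
  refine ⟨⟨_, hs⟩, ?_, ?_⟩
  · rw [hs, det_diagonal, Finset.prod_ite_eq' Finset.univ (Fin.last m) (fun _ => ζ'),
      if_pos (Finset.mem_univ _)]
  · apply Subtype.ext
    show s.1 ^ p = 1
    rw [hs, diagonal_pow, ← diagonal_one]
    congr 1
    funext i
    show (if i = Fin.last m then ζ' else 1) ^ p = 1
    split_ifs
    · exact h2
    · exact one_pow p

/-- the data of package II, in any coordinates -/
lemma P2_of [hp : Fact p.Prime] (hN : NumD K p (m + 1) ζ) (hε : SHom p L ε) {e₁ : G} {ζ' : K}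
    {s : GU K (m + 1)} (h1 : ζ' ≠ 1) (h2 : ζ' ^ p = 1)
    (hs : s.1 = diagonal (fun i => if i = Fin.last m then ζ' else 1))
    (hact : ActsS ε e₁ s (RingEquiv.refl K)) (hep : e₁ ^ p = 1)
    (hnot : e₁ ∉ L ⊔ Subgroup.centralizer (L : Set G)) (u : GU K (m + 1)) :
    P2 p ζ' L (ε.comp (cjU u)) (u⁻¹ * s * u) e₁ := by
  haveI : NeZero p := ⟨hp.out.ne_zero⟩
  have hprim : IsPrimitiveRoot ζ p := by
    rw [← orderOf_eq_prime hN.pow hN.ne]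
    exact IsPrimitiveRoot.orderOf ζ
  have hst : ζ' * star ζ' = 1 := by
    have := norm_of_diag hs (Fin.last m)
    simpa using this
  have hD := Dg_of h2 hs
  refine ⟨by have := hN.hn; omega, h2, h1, hst, ?_, (hε.tw u).range, (hε.tw u).ker, ?_, ?_, hep,
    fun x => ?_, hnot⟩
  · intro b hb k hk
    obtain ⟨j, -, hj⟩ := hprim.eq_pow_of_pow_eq_one h2
    rw [← hj, ← pow_mul] at hk ⊢
    exact hN.no b hb _ hk
  · have h3 : (u⁻¹ * s * u).1 = (u⁻¹).1 * s.1 * star (u⁻¹).1 := by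
      rw [gu_mul, gu_mul, gu_inv, star_star]
    rw [h3, det_conj, hD.det]
  · have h3 : (u⁻¹ * s * u) ^ p = u⁻¹ * s ^ p * u := by
      have := conj_pow (i := p) (a := u⁻¹) (b := s)
      rwa [inv_inv] at this
    rw [h3, hD.pow, mul_one, inv_mul_cancel]
  · have h3 : ∀ y : SU K (m + 1), (ε.comp (cjU u)) y = ε (cjU u y) := fun y => rfl
    have h4 : u * (u⁻¹ * s * u) = s * u := by rw [mul_assoc, mul_inv_cancel_left]
    rw [h3, h3, acts_refl hact, cjU_cjU, cjU_cjU, h4]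

end

end

end Vale.Agent.P240.R2.H938
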