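import Vale.Agent.P240.R2.H938.W8
import Vale.Agent.P240.R2.H38.C2

/-!
The assembly: `LocTopF` for `PSU_n(q)` when the diagonal elements of order `p` are not all inner.
-/

set_option autoImplicit false
set_option linter.all false

namespace Vale.Agent.P240.R2.H938

open Matrix Vale.Agent.P240.R2.H38 Vale.Agent.P240.K Vale.Agent.P240.R2.H487
open Vale.Agent.P240.R2.AS hiding SU
open Vale.Agent.P240.R2.H402 (RR RR_one RR_add RR_smul det_RR)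
open scoped Classical

universe u v w

noncomputable section

/-- literal form and count in dimension `m` -/
def HI (m p : ℕ) (K : Type u) [Field K] [Fintype K] [StarRing K] (ζ : K) : Prop :=
  ∀ σ : K ≃+* K, (∀ a, σ (star a) = star (σ a)) → (σ : RingAut K) ^ p = 1 → σ ≠ RingEquiv.refl K →
    σ ζ = ζ → ∀ a : Fin m → K, (∀ i, a i * star (a i) = 1) →
      (∀ i j, ∏ k ∈ Finset.range p, (σ^[k]) (a i) = ∏ k ∈ Finset.range p, (σ^[k]) (a j)) →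
      (∃ (v : GU K m) (b : K), diagonal a * v.1.map σ = b • v.1) ∧
        SCntG (⊤ : Subgroup (GU K m)) 1 σ

/-- literal form and count in dimension `m + 1` -/
def HII (m p : ℕ) (K : Type u) [Field K] [Fintype K] [StarRing K] (ζ : K) : Prop :=
  ∀ σ : K ≃+* K, (∀ a, σ (star a) = star (σ a)) → (σ : RingAut K) ^ p = 1 → σ ≠ RingEquiv.refl K →
    σ ζ = ζ → ∀ a : Fin (m + 1) → K, (∀ i, a i * star (a i) = 1) →
      (∀ i j, ∏ k ∈ Finset.range p, (σ^[k]) (a i) = ∏ k ∈ Finset.range p, (σ^[k]) (a j)) →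
      ∀ ζ' : K, ζ' ≠ 1 → ζ' ^ p = 1 → ∃ (k : ℕ) (u d : GU K (m + 1)) (b : K),
        diagonal (fun i => a i * (if i = Fin.last m then ζ' ^ k else 1)) * u.1.map σ =
          b • (u.1 * d.1) ∧ SCntG (SZ K (m + 1) p) d σ

section
variable {K : Type u} [Field K] [Fintype K] [StarRing K] {n : ℕ}
variable {p : ℕ} {ζ : K} {G : Type v} [Group G] {L : Subgroup G}

/-- products with elements that act linearly -/
lemma acts_mul_refl {ε : SU K n →* G} {t y : G} {g s : GU K n} {σ : K ≃+* K}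
    (ht : ActsS ε t g σ) (hy : ∀ x, y * ε x * y⁻¹ = ε (cjU s x)) :
    ActsS ε (t * y) (g * gmap σ ht.1 s) σ := by
  refine ⟨ht.1, fun a b hab => ?_⟩
  have h1 : t * y * ε a * (t * y)⁻¹ = t * (y * ε a * y⁻¹) * t⁻¹ := by group
  rw [h1, hy]
  refine ht.2 _ _ ?_
  rw [hab, mx_cjU, gu_mul, gmap_coe, map_mul_mat, map_mul_mat, map_star_mat ht.1, star_mul]
  simp only [mul_assoc]

end

section
variable {K : Type u} [Field K] [Fintype K] [StarRing K] {m : ℕ}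
variable {p : ℕ} {ζ : K} {G : Type v} [Group G] {L : Subgroup G} {ε : SU K (m + 1) →* G}

omit [Fintype K] [StarRing K] in
lemma diag_RR (a : Fin (m + 1) → K) : diagonal a =
    RR (diagonal fun i : Fin m => a (finSumFinEquiv (Sum.inl i)))
      (a (finSumFinEquiv (Sum.inr 0 : Fin m ⊕ Fin 1))) := by
  rw [RR_diagonal]
  congr 1
  funext i
  obtain ⟨j, rfl⟩ := finSumFinEquiv.surjective i
  rw [Equiv.symm_apply_apply]
  rcases j with j | j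
  · rfl
  · rw [Subsingleton.elim j 0]
    rfl

/-- the literal form in package I -/
lemma lit1 [Fact p.Prime] (hN : NumD K p (m + 1) ζ) (hI : HI m p K ζ) {t : G} {g : GU K (m + 1)}
    {σ : K ≃+* K} {a : Fin (m + 1) → K} (ht : ActsS ε t g σ) (hg : g.1 = diagonal a)
    (hσζ : σ ζ = ζ) (hσp : (σ : RingAut K) ^ p = 1) (hσ : σ ≠ RingEquiv.refl K)
    (ha : ∀ i, a i * star (a i) = 1)
    (hprod : ∀ i j, ∏ k ∈ Finset.range p, (σ^[k]) (a i) = ∏ k ∈ Finset.range p, (σ^[k]) (a j)) :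
    SCntG (⊤ : Subgroup (GU K m)) 1 σ ∧ ∃ (v : GU K m),
      ActsS ((ε.comp (cjU (rr v 1 (by simp)))).comp jj) t 1 σ := by
  obtain ⟨⟨v, b, hv⟩, hcnt⟩ := hI σ ht.1 hσp hσ hσζ
    (fun i => a (finSumFinEquiv (Sum.inl i))) (fun i => ha _) (fun i j => hprod _ _)
  refine ⟨hcnt, v, ?_⟩
  have h1 := acts_tw ht (rr v 1 (by simp))
  have hd : ∀ i, a (finSumFinEquiv (Sum.inl i : Fin m ⊕ Fin 1)) *
      star (a (finSumFinEquiv (Sum.inl i : Fin m ⊕ Fin 1))) = 1 := fun i => ha _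
  have hm : 0 < m := by have := hN.hn; omega
  have h2 : ((rr v 1 (by simp))⁻¹ * g * gmap σ ht.1 (rr v 1 (by simp)) : GU K (m + 1)).1 =
      RR (v⁻¹ * dgU _ hd * gmap σ ht.1 v : GU K m).1
        (a (finSumFinEquiv (Sum.inr 0 : Fin m ⊕ Fin 1))) := by
    rw [gu_mul, gu_mul, gu_mul, gu_mul, gu_inv, gu_inv, gmap_coe, gmap_coe, hg, diag_RR, rr_coe,
      RR_map, RR_star, RR_mul, RR_mul, map_one, star_one, one_mul, mul_one]
    rfl
  have h3 := acts_jj (ha _) h2 h1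
  refine h3.smul hm (a := b) ?_
  rw [gu_mul, gu_mul, gu_inv, gmap_coe, mul_assoc]
  show star v.1 * (diagonal _ * v.1.map σ) = _
  rw [hv, mul_smul_comm, star_gu]
  rfl

/-- `diag(1, .., 1, c)` commutes with block matrices -/
lemma comm_rr {s : GU K (m + 1)} {c : K} (hs : s.1 = RR 1 c) (v : GU K m) :
    s * rr v 1 (by simp) = rr v 1 (by simp) * s := by
  apply Subtype.ext
  show s.1 * RR v.1 1 = RR v.1 1 * s.1
  rw [hs, RR_mul, RR_mul, one_mul, mul_one, one_mul, mul_one]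

variable [Finite G] [Fact p.Prime]

/-- the data of `e` -/
lemma exists_e (hN : NumD K p (m + 1) ζ) (hε : SHom p L ε) (C4 : StmtC4.{u, v}) {e : G}
    (he : e ∈ Qd ε) (heM : e ∉ L ⊔ Subgroup.centralizer (L : Set G)) (hep : e ^ p = 1)
    (hec : ∀ a ∈ Au p ε 1, e * a = a * e) :
    ∃ a ∈ Au p ε 1, ∃ (ζ' : K) (s : GU K (m + 1)), ζ' ≠ 1 ∧ ζ' ^ p = 1 ∧
      s.1 = diagonal (fun i => if i = Fin.last m then ζ' else 1) ∧
      (∀ x, (e * a) * ε x * (e * a)⁻¹ = ε (cjU s x)) ∧ (e * a) ^ p = 1 ∧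
      e * a ∉ L ⊔ Subgroup.centralizer (L : Set G) ∧ ActsS ε (e * a) s (RingEquiv.refl K) := by
  obtain ⟨a, ha, ζ', h1, h2, s, h3, h4⟩ := C4 hN hε e he heM hep hec
  have hA := (Au_ApS hN hε (1 : GU K (m + 1))).1
  refine ⟨a, ha, ζ', s, h1, h2, h3, acts_refl h4, ?_, fun h => heM ?_, h4⟩
  · have h5 : (e * a) ^ p = e ^ p * a ^ p := Commute.mul_pow (hec a ha) p
    rw [h5, hep, hA.2.2 a ha, one_mul]
  · have h5 : e = (e * a) * a⁻¹ := by rw [mul_inv_cancel_right]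
    rw [h5]
    exact mul_mem h (Subgroup.mem_sup_left (inv_mem (Au_le ε hε.range _ ha)))

/-- the data of `t` -/
lemma exists_t (hN : NumD K p (m + 1) ζ) (hε : SHom p L ε) (C1 : StmtC1.{u, v}) {t : G}
    (ht : t ∈ Subgroup.normalizer (L : Set G)) (htQ : t ∉ Qd ε) (htp : t ^ p = 1)
    (htc : ∀ a ∈ Au p ε 1, t * a = a * t) :
    ∃ (g : GU K (m + 1)) (σ : K ≃+* K) (a : Fin (m + 1) → K), ActsS ε t g σ ∧ g.1 = diagonal a ∧
      σ ζ = ζ ∧ (σ : RingAut K) ^ p = 1 ∧ σ ≠ RingEquiv.refl K ∧ (∀ i, a i * star (a i) = 1) ∧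
      (∀ i j, ∏ k ∈ Finset.range p, (σ^[k]) (a i) = ∏ k ∈ Finset.range p, (σ^[k]) (a j)) := by
  obtain ⟨g, σ, a, h1, h2, h3, h4, h5, h6⟩ := C1 hN hε t ht htp htc
  refine ⟨g, σ, a, h1, h2, h3, h4, ?_, h5, h6⟩
  rintro rfl
  exact htQ ⟨g, acts_refl h1⟩

omit [Finite G] in
lemma jj_le (hr : ε.range = L) : (ε.comp jj).range ≤ L := by
  rw [← hr]
  rintro _ ⟨x, rfl⟩
  exact ⟨_, rfl⟩

/-- (T1) -/
lemma TE1 (𝕜 : Type w) [Field 𝕜] (hN : NumD K p (m + 1) ζ) (hε : SHom p L ε)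
    (ht : 0 < AS.t (Fr K m)) : ∃ v : GU K (m + 1), TC 𝕜 p L (Au p ε v) := by
  obtain ⟨v, -, α, φ, h⟩ := coreI1 𝕜 hN hε ht
  exact ⟨v, α, φ, r5_mono (jj_le hε.range) h⟩

/-- (Te) -/
lemma TEe (𝕜 : Type w) [Field 𝕜] (hN : NumD K p (m + 1) ζ) (hε : SHom p L ε)
    (C4 : StmtC4.{u, v}) (ht1 : 0 < AS.t (Fr K m)) {e : G} (he : e ∈ Qd ε)
    (heM : e ∉ L ⊔ Subgroup.centralizer (L : Set G)) (hep : e ^ p = 1)
    (hec : ∀ a ∈ Au p ε 1, e * a = a * e) :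
    ∃ a ∈ Au p ε 1, ∃ v : GU K (m + 1), (∀ c ∈ Au p ε v, (e * a) * c = c * (e * a)) ∧
      TC 𝕜 p (L ⊓ Subgroup.centralizer ({e * a} : Set G)) (Au p ε v) := by
  obtain ⟨a, ha, ζ', s, h1, h2, h3, h4, h5, h6, h7⟩ := exists_e hN hε C4 he heM hep hec
  obtain ⟨v, hv, α, φ, h⟩ := coreI1 𝕜 hN hε ht1
  have hst : ζ' * star ζ' = 1 := by
    have := norm_of_diag h3 (Fin.last m)
    simpa using this
  have hc := cent_jj hst (h3.trans (last_RR ζ')) h4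
  refine ⟨a, ha, v, fun c hc' => hc c (hv hc'), α, φ, r5_mono (le_inf (jj_le hε.range) ?_) h⟩
  intro x hx
  rw [Subgroup.mem_centralizer_singleton_iff]
  exact (hc x hx).symm

/-- (Tt) -/
lemma TEt (𝕜 : Type w) [Field 𝕜] (hN : NumD K p (m + 1) ζ) (hε : SHom p L ε)
    (C1 : StmtC1.{u, v}) (hI : HI m p K ζ) {t : G} (ht : t ∈ Subgroup.normalizer (L : Set G))
    (htQ : t ∉ Qd ε) (htp : t ^ p = 1) (htc : ∀ a ∈ Au p ε 1, t * a = a * t) :
    ∃ v : GU K (m + 1), (∀ c ∈ Au p ε v, t * c = c * t) ∧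
      TC 𝕜 p (L ⊓ Subgroup.centralizer ({t} : Set G)) (Au p ε v) := by
  obtain ⟨g, σ, a, h1, h2, h3, h4, h5, h6, h7⟩ := exists_t hN hε C1 ht htQ htp htc
  obtain ⟨hcnt, v₀, h8⟩ := lit1 hN hI h1 h2 h3 h4 h5 h6 h7
  have hε' := hε.tw (rr v₀ 1 (by simp))
  obtain ⟨v, hv, hc, α, φ, h⟩ := coreI2 𝕜 hN hε' h8 h3 hcnt
  rw [Au_comp] at hv hc h
  exact ⟨_, hc, α, φ, r5_mono (inf_le_inf_right _ (jj_le hε'.range)) h⟩

/-- (Tet) -/
lemma TEet (𝕜 : Type w) [Field 𝕜] (hN : NumD K p (m + 1) ζ) (hε : SHom p L ε)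
    (C1 : StmtC1.{u, v}) (C4 : StmtC4.{u, v}) (hI : HI m p K ζ) {e : G} (he : e ∈ Qd ε)
    (heM : e ∉ L ⊔ Subgroup.centralizer (L : Set G)) (hep : e ^ p = 1)
    (hec : ∀ a ∈ Au p ε 1, e * a = a * e) {t : G} (ht : t ∈ Subgroup.normalizer (L : Set G))
    (htQ : t ∉ Qd ε) (htp : t ^ p = 1) (htc : ∀ a ∈ Au p ε 1, t * a = a * t) :
    ∃ a ∈ Au p ε 1, ∃ v : GU K (m + 1), (∀ c ∈ Au p ε v, (e * a) * c = c * (e * a)) ∧
      (∀ c ∈ Au p ε v, t * c = c * t) ∧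
      TC 𝕜 p (L ⊓ Subgroup.centralizer ({e * a} : Set G) ⊓
        Subgroup.centralizer ({t} : Set G)) (Au p ε v) := by
  obtain ⟨g, σ, a, h1, h2, h3, h4, h5, h6, h7⟩ := exists_t hN hε C1 ht htQ htp htc
  obtain ⟨hcnt, v₀, h8⟩ := lit1 hN hI h1 h2 h3 h4 h5 h6 h7
  obtain ⟨a', ha', ζ', s, k1, k2, k3, k4, k5, k6, k7⟩ := exists_e hN hε C4 he heM hep hec
  have hst : ζ' * star ζ' = 1 := by
    have := norm_of_diag k3 (Fin.last m)
    simpa using this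
  have hs := k3.trans (last_RR ζ')
  have hε' := hε.tw (rr v₀ 1 (by simp))
  have hc' := cent_jj (ε := ε.comp (cjU (rr v₀ 1 (by simp)))) (e₁ := e * a') hst hs (fun x => by
    show (e * a') * ε (cjU _ x) * (e * a')⁻¹ = ε (cjU _ (cjU s x))
    rw [k4, cjU_cjU, cjU_cjU, comm_rr hs])
  obtain ⟨v, hv, hc, α, φ, h⟩ := coreI2 𝕜 hN hε' h8 h3 hcnt
  rw [Au_comp] at hv hc h
  refine ⟨a', ha', _, fun c hcc => hc' c (hv hcc), hc, α, φ,
    r5_mono (inf_le_inf_right _ (le_inf (jj_le hε'.range) ?_)) h⟩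
  intro x hx
  rw [Subgroup.mem_centralizer_singleton_iff]
  exact (hc' x hx).symm

/-- (St) -/
lemma TESt (𝕜 : Type w) [Field 𝕜] (hN : NumD K p (m + 1) ζ) (hε : SHom p L ε)
    (C1 : StmtC1.{u, v}) (hI : HI m p K ζ) {t : G} (ht : t ∈ Subgroup.normalizer (L : Set G))
    (htQ : t ∉ Qd ε) (htp : t ^ p = 1) (htc : ∀ a ∈ Au p ε 1, t * a = a * t) :
    ∃ (v : GU K (m + 1)) (y : G), y * t⁻¹ ∈ L ∧ y ^ p = 1 ∧ (∀ c ∈ Au p ε v, y * c = c * y) ∧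
      TC 𝕜 p (L ⊔ Subgroup.zpowers t) (Au p ε v ⊔ Subgroup.zpowers y) := by
  obtain ⟨g, σ, a, h1, h2, h3, h4, h5, h6, h7⟩ := exists_t hN hε C1 ht htQ htp htc
  obtain ⟨hcnt, v₀, h8⟩ := lit1 hN hI h1 h2 h3 h4 h5 h6 h7
  have hε' := hε.tw (rr v₀ 1 (by simp))
  obtain ⟨v, y, hv, hy, hyp, hc, α, φ, h⟩ := coreI3 𝕜 hN hε' h8 h3 htp
    (fun h => htQ (le_QD hε.range (Subgroup.mem_sup_left h))) hcnt
  rw [Au_comp] at hv hc h
  exact ⟨_, y, jj_le hε'.range hy, hyp, hc, α, φ, r5_mono (sup_le_sup_right (jj_le hε'.range) _) h⟩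

/-- (Ste) -/
lemma TESte (𝕜 : Type w) [Field 𝕜] (hN : NumD K p (m + 1) ζ) (hε : SHom p L ε)
    (C1 : StmtC1.{u, v}) (C4 : StmtC4.{u, v}) (hI : HI m p K ζ) {e : G} (he : e ∈ Qd ε)
    (heM : e ∉ L ⊔ Subgroup.centralizer (L : Set G)) (hep : e ^ p = 1)
    (hec : ∀ a ∈ Au p ε 1, e * a = a * e) {t : G} (ht : t ∈ Subgroup.normalizer (L : Set G))
    (htQ : t ∉ Qd ε) (htp : t ^ p = 1) (htc : ∀ a ∈ Au p ε 1, t * a = a * t)
    (het : e * t = t * e) :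
    ∃ a ∈ Au p ε 1, ∃ (v : GU K (m + 1)) (y : G), y * t⁻¹ ∈ L ∧ y ^ p = 1 ∧
      (∀ c ∈ Au p ε v, y * c = c * y) ∧ (∀ c ∈ Au p ε v, (e * a) * c = c * (e * a)) ∧
      (e * a) * y = y * (e * a) ∧
      TC 𝕜 p ((L ⊔ Subgroup.zpowers t) ⊓ Subgroup.centralizer ({e * a} : Set G))
        (Au p ε v ⊔ Subgroup.zpowers y) := by
  obtain ⟨g, σ, a, h1, h2, h3, h4, h5, h6, h7⟩ := exists_t hN hε C1 ht htQ htp htc
  obtain ⟨hcnt, v₀, h8⟩ := lit1 hN hI h1 h2 h3 h4 h5 h6 h7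
  obtain ⟨a', ha', ζ', s, k1, k2, k3, k4, k5, k6, k7⟩ := exists_e hN hε C4 he heM hep hec
  have hst : ζ' * star ζ' = 1 := by
    have := norm_of_diag k3 (Fin.last m)
    simpa using this
  have hs := k3.trans (last_RR ζ')
  have hε' := hε.tw (rr v₀ 1 (by simp))
  have hc' := cent_jj (ε := ε.comp (cjU (rr v₀ 1 (by simp)))) (e₁ := e * a') hst hs (fun x => by
    show (e * a') * ε (cjU _ x) * (e * a')⁻¹ = ε (cjU _ (cjU s x))
    rw [k4, cjU_cjU, cjU_cjU, comm_rr hs])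
  obtain ⟨v, y, hv, hy, hyp, hc, α, φ, h⟩ := coreI3 𝕜 hN hε' h8 h3 htp
    (fun h => htQ (le_QD hε.range (Subgroup.mem_sup_left h))) hcnt
  rw [Au_comp] at hv hc h
  -- `t` commutes with `e a`
  have hte : Commute (e * a') t :=
    Commute.mul_left (show Commute e t from het) (show Commute a' t from (htc a' ha').symm)
  have hye : Commute (e * a') y := by
    have h9 : Commute (e * a') (y * t⁻¹) := hc' _ hy
    have h10 : y = (y * t⁻¹) * t := by group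
    rw [h10]
    exact h9.mul_right hte
  refine ⟨a', ha', _, y, jj_le hε'.range hy, hyp, hc, fun c hcc => hc' c (hv hcc), hye.eq, α, φ,
    r5_mono (le_inf (sup_le_sup_right (jj_le hε'.range) _) (sup_le ?_ ?_)) h⟩
  · intro x hx
    rw [Subgroup.mem_centralizer_singleton_iff]
    exact (hc' x hx).symm
  · rw [Subgroup.zpowers_le, Subgroup.mem_centralizer_singleton_iff]
    exact hte.eq.symm

end

end

end Vale.Agent.P240.R2.H938
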